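import Mathlib

/-! Row 332, task Brouwer.  Brouwer's fixed point theorem (bounded-range form).

Plan (Milnor–Rogers).  Transport to `E = EuclideanSpace ℝ (Fin d)` (`toEuclidean`/any continuous
linear equiv).  Suppose no fixed point.  On the compact ball of radius `C+2`, `‖f x - x‖ ≥ δ > 0`,
`δ ≤ 1`; outside it `‖f x - x‖ ≥ 2`.  Take a smooth `g` with `dist (g x) (f x) < δ`
(`Continuous.exists_contMDiff_approx` / `UniformContinuous.exists_contDiff_dist_le`), a bump `χ`
(`ContDiffBump`, `=1` on the ball `C+1`, support in the ball `R = C+2`) and `h x = x - χ x • g x`: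
`h` is `C¹`, never zero, `h x = x` for `‖x‖ ≥ R`.  Put `ϱ x = (R/‖h x‖) • h x`, `u = ϱ - id`,
`ρ_t = id + t u`.  `u` is Lipschitz and bounded on the closed ball `2R` (mean value theorem), so
for small `t>0`: `ρ_t` is injective there, maps `B = closedBall 0 R` onto `B` (into: convexity;
onto: contraction `x ↦ y - t u x` on the closed ball `2R`; a fixed point with `‖x‖ > R` would give
`‖y‖ = (1-t)‖x‖ + tR > R`), and `det(1 + t Du) > 0`.  Change of variables
(`MeasureTheory.lintegral_abs_det_fderiv_eq_addHaar_image` or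
`integral_image_eq_integral_abs_det_fderiv_smul`) gives `∫_B det(1 + t Du) = vol B` for small `t`.
`t ↦ det(1 + t Du x)` is a polynomial of degree `≤ d` (`Polynomial.natDegree_det_X_add_C_le`), so
by Lagrange interpolation at `d+1` small nodes the value at `t = 1` is also `vol B > 0`; but
`det Dϱ = 0` because `‖ϱ‖ = R` is constant (`⟪ϱ x, Dϱ x v⟫ = 0`, `ϱ x ≠ 0`). -/

set_option autoImplicit false

namespace Crest.Agent.R332

namespace BrouwerA

open MeasureTheory Metric Set Polynomial

theorem det_poly {E : Type*} [NormedAddCommGroup E] [NormedSpace ℝ E] [FiniteDimensional ℝ E]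
    (A : E →L[ℝ] E) :
    ∃ p : ℝ[X], p.natDegree ≤ Module.finrank ℝ E ∧
      ∀ t : ℝ, p.eval t = ((1 : E →L[ℝ] E) + t • A).det := by
  classical
  let b := Module.finBasis ℝ E
  let M := LinearMap.toMatrix b b (A : E →ₗ[ℝ] E)
  refine ⟨Matrix.det ((X : ℝ[X]) • M.map C + (1 : Matrix _ _ ℝ).map C), ?_, fun t => ?_⟩
  · simpa using Polynomial.natDegree_det_X_add_C_le M 1
  · have h1 := RingHom.map_det (evalRingHom t)
      ((X : ℝ[X]) • M.map C + (1 : Matrix _ _ ℝ).map C)
    rw [coe_evalRingHom] at h1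
    rw [h1]
    have h2 : (evalRingHom t).mapMatrix ((X : ℝ[X]) • M.map C + (1 : Matrix _ _ ℝ).map C) =
        LinearMap.toMatrix b b (((1 : E →L[ℝ] E) + t • A : E →L[ℝ] E) : E →ₗ[ℝ] E) := by
      have : (((1 : E →L[ℝ] E) + t • A : E →L[ℝ] E) : E →ₗ[ℝ] E) =
          LinearMap.id + t • (A : E →ₗ[ℝ] E) := rfl
      rw [this, map_add (LinearMap.toMatrix b b), map_smul (LinearMap.toMatrix b b),
        LinearMap.toMatrix_id]
      ext i j
      simp only [RingHom.mapMatrix_apply, Matrix.map_apply, Matrix.add_apply, Matrix.smul_apply,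
        smul_eq_mul, coe_evalRingHom, eval_add, eval_mul, eval_X, eval_C, M]
      ring
    rw [h2, LinearMap.det_toMatrix]

theorem lagr (d : ℕ) (ε : ℝ) (hε : 0 < ε) :
    ∃ v l : Fin (d + 1) → ℝ, (∀ i, 0 < v i ∧ v i ≤ ε) ∧ ∑ i, l i = 1 ∧
      ∀ p : ℝ[X], p.natDegree ≤ d → p.eval 1 = ∑ i, l i * p.eval (v i) := by
  classical
  let v : Fin (d + 1) → ℝ := fun i => ε / ((i : ℕ) + 1)
  have hv : Set.InjOn v (Finset.univ : Finset (Fin (d + 1))) := by
    intro i _ j _ hij
    have h1 : ((i : ℕ) : ℝ) + 1 ≠ 0 := by positivity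
    have h2 : ((j : ℕ) : ℝ) + 1 ≠ 0 := by positivity
    simp only [v] at hij
    rw [div_eq_div_iff h1 h2] at hij
    have := mul_left_cancel₀ hε.ne' hij
    have h3 : (j : ℕ) = (i : ℕ) := by exact_mod_cast add_right_cancel this
    exact Fin.ext h3.symm
  refine ⟨v, fun i => (Lagrange.basis Finset.univ v i).eval 1, fun i => ⟨by positivity, ?_⟩,
    ?_, fun p hp => ?_⟩
  · refine div_le_self hε.le ?_
    have : (0 : ℝ) ≤ (i : ℕ) := Nat.cast_nonneg _
    linarith
  · rw [← eval_finsetSum, Lagrange.sum_basis hv Finset.univ_nonempty, eval_one]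
  · have hdeg : p.degree < (Finset.univ : Finset (Fin (d + 1))).card := by
      rw [Finset.card_univ, Fintype.card_fin]
      exact lt_of_le_of_lt degree_le_natDegree (by exact_mod_cast Nat.lt_succ_of_le hp)
    conv_lhs => rw [Lagrange.eq_interpolate hv hdeg]
    rw [Lagrange.interpolate_apply, eval_finsetSum]
    refine Finset.sum_congr rfl fun i _ => ?_
    rw [eval_mul, eval_C, mul_comm]

/-- a `C¹` map equal to the identity outside a ball has a zero -/
theorem no_retr {E : Type*} [NormedAddCommGroup E] [InnerProductSpace ℝ E]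
    [FiniteDimensional ℝ E] (h : E → E) (hh : ContDiff ℝ 1 h) (R : ℝ) (hR : 0 < R)
    (hid : ∀ x, R ≤ ‖x‖ → h x = x) : ∃ x, h x = 0 := by
  by_contra hne
  push Not at hne
  borelize E
  let μ : Measure E := Measure.addHaar
  let ϱ : E → E := fun x => (R * ‖h x‖⁻¹) • h x
  have hϱ : ContDiff ℝ 1 ϱ :=
    (contDiff_const.mul ((hh.norm ℝ hne).inv fun x => norm_ne_zero_iff.2 (hne x))).smul hh
  have hϱn : ∀ x, ‖ϱ x‖ = R := by
    intro x
    have := norm_ne_zero_iff.2 (hne x)
    simp only [ϱ, norm_smul, Real.norm_eq_abs, abs_mul, abs_inv, abs_norm, abs_of_pos hR]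
    field_simp
  let χ : ContDiffBump (0 : E) := ⟨2 * R, 3 * R, by positivity, by linarith⟩
  let u : E → E := fun x => χ x • (ϱ x - x)
  have hu : ContDiff ℝ 1 u := χ.contDiff.smul (hϱ.sub contDiff_id)
  have hus : HasCompactSupport u := χ.hasCompactSupport.smul_right
  obtain ⟨K, hK⟩ := hu.lipschitzWith_of_hasCompactSupport hus one_ne_zero
  have hud : Differentiable ℝ u := hu.differentiable one_ne_zero
  have hDu : ∀ x, ‖fderiv ℝ u x‖ ≤ K := fun x => norm_fderiv_le_of_lipschitz ℝ hK
  have hχ1 : ∀ x : E, ‖x‖ < 2 * R → χ x = 1 := fun x hx =>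
    χ.one_of_mem_closedBall (by simpa [χ] using hx.le)
  set B : Set E := closedBall 0 R with hB
  have hBc : IsCompact B := isCompact_closedBall _ _
  have hBm : MeasurableSet B := measurableSet_closedBall
  -- the determinant vanishes at `t = 1`
  have hdet0 : ∀ x ∈ B, ((1 : E →L[ℝ] E) + (1 : ℝ) • fderiv ℝ u x).det = 0 := by
    intro x hx
    have hx' : ‖x‖ < 2 * R := by
      have : ‖x‖ ≤ R := by simpa [hB] using hx
      linarith
    have hev : (fun y => y + u y) =ᶠ[nhds x] ϱ := by
      have : {y : E | ‖y‖ < 2 * R} ∈ nhds x :=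
        (isOpen_lt continuous_norm continuous_const).mem_nhds hx'
      filter_upwards [this] with y hy
      simp [u, hχ1 y hy]
    have hD : HasFDerivAt ϱ ((1 : E →L[ℝ] E) + (1 : ℝ) • fderiv ℝ u x) x := by
      have := (hasFDerivAt_id x).add (hud x).hasFDerivAt
      rw [one_smul]
      exact this.congr_of_eventuallyEq hev.symm
    set A := (1 : E →L[ℝ] E) + (1 : ℝ) • fderiv ℝ u x with hA
    by_contra hd
    have hsq := hD.norm_sq
    have hconst : (fun y => ‖ϱ y‖ ^ 2) = fun _ => R ^ 2 := by
      funext y; rw [hϱn]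
    rw [hconst] at hsq
    have h0 := hsq.unique (hasFDerivAt_const (R ^ 2) x)
    have hunit : IsUnit (A : E →ₗ[ℝ] E) := (LinearMap.isUnit_iff_isUnit_det _).2 (Ne.isUnit hd)
    have hsurj : Function.Surjective A :=
      ((Module.End.isUnit_iff _).1 hunit).2
    obtain ⟨w, hw⟩ := hsurj (ϱ x)
    have h1 := congrArg (fun L : E →L[ℝ] ℝ => L w) h0
    simp only [smul_apply, ContinuousLinearMap.comp_apply, innerSL_apply_apply,
      hw, zero_apply, real_inner_self_eq_norm_sq, hϱn] at h1
    have : R ^ 2 = 0 := by simpa using h1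
    exact hR.ne' (pow_eq_zero_iff two_ne_zero |>.1 this)
  -- positivity of the determinant near `1`
  obtain ⟨η, hη, hηd⟩ : ∃ η > 0, ∀ M : E →L[ℝ] E, ‖M‖ < η → 0 < ((1 : E →L[ℝ] E) + M).det := by
    have hc : Continuous fun M : E →L[ℝ] E => ((1 : E →L[ℝ] E) + M).det :=
      ContinuousLinearMap.continuous_det.comp (continuous_const.add continuous_id)
    have ho : IsOpen {M : E →L[ℝ] E | 0 < ((1 : E →L[ℝ] E) + M).det} :=
      isOpen_lt continuous_const hc
    have h0 : (0 : E →L[ℝ] E) ∈ {M : E →L[ℝ] E | 0 < ((1 : E →L[ℝ] E) + M).det} := by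
      have : ((1 : E →L[ℝ] E)).det = 1 := LinearMap.det_id
      simp [this]
    obtain ⟨η, hη, hsub⟩ := Metric.isOpen_iff.1 ho 0 h0
    exact ⟨η, hη, fun M hM => hsub (by simpa using hM)⟩
  set ε : ℝ := min (1 / 2) (min 1 η / (2 * (K + 1))) with hε
  have hK0 : (0 : ℝ) ≤ K := K.2
  have hm : 0 < min 1 η := lt_min one_pos hη
  have hε0 : 0 < ε := lt_min (by norm_num) (by positivity)
  have hsmall : ∀ t : ℝ, 0 < t → t ≤ ε → t < 1 ∧ t * K < 1 ∧ t * K < η := by
    intro t ht hte
    have h1 : t ≤ 1 / 2 := hte.trans (min_le_left _ _)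
    have h2 : t ≤ min 1 η / (2 * (K + 1)) := hte.trans (min_le_right _ _)
    rw [le_div_iff₀ (by positivity)] at h2
    have h3 : t * K < min 1 η := by nlinarith
    exact ⟨by linarith, h3.trans_le (min_le_left _ _), h3.trans_le (min_le_right _ _)⟩
  -- the volume identity for small `t`
  have hvol : ∀ t : ℝ, 0 < t → t ≤ ε →
      ∫ x in B, ((1 : E →L[ℝ] E) + t • fderiv ℝ u x).det ∂μ = μ.real B := by
    intro t ht hte
    obtain ⟨ht1, htK, htη⟩ := hsmall t ht hte
    have hinj : Function.Injective fun x => x + t • u x := by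
      intro x y hxy
      simp only at hxy
      have e : x - y = -(t • (u x - u y)) := by
        rw [smul_sub, neg_sub, sub_eq_sub_iff_add_eq_add, hxy, add_comm]
      have h1 : ‖x - y‖ ≤ t * K * ‖x - y‖ := by
        calc ‖x - y‖ = t * ‖u x - u y‖ := by
              rw [e, norm_neg, norm_smul, Real.norm_eq_abs, abs_of_pos ht]
          _ ≤ t * (K * ‖x - y‖) := by
              gcongr
              exact hK.norm_sub_le x y
          _ = _ := by ring
      have h2 : ‖x - y‖ ≤ 0 := by nlinarith [norm_nonneg (x - y)]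
      exact sub_eq_zero.1 (norm_le_zero_iff.1 h2)
    have himg : (fun x => x + t • u x) '' B = B := by
      apply Subset.antisymm
      · rintro _ ⟨x, hx, rfl⟩
        have hx' : ‖x‖ ≤ R := by simpa [hB] using hx
        have e : x + t • u x = (1 - t) • x + t • ϱ x := by
          simp only [u, hχ1 x (by linarith), one_smul, smul_sub, sub_smul]
          abel
        simp only [hB, mem_closedBall, dist_zero_right, e]
        calc _ ≤ ‖(1 - t) • x‖ + ‖t • ϱ x‖ := norm_add_le _ _
          _ = (1 - t) * ‖x‖ + t * R := by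
              rw [norm_smul, norm_smul, hϱn, Real.norm_eq_abs, Real.norm_eq_abs, abs_of_pos ht,
                abs_of_pos (by linarith)]
          _ ≤ R := by nlinarith
      · intro y hy
        have hy' : ‖y‖ ≤ R := by simpa [hB] using hy
        let T : E → E := fun x => y - t • u x
        let k : NNReal := ⟨t * K, by positivity⟩
        have hT : ContractingWith k T := by
          refine ⟨htK, LipschitzWith.of_dist_le_mul fun a b => ?_⟩
          have e : T a - T b = -(t • (u a - u b)) := by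
            simp only [T, smul_sub]; abel
          rw [dist_eq_norm, dist_eq_norm, e, norm_neg, norm_smul, Real.norm_eq_abs, abs_of_pos ht]
          calc t * ‖u a - u b‖ ≤ t * (K * ‖a - b‖) := by
                gcongr
                exact hK.norm_sub_le a b
            _ = (k : ℝ) * ‖a - b‖ := (mul_assoc _ _ _).symm
        set x := hT.fixedPoint T with hxdef
        have hx : T x = x := hT.fixedPoint_isFixedPt
        have hxy : x + t • u x = y := by
          have : y - t • u x = x := hx
          rw [← sub_eq_iff_eq_add.1 this]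
        refine ⟨x, ?_, hxy⟩
        by_contra hxB
        have hxR : R < ‖x‖ := by simpa [hB] using hxB
        have hx0 : 0 < ‖x‖ := hR.trans hxR
        set s : ℝ := t * χ x with hs
        have hs0 : 0 ≤ s := mul_nonneg ht.le χ.nonneg
        have hs1 : s < 1 := by
          have : χ x ≤ 1 := χ.le_one
          nlinarith
        have e : y = ((1 - s) + s * (R * ‖x‖⁻¹)) • x := by
          rw [← hxy]
          simp only [u, ϱ, hid x hxR.le, smul_sub, smul_smul, add_smul, sub_smul, one_smul, hs,
            mul_assoc]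
          abel
        have hpos : 0 < (1 - s) + s * (R * ‖x‖⁻¹) := by
          have : 0 ≤ s * (R * ‖x‖⁻¹) := by positivity
          linarith
        have hn : ‖y‖ = (1 - s) * ‖x‖ + s * R := by
          rw [e, norm_smul, Real.norm_eq_abs, abs_of_pos hpos]
          field_simp
        nlinarith
    have hcv := integral_image_eq_integral_abs_det_fderiv_smul μ hBm
      (f := fun x => x + t • u x) (f' := fun x => (1 : E →L[ℝ] E) + t • fderiv ℝ u x)
      (fun x _ => ((hasFDerivAt_id x).add ((hud x).hasFDerivAt.const_smul t)).hasFDerivWithinAt)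
      hinj.injOn (fun _ => (1 : ℝ))
    rw [himg] at hcv
    simp only [integral_const, MeasurableSet.univ, measureReal_restrict_apply, univ_inter,
      smul_eq_mul, mul_one] at hcv
    rw [hcv]
    refine integral_congr_ae (Filter.Eventually.of_forall fun x => ?_)
    refine (abs_of_pos (hηd _ ?_)).symm
    rw [norm_smul, Real.norm_eq_abs, abs_of_pos ht]
    exact lt_of_le_of_lt (mul_le_mul_of_nonneg_left (hDu x) ht.le) htη
  obtain ⟨v, l, hv, hl, hlag⟩ := lagr (Module.finrank ℝ E) ε hε0
  have hint : ∀ t : ℝ, IntegrableOn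
      (fun x => ((1 : E →L[ℝ] E) + t • fderiv ℝ u x).det) B μ := by
    intro t
    refine ContinuousOn.integrableOn_compact hBc (Continuous.continuousOn ?_)
    exact ContinuousLinearMap.continuous_det.comp
      (continuous_const.add ((hu.continuous_fderiv one_ne_zero).const_smul t))
  have hpt : ∀ x, ((1 : E →L[ℝ] E) + (1 : ℝ) • fderiv ℝ u x).det =
      ∑ i, l i * ((1 : E →L[ℝ] E) + v i • fderiv ℝ u x).det := by
    intro x
    obtain ⟨p, hp, hpe⟩ := det_poly (fderiv ℝ u x)
    rw [← hpe, hlag p hp]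
    simp only [hpe]
  have h1 : ∫ x in B, ((1 : E →L[ℝ] E) + (1 : ℝ) • fderiv ℝ u x).det ∂μ = μ.real B := by
    simp only [hpt]
    rw [integral_finsetSum _ fun i _ => (hint (v i)).const_mul (l i)]
    simp only [integral_const_mul]
    rw [Finset.sum_congr rfl fun i _ => by rw [hvol (v i) (hv i).1 (hv i).2], ← Finset.sum_mul,
      hl, one_mul]
  have h2 : ∫ x in B, ((1 : E →L[ℝ] E) + (1 : ℝ) • fderiv ℝ u x).det ∂μ = 0 := by
    rw [setIntegral_congr_fun hBm (g := fun _ => (0 : ℝ)) fun x hx => hdet0 x hx]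
    simp
  have h3 : 0 < μ.real B := by
    refine ENNReal.toReal_pos (measure_closedBall_pos μ 0 hR).ne' hBc.measure_lt_top.ne
  linarith

theorem brouwer_euc {E : Type*} [NormedAddCommGroup E] [InnerProductSpace ℝ E]
    [FiniteDimensional ℝ E] (f : E → E) (hf : Continuous f) (C : ℝ) (hC : ∀ x, ‖f x‖ ≤ C) :
    ∃ x, f x = x := by
  by_contra hne
  push Not at hne
  have hC0 : 0 ≤ C := (norm_nonneg _).trans (hC 0)
  let χ : ContDiffBump (0 : E) := ⟨C + 1, C + 2, by positivity, by linarith⟩
  let k : E → E := fun x => x - χ x • f x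
  have hk : Continuous k := continuous_id.sub (χ.continuous.smul hf)
  have hk0 : ∀ x, k x ≠ 0 := by
    intro x hx
    have e : x = χ x • f x := sub_eq_zero.1 hx
    have h1 : ‖x‖ ≤ C := by
      rw [e, norm_smul, Real.norm_eq_abs, abs_of_nonneg χ.nonneg]
      have : χ x ≤ 1 := χ.le_one
      nlinarith [hC x, norm_nonneg (f x), χ.nonneg (x := x)]
    have h2 : χ x = 1 := χ.one_of_mem_closedBall (by simp [χ]; linarith)
    rw [h2, one_smul] at e
    exact hne x e.symm
  have hkid : ∀ x : E, C + 2 ≤ ‖x‖ → k x = x := by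
    intro x hx
    have : χ x = 0 := χ.zero_of_le_dist (by simpa [χ] using hx)
    simp [k, this]
  have hS : IsClosed {x : E | C + 3 ≤ ‖x‖} := isClosed_le continuous_const continuous_norm
  have hU : {x : E | C + 2 < ‖x‖} ∈ nhdsSet {x : E | C + 3 ≤ ‖x‖} :=
    (isOpen_lt continuous_const continuous_norm).mem_nhdsSet.2 fun x hx => by
      simp only [mem_ofPred_eq] at hx ⊢; linarith
  have hkU : ContDiffOn ℝ ((1 : ℕ∞) : WithTop ℕ∞) k {x : E | C + 2 < ‖x‖} :=
    contDiffOn_id.congr fun x hx => hkid x (le_of_lt hx)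
  obtain ⟨g, hg, hgk, hgS, -⟩ := hk.exists_contDiff_approx_and_eqOn 1 hk.norm
    (fun x => norm_pos_iff.2 (hk0 x)) hS hU hkU
  obtain ⟨x, hx⟩ := no_retr g hg (C + 3) (by positivity) fun x hx => by
    rw [hgS hx, hkid x (by linarith)]
  have := hgk x
  rw [hx, dist_zero_left] at this
  exact lt_irrefl _ this

end BrouwerA

theorem brouwer {E : Type*} [NormedAddCommGroup E] [NormedSpace ℝ E] [FiniteDimensional ℝ E]
    (f : E → E) (hf : Continuous f) (C : ℝ) (hC : ∀ x, ‖f x‖ ≤ C) : ∃ x, f x = x := by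
  let e := toEuclidean (E := E)
  obtain ⟨y, hy⟩ := BrouwerA.brouwer_euc (fun y => e (f (e.symm y)))
    (e.continuous.comp (hf.comp e.symm.continuous))
    (‖(e : E →L[ℝ] EuclideanSpace ℝ (Fin (Module.finrank ℝ E)))‖ * C) fun y =>
      ((e : E →L[ℝ] EuclideanSpace ℝ (Fin (Module.finrank ℝ E))).le_opNorm _).trans
        (mul_le_mul_of_nonneg_left (hC _) (norm_nonneg _))
  refine ⟨e.symm y, e.injective ?_⟩
  rw [hy, e.apply_symm_apply]

end Crest.Agent.R332
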