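import Mathlib
import Crest.Prelude.Def_LiebThirring

/-! Row 332 (sharp 1D matrix Lieb–Thirring).  Basic matrix tools.  Norms on matrices are
Frobenius norms (`open scoped Matrix.Norms.Frobenius`). -/

set_option autoImplicit false
set_option linter.unusedSectionVars false

open Matrix Filter Topology
open scoped ComplexOrder Matrix.Norms.Frobenius

namespace Crest.Agent.R332

variable {n k l : Type*} [Fintype n] [DecidableEq n] [Fintype k] [DecidableEq k]
  [Fintype l] [DecidableEq l]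

/-- real diagonal matrix -/
noncomputable def dg (d : n → ℝ) : Matrix n n ℂ := diagonal fun i => (d i : ℂ)

/-- real part of the trace -/
noncomputable def rt (A : Matrix n n ℂ) : ℝ := A.trace.re

/-- real power via the functional calculus -/
noncomputable def pw (A : Matrix n n ℂ) (s : ℝ) : Matrix n n ℂ := cfc (fun t : ℝ => t ^ s) A

/-- trace of a power (`tracePow` for a general index type) -/
noncomputable def tp (A : Matrix n n ℂ) (s : ℝ) : ℝ := rt (pw A s)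

/-- log-determinant -/
noncomputable def ld (A : Matrix n n ℂ) : ℝ := Real.log A.det.re

lemma tracePow_eq {m : ℕ} (A : Matrix (Fin m) (Fin m) ℂ) (s : ℝ) :
    Crest.MathPhysics.LiebThirring.tracePow A s = tp A s := rfl

lemma dg_apply (d : n → ℝ) (i j : n) : dg d i j = if i = j then (d i : ℂ) else 0 := by
  simp [dg, diagonal_apply]

lemma dg_conjT (d : n → ℝ) : (dg d)ᴴ = dg d := by
  ext i j
  simp only [dg, conjTranspose_apply, diagonal_apply]
  by_cases h : i = j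
  · subst h; simp
  · simp [h, Ne.symm h]

lemma dg_herm (d : n → ℝ) : (dg d).IsHermitian := dg_conjT d

lemma mul_dg_apply {κ : Type*} (A : Matrix κ n ℂ) (d : n → ℝ) (i : κ) (j : n) :
    (A * dg d) i j = A i j * d j := by simp [dg]

lemma dg_mul_apply {κ : Type*} (A : Matrix n κ ℂ) (d : n → ℝ) (i : n) (j : κ) :
    (dg d * A) i j = d i * A i j := by simp [dg]

lemma dg_mul_dg (a b : n → ℝ) : dg a * dg b = dg fun i => a i * b i := by
  simp [dg, diagonal_mul_diagonal]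

lemma dg_add (a b : n → ℝ) : dg a + dg b = dg fun i => a i + b i := by
  simp [dg, diagonal_add]

lemma dg_sub (a b : n → ℝ) : dg a - dg b = dg fun i => a i - b i := by
  simp [dg, diagonal_sub]

lemma dg_neg (a : n → ℝ) : -dg a = dg fun i => -a i := by
  simp [dg, diagonal_neg]

lemma dg_smul (c : ℝ) (a : n → ℝ) : c • dg a = dg fun i => c * a i := by
  ext i j; by_cases h : i = j <;> simp [dg_apply, h]

lemma dg_const (c : ℝ) : dg (fun _ : n => c) = c • (1 : Matrix n n ℂ) := by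
  ext i j; by_cases h : i = j <;> simp [dg_apply, h, one_apply]

lemma dg_one : dg (fun _ : n => (1 : ℝ)) = 1 := by simp [dg]

lemma dg_psd {a : n → ℝ} (ha : ∀ i, 0 ≤ a i) : (dg a).PosSemidef :=
  PosSemidef.diagonal fun i => by simpa using ha i

lemma dg_posDef {a : n → ℝ} (ha : ∀ i, 0 < a i) : (dg a).PosDef :=
  PosDef.diagonal fun i => by simpa using ha i

lemma det_dg (a : n → ℝ) : (dg a).det = ((∏ i, a i : ℝ) : ℂ) := by simp [dg]

lemma dg_inv {a : n → ℝ} (ha : ∀ i, a i ≠ 0) : (dg a)⁻¹ = dg fun i => (a i)⁻¹ := by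
  apply inv_eq_right_inv
  rw [dg_mul_dg, ← dg_one]; congr 1; ext i; exact mul_inv_cancel₀ (ha i)

lemma rt_dg (d : n → ℝ) : rt (dg d) = ∑ i, d i := by
  simp [rt, dg]

@[simp] lemma rt_add (A B : Matrix n n ℂ) : rt (A + B) = rt A + rt B := by simp [rt]
@[simp] lemma rt_sub (A B : Matrix n n ℂ) : rt (A - B) = rt A - rt B := by simp [rt]
@[simp] lemma rt_neg (A : Matrix n n ℂ) : rt (-A) = -rt A := by simp [rt]
@[simp] lemma rt_zero : rt (0 : Matrix n n ℂ) = 0 := by simp [rt]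
@[simp] lemma rt_one : rt (1 : Matrix n n ℂ) = Fintype.card n := by simp [rt]
@[simp] lemma rt_smul (c : ℝ) (A : Matrix n n ℂ) : rt (c • A) = c * rt A := by simp [rt]

lemma rt_mul_comm (A : Matrix n k ℂ) (B : Matrix k n ℂ) : rt (A * B) = rt (B * A) := by
  rw [rt, rt, trace_mul_comm]

lemma rt_conjT (A : Matrix n n ℂ) : rt Aᴴ = rt A := by simp [rt, trace_conjTranspose]

lemma rt_nonneg {A : Matrix n n ℂ} (hA : A.PosSemidef) : 0 ≤ rt A :=
  (Complex.le_def.mp hA.trace_nonneg).1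

lemma rt_eq_sum (A : Matrix n n ℂ) : rt A = ∑ i, (A i i).re := by simp [rt, trace]

lemma continuous_rt : Continuous (rt : Matrix n n ℂ → ℝ) :=
  Complex.continuous_re.comp (continuous_id.matrix_trace)

/-- `rt` as a continuous linear map -/
noncomputable def rtL : Matrix n n ℂ →L[ℝ] ℝ :=
  LinearMap.toContinuousLinearMap
    { toFun := rt, map_add' := rt_add, map_smul' := fun c A => by simp }

@[simp] lemma rtL_apply (A : Matrix n n ℂ) : rtL A = rt A := rfl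

lemma norm_sq_eq_sum (X : Matrix n k ℂ) : ‖X‖ ^ 2 = ∑ i, ∑ j, Complex.normSq (X i j) := by
  rw [frobenius_norm_def, ← Real.sqrt_eq_rpow, Real.sq_sqrt (by positivity)]
  simp [Complex.normSq_eq_norm_sq]

lemma norm_sq_eq_rt (X : Matrix n k ℂ) : ‖X‖ ^ 2 = rt (Xᴴ * X) := by
  rw [norm_sq_eq_sum, rt_eq_sum, Finset.sum_comm]
  refine Finset.sum_congr rfl fun j _ => ?_
  simp [mul_apply, Complex.normSq_apply]

lemma norm_sq_eq_rt' (X : Matrix n k ℂ) : ‖X‖ ^ 2 = rt (X * Xᴴ) := by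
  rw [norm_sq_eq_rt, rt_mul_comm]

lemma norm_entry_le (X : Matrix n k ℂ) (i : n) (j : k) : ‖X i j‖ ≤ ‖X‖ := by
  refine le_of_sq_le_sq ?_ (norm_nonneg _) |>.trans le_rfl
  rw [norm_sq_eq_sum, ← Complex.normSq_eq_norm_sq]
  calc Complex.normSq (X i j) ≤ ∑ j', Complex.normSq (X i j') :=
        Finset.single_le_sum (f := fun j' => Complex.normSq (X i j'))
          (fun _ _ => Complex.normSq_nonneg _) (Finset.mem_univ j)
    _ ≤ _ := Finset.single_le_sum (f := fun i' => ∑ j', Complex.normSq (X i' j'))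
          (fun _ _ => Finset.sum_nonneg fun _ _ => Complex.normSq_nonneg _) (Finset.mem_univ i)

/-- `‖X - Y‖² = ‖X‖² - 2 re tr(Xᴴ Y) + ‖Y‖²` -/
lemma norm_sub_sq_rt (X Y : Matrix n k ℂ) :
    ‖X - Y‖ ^ 2 = ‖X‖ ^ 2 - 2 * rt (Xᴴ * Y) + ‖Y‖ ^ 2 := by
  have : rt (Yᴴ * X) = rt (Xᴴ * Y) := by rw [← rt_conjT]; simp
  simp only [norm_sq_eq_rt, conjTranspose_sub, Matrix.sub_mul, Matrix.mul_sub, rt_sub, this]
  ring

lemma norm_add_sq_rt (X Y : Matrix n k ℂ) :
    ‖X + Y‖ ^ 2 = ‖X‖ ^ 2 + 2 * rt (Xᴴ * Y) + ‖Y‖ ^ 2 := by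
  have := norm_sub_sq_rt X (-Y)
  simp only [sub_neg_eq_add, Matrix.mul_neg, rt_neg, norm_neg] at this
  rw [this]; ring

/-- Cauchy–Schwarz -/
lemma abs_rt_le (X Y : Matrix n k ℂ) : |rt (Xᴴ * Y)| ≤ ‖X‖ * ‖Y‖ := by
  have h1 := norm_sub_sq_rt X Y
  have h2 := norm_add_sq_rt X Y
  have h3 : ‖X - Y‖ ^ 2 ≤ (‖X‖ + ‖Y‖) ^ 2 := by gcongr; exact norm_sub_le _ _
  have h4 : ‖X + Y‖ ^ 2 ≤ (‖X‖ + ‖Y‖) ^ 2 := by gcongr; exact norm_add_le _ _
  rw [abs_le]; constructor <;> nlinarith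

lemma abs_rt_mul_le (X : Matrix n k ℂ) (Y : Matrix k n ℂ) : |rt (X * Y)| ≤ ‖X‖ * ‖Y‖ := by
  have := abs_rt_le Xᴴ Y
  simpa using this

lemma norm_mul_le' (X : Matrix n k ℂ) (Y : Matrix k l ℂ) : ‖X * Y‖ ≤ ‖X‖ * ‖Y‖ :=
  frobenius_norm_mul X Y

/-- `tr(P Q) ≥ 0` for positive semidefinite `P`, `Q` -/
lemma rt_mul_nonneg {P Q : Matrix n n ℂ} (hP : P.PosSemidef) (hQ : Q.PosSemidef) :
    0 ≤ rt (P * Q) := by
  open scoped MatrixOrder in
  obtain ⟨B, rfl⟩ := CStarAlgebra.nonneg_iff_eq_star_mul_self.mp hP.nonneg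
  rw [star_eq_conjTranspose, Matrix.mul_assoc, rt_mul_comm]
  exact rt_nonneg (hQ.mul_mul_conjTranspose_same B)

lemma rt_mul_mono {P Q Q' : Matrix n n ℂ} (hP : P.PosSemidef) (hQ : (Q' - Q).PosSemidef) :
    rt (P * Q) ≤ rt (P * Q') := by
  have := rt_mul_nonneg hP hQ
  rw [Matrix.mul_sub, rt_sub] at this
  linarith

/-- a unitary diagonalisation -/
structure Diag (A U : Matrix n n ℂ) (d : n → ℝ) : Prop where
  uu : Uᴴ * U = 1
  eq : A = U * dg d * Uᴴ

lemma Diag.uu' {A U : Matrix n n ℂ} {d : n → ℝ} (h : Diag A U d) : U * Uᴴ = 1 :=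
  mul_eq_one_comm.mp h.uu

lemma Diag.conj {A U : Matrix n n ℂ} {d : n → ℝ} (h : Diag A U d) : Uᴴ * A * U = dg d := by
  rw [h.eq]
  calc Uᴴ * (U * dg d * Uᴴ) * U = (Uᴴ * U) * dg d * (Uᴴ * U) := by simp only [Matrix.mul_assoc]
    _ = dg d := by rw [h.uu]; simp

lemma Diag.mul_U {A U : Matrix n n ℂ} {d : n → ℝ} (h : Diag A U d) : A * U = U * dg d := by
  rw [h.eq, Matrix.mul_assoc, h.uu, Matrix.mul_one]

lemma Diag.herm {A U : Matrix n n ℂ} {d : n → ℝ} (h : Diag A U d) : A.IsHermitian := by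
  rw [h.eq]
  simp [IsHermitian, conjTranspose_mul, dg_conjT, Matrix.mul_assoc]

lemma diag_eig {A : Matrix n n ℂ} (hA : A.IsHermitian) :
    Diag A (hA.eigenvectorUnitary : Matrix n n ℂ) hA.eigenvalues := by
  refine ⟨?_, ?_⟩
  · exact Unitary.coe_star_mul_self hA.eigenvectorUnitary
  · have := hA.spectral_theorem
    rw [Unitary.conjStarAlgAut_apply] at this
    exact this

lemma exists_diag {A : Matrix n n ℂ} (hA : A.IsHermitian) : ∃ U d, Diag A U d :=
  ⟨_, _, diag_eig hA⟩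

lemma diag_dg (d : n → ℝ) : Diag (dg d) 1 d := ⟨by simp, by simp⟩

lemma Diag.of {U : Matrix n n ℂ} (hU : Uᴴ * U = 1) (d : n → ℝ) : Diag (U * dg d * Uᴴ) U d :=
  ⟨hU, rfl⟩

lemma Diag.nonneg {A U : Matrix n n ℂ} {d : n → ℝ} (h : Diag A U d) (hA : A.PosSemidef) (i : n) :
    0 ≤ d i := by
  have := (hA.conjTranspose_mul_mul_same U).diag_nonneg (i := i)
  rw [h.conj, dg_apply, if_pos rfl] at this
  exact_mod_cast this

lemma Diag.pos {A U : Matrix n n ℂ} {d : n → ℝ} (h : Diag A U d) (hA : A.PosDef) (i : n) :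
    0 < d i := by
  have hinj : Function.Injective U.mulVec := by
    intro x y hxy
    have := congrArg (Uᴴ.mulVec) hxy
    simpa [mulVec_mulVec, h.uu] using this
  have := (hA.conjTranspose_mul_mul_same hinj).diag_pos (i := i)
  rw [h.conj, dg_apply, if_pos rfl] at this
  exact_mod_cast this

lemma Diag.psd {A U : Matrix n n ℂ} {d : n → ℝ} (h : Diag A U d) (hd : ∀ i, 0 ≤ d i) :
    A.PosSemidef := by
  rw [h.eq]; exact (dg_psd hd).mul_mul_conjTranspose_same U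

lemma Diag.rt {A U : Matrix n n ℂ} {d : n → ℝ} (h : Diag A U d) : rt A = ∑ i, d i := by
  rw [h.eq, rt_mul_comm, ← Matrix.mul_assoc, h.uu, Matrix.one_mul, rt_dg]

lemma Diag.det {A U : Matrix n n ℂ} {d : n → ℝ} (h : Diag A U d) :
    A.det = ((∏ i, d i : ℝ) : ℂ) := by
  rw [h.eq, det_mul, det_mul, mul_right_comm, ← det_mul, h.uu', det_one, one_mul, det_dg]

lemma Diag.posDef {A U : Matrix n n ℂ} {d : n → ℝ} (h : Diag A U d) (hd : ∀ i, 0 < d i) :
    A.PosDef := by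
  refine (h.psd fun i => (hd i).le).posDef_iff_det_ne_zero.mpr ?_
  rw [h.det]
  exact_mod_cast (Finset.prod_pos fun i _ => hd i).ne'

lemma Diag.uconj {A U V : Matrix n n ℂ} {d : n → ℝ} (h : Diag A U d) (hV : Vᴴ * V = 1) :
    Diag (Vᴴ * A * V) (Vᴴ * U) d := by
  have hV' : V * Vᴴ = 1 := mul_eq_one_comm.mp hV
  refine ⟨?_, ?_⟩
  · rw [conjTranspose_mul, conjTranspose_conjTranspose]
    calc Uᴴ * V * (Vᴴ * U) = Uᴴ * (V * Vᴴ) * U := by simp only [Matrix.mul_assoc]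
      _ = 1 := by rw [hV', Matrix.mul_one, h.uu]
  · conv_lhs => rw [h.eq]
    simp only [conjTranspose_mul, conjTranspose_conjTranspose, Matrix.mul_assoc]

/-- the functional calculus in any unitary diagonalisation -/
lemma Diag.cfc {A U : Matrix n n ℂ} {d : n → ℝ} (h : Diag A U d) (f : ℝ → ℝ) :
    Diag (cfc f A) U fun i => f (d i) := by
  refine ⟨h.uu, ?_⟩
  have hA := h.herm
  have h0 := diag_eig hA
  set V : Matrix n n ℂ := (hA.eigenvectorUnitary : Matrix n n ℂ)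
  have e0 : _root_.cfc f A = V * dg (fun i => f (hA.eigenvalues i)) * Vᴴ := by
    rw [hA.cfc_eq]; rfl
  have e1 : dg hA.eigenvalues * (Vᴴ * U) = (Vᴴ * U) * dg d := by
    rw [← h0.conj, Matrix.mul_assoc Vᴴ U, ← h.mul_U]
    calc Vᴴ * A * V * (Vᴴ * U) = Vᴴ * A * (V * Vᴴ) * U := by simp only [Matrix.mul_assoc]
      _ = _ := by rw [h0.uu', Matrix.mul_one, Matrix.mul_assoc]
  have e2 : dg (fun i => f (hA.eigenvalues i)) * (Vᴴ * U) = (Vᴴ * U) * dg fun i => f (d i) := by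
    ext i j
    have := congrFun (congrFun e1 i) j
    rw [dg_mul_apply, mul_dg_apply] at this ⊢
    by_cases hz : (Vᴴ * U) i j = 0
    · simp [hz]
    · have h3 : (hA.eigenvalues i : ℂ) = d j := by
        rw [mul_comm] at this; exact mul_left_cancel₀ hz this
      have h4 : hA.eigenvalues i = d j := by exact_mod_cast h3
      rw [h4, mul_comm]
  rw [e0]
  calc V * dg (fun i => f (hA.eigenvalues i)) * Vᴴ
      = V * (dg (fun i => f (hA.eigenvalues i)) * (Vᴴ * U)) * Uᴴ := by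
        simp only [Matrix.mul_assoc, h.uu', Matrix.mul_one]
    _ = _ := by
        rw [e2]; simp only [← Matrix.mul_assoc, h0.uu', Matrix.one_mul]

lemma Diag.pw {A U : Matrix n n ℂ} {d : n → ℝ} (h : Diag A U d) (s : ℝ) :
    Diag (pw A s) U fun i => d i ^ s := h.cfc _

lemma Diag.tp {A U : Matrix n n ℂ} {d : n → ℝ} (h : Diag A U d) (s : ℝ) :
    tp A s = ∑ i, d i ^ s := (h.pw s).rt

lemma Diag.mul {A B U : Matrix n n ℂ} {a b : n → ℝ} (h : Diag A U a) (h' : Diag B U b) :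
    Diag (A * B) U fun i => a i * b i := by
  refine ⟨h.uu, ?_⟩
  rw [h.eq, h'.eq, ← dg_mul_dg]
  calc U * dg a * Uᴴ * (U * dg b * Uᴴ) = U * dg a * (Uᴴ * U) * dg b * Uᴴ := by
        simp only [Matrix.mul_assoc]
    _ = _ := by rw [h.uu]; simp only [Matrix.mul_one, Matrix.mul_assoc]

lemma Diag.add {A B U : Matrix n n ℂ} {a b : n → ℝ} (h : Diag A U a) (h' : Diag B U b) :
    Diag (A + B) U fun i => a i + b i := by
  refine ⟨h.uu, ?_⟩
  rw [h.eq, h'.eq, ← dg_add, Matrix.mul_add, Matrix.add_mul]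

lemma Diag.sub {A B U : Matrix n n ℂ} {a b : n → ℝ} (h : Diag A U a) (h' : Diag B U b) :
    Diag (A - B) U fun i => a i - b i := by
  refine ⟨h.uu, ?_⟩
  rw [h.eq, h'.eq, ← dg_sub, Matrix.mul_sub, Matrix.sub_mul]

lemma Diag.neg {A U : Matrix n n ℂ} {a : n → ℝ} (h : Diag A U a) :
    Diag (-A) U fun i => -a i := by
  refine ⟨h.uu, ?_⟩
  rw [h.eq, ← dg_neg, Matrix.mul_neg, Matrix.neg_mul]

lemma Diag.smul {A U : Matrix n n ℂ} {a : n → ℝ} (h : Diag A U a) (c : ℝ) :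
    Diag (c • A) U fun i => c * a i := by
  refine ⟨h.uu, ?_⟩
  rw [h.eq, ← dg_smul, Matrix.mul_smul, Matrix.smul_mul]

lemma Diag.one {U : Matrix n n ℂ} (hU : Uᴴ * U = 1) : Diag 1 U fun _ => 1 :=
  ⟨hU, by rw [dg_one, Matrix.mul_one, mul_eq_one_comm.mp hU]⟩

lemma Diag.ext {A B U : Matrix n n ℂ} {a b : n → ℝ} (h : Diag A U a) (h' : Diag B U b)
    (hab : ∀ i, a i = b i) : A = B := by
  rw [h.eq, h'.eq, funext hab]

lemma Diag.congr {A U : Matrix n n ℂ} {a b : n → ℝ} (h : Diag A U a) (hab : ∀ i, a i = b i) :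
    Diag A U b := by
  rw [← funext hab]; exact h

lemma col_normSq {U : Matrix n k ℂ} (h : Uᴴ * U = 1) (j : k) :
    ∑ i, Complex.normSq (U i j) = 1 := by
  have := congrFun (congrFun h j) j
  simp only [mul_apply, conjTranspose_apply, one_apply_eq] at this
  have h2 : ((∑ i, Complex.normSq (U i j) : ℝ) : ℂ) = 1 := by
    rw [← this]; push_cast
    refine Finset.sum_congr rfl fun i _ => ?_
    rw [Complex.normSq_eq_conj_mul_self]; rfl
  exact_mod_cast h2

lemma row_normSq {U : Matrix n n ℂ} (h : Uᴴ * U = 1) (i : n) :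
    ∑ j, Complex.normSq (U i j) = 1 := by
  have h' : Uᴴᴴ * Uᴴ = 1 := by rw [conjTranspose_conjTranspose]; exact mul_eq_one_comm.mp h
  have := col_normSq h' i
  simpa using this

/-- `tr(a Y b Yᴴ) = Σ |Y_ij|² a_i b_j` -/
lemma rt_dg_mul_dg (a : n → ℝ) (b : k → ℝ) (Y : Matrix n k ℂ) :
    rt (dg a * Y * dg b * Yᴴ) = ∑ i, ∑ j, Complex.normSq (Y i j) * (a i * b j) := by
  rw [rt_eq_sum]
  refine Finset.sum_congr rfl fun i _ => ?_
  rw [mul_apply, Complex.re_sum]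
  refine Finset.sum_congr rfl fun j _ => ?_
  rw [mul_dg_apply, dg_mul_apply, conjTranspose_apply]
  simp [Complex.normSq_apply]; ring

lemma Diag.uu_mul {A B U V : Matrix n n ℂ} {a b : n → ℝ} (h : Diag A U a) (h' : Diag B V b) :
    (Uᴴ * V)ᴴ * (Uᴴ * V) = 1 := by
  rw [conjTranspose_mul, conjTranspose_conjTranspose]
  calc Vᴴ * U * (Uᴴ * V) = Vᴴ * (U * Uᴴ) * V := by simp only [Matrix.mul_assoc]
    _ = 1 := by rw [h.uu', Matrix.mul_one, h'.uu]

/-- two-basis formula -/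
lemma Diag.rt_mul {A B U V : Matrix n n ℂ} {a b : n → ℝ} (h : Diag A U a) (h' : Diag B V b) :
    R332.rt (A * B) = ∑ i, ∑ j, Complex.normSq ((Uᴴ * V) i j) * (a i * b j) := by
  rw [← rt_dg_mul_dg, h.eq, h'.eq, conjTranspose_mul, conjTranspose_conjTranspose]
  calc R332.rt (U * dg a * Uᴴ * (V * dg b * Vᴴ)) = R332.rt (U * (dg a * (Uᴴ * V) * dg b * Vᴴ)) := by
        simp only [Matrix.mul_assoc]
    _ = _ := by rw [rt_mul_comm]; simp only [Matrix.mul_assoc]

lemma Diag.sum_left {A B U V : Matrix n n ℂ} {a b : n → ℝ} (h : Diag A U a) (h' : Diag B V b)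
    (f : n → ℝ) : ∑ i, f i = ∑ i, ∑ j, Complex.normSq ((Uᴴ * V) i j) * f i := by
  refine Finset.sum_congr rfl fun i _ => ?_
  rw [← Finset.sum_mul, row_normSq (h.uu_mul h'), one_mul]

lemma Diag.sum_right {A B U V : Matrix n n ℂ} {a b : n → ℝ} (h : Diag A U a) (h' : Diag B V b)
    (f : n → ℝ) : ∑ j, f j = ∑ i, ∑ j, Complex.normSq ((Uᴴ * V) i j) * f j := by
  rw [Finset.sum_comm]
  refine Finset.sum_congr rfl fun j _ => ?_
  rw [← Finset.sum_mul, col_normSq (h.uu_mul h'), one_mul]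

lemma Diag.norm_sq {A U : Matrix n n ℂ} {a : n → ℝ} (h : Diag A U a) :
    ‖A‖ ^ 2 = ∑ i, a i ^ 2 := by
  rw [norm_sq_eq_rt, h.herm.eq, (h.mul h).rt]; simp [sq]

lemma Diag.norm_sub_sq {A B U V : Matrix n n ℂ} {a b : n → ℝ} (h : Diag A U a)
    (h' : Diag B V b) :
    ‖A - B‖ ^ 2 = ∑ i, ∑ j, Complex.normSq ((Uᴴ * V) i j) * (a i - b j) ^ 2 := by
  rw [norm_sub_sq_rt, h.herm.eq, h.rt_mul h', h.norm_sq, h'.norm_sq, h.sum_left h',
    h.sum_right h' (fun j => b j ^ 2), Finset.mul_sum, ← Finset.sum_sub_distrib,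
    ← Finset.sum_add_distrib]
  refine Finset.sum_congr rfl fun i _ => ?_
  rw [Finset.mul_sum, ← Finset.sum_sub_distrib, ← Finset.sum_add_distrib]
  refine Finset.sum_congr rfl fun j _ => ?_
  ring

lemma cfc_herm (f : ℝ → ℝ) (A : Matrix n n ℂ) : (cfc f A).IsHermitian :=
  isHermitian_iff_isSelfAdjoint.mpr (cfc_predicate f A)

lemma cfc_psd {f : ℝ → ℝ} {A : Matrix n n ℂ} (hA : A.IsHermitian) (hf : ∀ t, 0 ≤ f t) :
    (cfc f A).PosSemidef := by
  obtain ⟨U, d, h⟩ := exists_diag hA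
  exact (h.cfc f).psd fun i => hf _

lemma pw_psd {A : Matrix n n ℂ} (hA : A.PosSemidef) (s : ℝ) : (pw A s).PosSemidef := by
  obtain ⟨U, d, h⟩ := exists_diag hA.1
  exact (h.pw s).psd fun i => Real.rpow_nonneg (h.nonneg hA i) s

lemma tp_nonneg {A : Matrix n n ℂ} (hA : A.PosSemidef) (s : ℝ) : 0 ≤ tp A s :=
  rt_nonneg (pw_psd hA s)

lemma pw_mul_pw {A : Matrix n n ℂ} (hA : A.PosSemidef) {s t : ℝ} (hs : 0 ≤ s) (ht : 0 ≤ t) :
    pw A s * pw A t = pw A (s + t) := by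
  obtain ⟨U, d, h⟩ := exists_diag hA.1
  exact ((h.pw s).mul (h.pw t)).ext (h.pw (s + t)) fun i =>
    (Real.rpow_add_of_nonneg (h.nonneg hA i) hs ht).symm

lemma pw_one {A : Matrix n n ℂ} (hA : A.IsHermitian) : pw A 1 = A := by
  obtain ⟨U, d, h⟩ := exists_diag hA
  exact (h.pw 1).ext h fun i => Real.rpow_one _

lemma pw_pw {A : Matrix n n ℂ} (hA : A.PosSemidef) (s t : ℝ) : pw (pw A s) t = pw A (s * t) := by
  obtain ⟨U, d, h⟩ := exists_diag hA.1
  exact ((h.pw s).pw t).ext (h.pw (s * t)) fun i => (Real.rpow_mul (h.nonneg hA i) s t).symm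

lemma pw_zero {s : ℝ} (hs : s ≠ 0) : pw (0 : Matrix n n ℂ) s = 0 := by
  have h : Diag (0 : Matrix n n ℂ) 1 fun _ => 0 := ⟨by simp, by simp [dg]⟩
  exact (h.pw s).ext h fun i => Real.zero_rpow hs

/-- Frobenius-Lipschitz bound for the functional calculus -/
lemma norm_cfc_sub_le {f : ℝ → ℝ} {C : ℝ} (hC : 0 ≤ C) (hf : ∀ s t, |f s - f t| ≤ C * |s - t|)
    {A B : Matrix n n ℂ} (hA : A.IsHermitian) (hB : B.IsHermitian) :
    ‖cfc f A - cfc f B‖ ≤ C * ‖A - B‖ := by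
  obtain ⟨U, a, h⟩ := exists_diag hA
  obtain ⟨V, b, h'⟩ := exists_diag hB
  refine le_of_sq_le_sq ?_ (by positivity) |>.trans le_rfl
  rw [mul_pow, (h.cfc f).norm_sub_sq (h'.cfc f), h.norm_sub_sq h', Finset.mul_sum]
  refine Finset.sum_le_sum fun i _ => ?_
  rw [Finset.mul_sum]
  refine Finset.sum_le_sum fun j _ => ?_
  have h1 : (f (a i) - f (b j)) ^ 2 ≤ C ^ 2 * (a i - b j) ^ 2 := by
    rw [← sq_abs, ← sq_abs (a i - b j), ← mul_pow]
    gcongr; exact hf _ _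
  have := Complex.normSq_nonneg ((Uᴴ * V) i j)
  nlinarith

end Crest.Agent.R332

namespace Crest.Agent.R332
variable {n : Type*} [Fintype n] [DecidableEq n]

open scoped Matrix.Norms.L2Operator in
/-- continuity of the functional calculus on Hermitian matrices -/
lemma continuousOn_cfc_herm {f : ℝ → ℝ} (hf : Continuous f) :
    ContinuousOn (cfc f : Matrix n n ℂ → Matrix n n ℂ) {A | A.IsHermitian} := by
  refine ContinuousOn.cfc_of_mem_nhdsSet (s := Set.univ) f (a := fun A => A) univ_mem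
    continuousOn_id (fun A hA => isHermitian_iff_isSelfAdjoint.mp hA) hf.continuousOn

lemma Continuous.cfc_herm {X : Type*} [TopologicalSpace X] {f : ℝ → ℝ} (hf : Continuous f)
    {a : X → Matrix n n ℂ} (ha : Continuous a) (hh : ∀ x, (a x).IsHermitian) :
    Continuous fun x => cfc f (a x) :=
  (continuousOn_cfc_herm hf).comp_continuous ha hh

lemma Continuous.pw {X : Type*} [TopologicalSpace X] {s : ℝ} (hs : 0 ≤ s)
    {a : X → Matrix n n ℂ} (ha : Continuous a) (hh : ∀ x, (a x).IsHermitian) :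
    Continuous fun x => pw (a x) s :=
  Continuous.cfc_herm (Real.continuous_rpow_const hs) ha hh

lemma tendsto_pw {X : Type*} {F : Filter X} {s : ℝ} (hs : 0 ≤ s) {a : X → Matrix n n ℂ}
    {A : Matrix n n ℂ} (ha : Tendsto a F (𝓝 A)) (hh : ∀ x, (a x).IsHermitian)
    (hA : A.IsHermitian) : Tendsto (fun x => pw (a x) s) F (𝓝 (pw A s)) :=
  ((continuousOn_cfc_herm (Real.continuous_rpow_const hs)) A hA).tendsto.comp
    (tendsto_nhdsWithin_iff.mpr ⟨ha, Eventually.of_forall hh⟩)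

end Crest.Agent.R332
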