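import Crest.Agent.R332.Lam

/-! Row 332, task ClaimB: the calibration inequality along a Riccati path.
Integrate `lam_int` over `x ∈ [a,b]` (`M' x = K² - M² - GGᴴ` is continuous).  The function
`(x, λ, t) ↦ rt (R R M')`, `R = res (kl κ λ) (M x) t`, is continuous on
`[a,b] × [l,L] × [-1,1]`; swap the integrals so that the `x`-integral is innermost.  For fixed
`λ, t`: `d/dx rt (D⁻¹ M R) = rt (R R M')` (`hasDerivAt_inv`, `D = (D - tM) + tM`), so
`∫_a^b rt(R R M') dx = -Σ_i κ_i/d_i (1/(d_i + tκ_i) + 1/(d_i - tκ_i)) = -Σ_i 2κ_i/(d_i² - t²κ_i²)`,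
`∫_a^b -rt M' = 2Σκ_i`, and therefore
`∫_a^b (-rt M' + λ T(M')) dx = Σ_i ∫_{-1}^1 κ_i s/(s+λ) dt` with `s = κ_i²(1-t²)`.
`bb_le_int` gives the lower bound `Σ_i [bb κ_i^(1+2β) Bc - 2κb l^β/β - 2κb³ L^(β-1)/(1-β)]`.
Let `l → 0`, `L → ∞` (`err β κb l → 0`), divide by `bb β * Bc β`;
`(1+1/β)^(-β)/((1+β) Bc) = Lc β`.

`Approx.DB_ge`: apply `claimB` with `G = ψ * pw (ψᴴψ) ((1/β-1)/2)`: `G Gᴴ = pot β ψ`,
`Gᴴ G = pw ρ (1/β)`, `tp (pw ρ (1/β)) (1+β) = tp ρ (1+1/β)`; outside `[a,b]` both `q` and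
`tp ρ` vanish (`M = ±K`, `ψ = 0`), so interval integrals equal integrals over `ℝ`. -/

set_option autoImplicit false
set_option linter.unusedSectionVars false

open Matrix Filter Topology MeasureTheory
open scoped ComplexOrder Matrix.Norms.Frobenius

namespace Crest.Agent.R332

variable {n k : Type*} [Fintype n] [DecidableEq n] [Fintype k] [DecidableEq k]

namespace ClaimBA

lemma swap {f : ℝ → ℝ → ℝ} (hf : Continuous f.uncurry) (a b c d : ℝ) :
    ∫ x in a..b, ∫ y in c..d, f x y = ∫ y in c..d, ∫ x in a..b, f x y :=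
  intervalIntegral_intervalIntegral_swap
    ((hf.continuousOn.integrableOn_compact (isCompact_uIcc.prod isCompact_uIcc)).mono_set
      (Set.prod_mono Set.uIoc_subset_uIcc Set.uIoc_subset_uIcc))

lemma cont2 {Q : ℝ → ℝ → ℝ → ℝ} (hQ : Continuous fun z : ℝ × ℝ × ℝ => Q z.1 z.2.1 z.2.2)
    (c d : ℝ) : Continuous fun z : ℝ × ℝ => ∫ t in c..d, Q z.1 z.2 t :=
  intervalIntegral.continuous_parametric_intervalIntegral_of_continuous'
    (f := fun (z : ℝ × ℝ) t => Q z.1 z.2 t)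
    (hQ.comp (f := fun w : (ℝ × ℝ) × ℝ => (w.1.1, w.1.2, w.2)) (by fun_prop)) c d

lemma cont1 {Q : ℝ → ℝ → ℝ → ℝ} (hQ : Continuous fun z : ℝ × ℝ × ℝ => Q z.1 z.2.1 z.2.2)
    (c d l L : ℝ) : Continuous fun x : ℝ => ∫ y in l..L, ∫ t in c..d, Q x y t :=
  intervalIntegral.continuous_parametric_intervalIntegral_of_continuous'
    (f := fun x y => ∫ t in c..d, Q x y t) (cont2 hQ c d) l L

lemma rev {Q : ℝ → ℝ → ℝ → ℝ} (hQ : Continuous fun z : ℝ × ℝ × ℝ => Q z.1 z.2.1 z.2.2) :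
    Continuous fun z : ℝ × ℝ × ℝ => Q z.2.2 z.2.1 z.1 :=
  hQ.comp (f := fun w : ℝ × ℝ × ℝ => (w.2.2, w.2.1, w.1)) (by fun_prop)

lemma triple {Q : ℝ → ℝ → ℝ → ℝ} (hQ : Continuous fun z : ℝ × ℝ × ℝ => Q z.1 z.2.1 z.2.2)
    (a b l L c d : ℝ) :
    ∫ x in a..b, ∫ y in l..L, ∫ t in c..d, Q x y t =
      ∫ t in c..d, ∫ y in l..L, ∫ x in a..b, Q x y t := by
  rw [swap (f := fun x y => ∫ t in c..d, Q x y t) (cont2 hQ c d),
    swap (f := fun t y => ∫ x in a..b, Q x y t) (cont2 (Q := fun t y x => Q x y t) (rev hQ) a b)]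
  congr 1
  funext y
  exact swap (f := fun x t => Q x y t)
    (hQ.comp (f := fun w : ℝ × ℝ => (w.1, y, w.2)) (by fun_prop)) a b c d

lemma continuous_dg {X : Type*} [TopologicalSpace X] {d : X → n → ℝ}
    (h : ∀ i, Continuous fun x => d x i) : Continuous fun x => dg (d x) := by
  refine continuous_matrix fun i j => ?_
  simp only [dg_apply]
  split_ifs
  · exact Complex.continuous_ofReal.comp (h i)
  · exact continuous_const

/-- the `x`-integral at fixed `λ, t` -/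
lemma x_int {κ : n → ℝ} (hκ : ∀ i, 0 ≤ κ i) {a b : ℝ} {M M' : ℝ → Matrix n n ℂ}
    (hM : ∀ x, HasDerivAt M (M' x) x) (up : ∀ x, (dg κ - M x).PosSemidef)
    (lo : ∀ x, (dg κ + M x).PosSemidef) (Ma : M a = dg κ) (Mb : M b = -dg κ) {lam t : ℝ}
    (hl : 0 < lam) (ht : t ∈ Set.Icc (-1 : ℝ) 1)
    (hi : IntervalIntegrable (fun x => -rt (M' x) / 2 +
      lam / 2 * rt (res (kl κ lam) (M x) t * res (kl κ lam) (M x) t * M' x)) volume a b) :
    ∫ x in a..b, (-rt (M' x) / 2 +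
      lam / 2 * rt (res (kl κ lam) (M x) t * res (kl κ lam) (M x) t * M' x)) =
      ∑ i, κ i * (κ i ^ 2 * (1 - t ^ 2) / (κ i ^ 2 * (1 - t ^ 2) + lam)) := by
  set d := kl κ lam with hd
  have hdp : ∀ i, 0 < d i := kl_pos κ hl
  have hd2 : ∀ i, d i ^ 2 = κ i ^ 2 + lam := fun i => Real.sq_sqrt (by positivity)
  have hlt : ∀ i, κ i < d i := fun i =>
    lt_of_pow_lt_pow_left₀ 2 (hdp i).le (by rw [hd2]; linarith)
  have hder : ∀ x, HasDerivAt (fun x => -rt (M x) / 2 +
      lam / 2 * rt (dg (fun i => (d i)⁻¹) * (M x * res d (M x) t)))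
      (-rt (M' x) / 2 + lam / 2 * rt (res d (M x) t * res d (M x) t * M' x)) x := by
    intro x
    have p1 := kl_sub_posDef hκ (up x) hl
    have p2 := kl_add_posDef hκ (lo x) hl
    have h1 : HasDerivAt (fun x => dg d - t • M x) (-(t • M' x)) x :=
      ((hM x).const_smul t).const_sub _
    have h2 := hasDerivAt_inv h1 (PWA.unit_det (res_posDef p1 p2 ht))
    have h3 := HasDerivAt.rt (HasDerivAt.mmul (hasDerivAt_const x (dg fun i => (d i)⁻¹))
      (HasDerivAt.mmul (hM x) h2))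
    refine ((HasDerivAt.rt (hM x)).neg.div_const 2).add ((h3.congr_deriv ?_).const_mul _)
    have e1 : (dg d - t • M x) * res d (M x) t = 1 := PWA.mul_res p1 p2 ht
    have e2 : dg d * res d (M x) t = 1 + t • (M x * res d (M x) t) := by
      rw [← e1, Matrix.sub_mul, Matrix.smul_mul]; abel
    have e3 : M' x * res d (M x) t +
        M x * -(res d (M x) t * -(t • M' x) * res d (M x) t) =
        dg d * (res d (M x) t * M' x * res d (M x) t) := by
      rw [← Matrix.mul_assoc, ← Matrix.mul_assoc, e2]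
      simp only [Matrix.add_mul, Matrix.one_mul, Matrix.mul_neg, Matrix.neg_mul, neg_neg,
        Matrix.mul_smul, Matrix.smul_mul, Matrix.mul_assoc]
    change rt (0 * _ + dg (fun i => (d i)⁻¹) * (M' x * res d (M x) t +
        M x * -(res d (M x) t * -(t • M' x) * res d (M x) t))) = _
    rw [e3, Matrix.zero_mul, zero_add, ← Matrix.mul_assoc, PWA.inv_mul_dg hdp, Matrix.one_mul,
      rt_mul_comm, Matrix.mul_assoc]
  rw [intervalIntegral.integral_eq_sub_of_hasDerivAt (fun x _ => hder x) hi, Ma, Mb]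
  have q1 : ∀ i, 0 < d i - t * κ i := fun i => by nlinarith [hlt i, hκ i, ht.1, ht.2]
  have q2 : ∀ i, 0 < d i + t * κ i := fun i => by nlinarith [hlt i, hκ i, ht.1, ht.2]
  have q2' : ∀ i, d i - t * -κ i ≠ 0 := fun i => by have := q2 i; linarith
  simp only [res, dg_neg, dg_smul, dg_sub]
  rw [dg_inv q2', dg_inv fun i => (q1 i).ne']
  simp only [dg_mul_dg, rt_dg, Finset.mul_sum, Finset.sum_div, ← Finset.sum_neg_distrib,
    ← Finset.sum_add_distrib, ← Finset.sum_sub_distrib]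
  refine Finset.sum_congr rfl fun i _ => ?_
  have e : κ i ^ 2 * (1 - t ^ 2) + lam = (d i - t * κ i) * (d i + t * κ i) := by
    nlinarith [hd2 i]
  have e' : κ i ^ 2 * (1 - t ^ 2) = (d i - t * κ i) * (d i + t * κ i) - lam := by linarith
  have r1 := (q1 i).ne'
  have r2 := (q2 i).ne'
  have r3 := (hdp i).ne'
  have e'' : d i + t * κ i + (d i - t * κ i) = 2 * d i := by ring
  rw [e, e', mul_neg, sub_neg_eq_add]
  generalize d i + t * κ i = u at *
  generalize d i - t * κ i = v at *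
  have e3 : d i = (u + v) / 2 := by linarith
  rw [e3] at r3 ⊢
  have r4 : u + v ≠ 0 := fun h => r3 (by rw [h]; simp)
  field_simp
  ring

lemma continuous_qd (β : ℝ) (κ : n → ℝ) {M V : ℝ → Matrix n n ℂ} (hM : Continuous M)
    (hV : Continuous V) (hp : ∀ x, (V x).PosSemidef) : Continuous fun x => qd β κ (M x) (V x) := by
  have c1 : Continuous fun x => dg κ * dg κ * M x - M x * (dg κ * dg κ) :=
    (continuous_const.matrix_mul hM).sub (hM.matrix_mul continuous_const)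
  have c2 : Continuous fun x => V x - (1 + 1 / β) • (dg κ * dg κ - M x * M x) :=
    hV.sub ((continuous_const.sub (hM.matrix_mul hM)).const_smul (1 + 1 / β))
  have c3 : Continuous fun x => (1 + rt (V x)) ^ 2 :=
    (continuous_const.add (continuous_rt.comp hV)).pow 2
  have c4 : ∀ x, (1 + rt (V x)) ^ 2 ≠ 0 := fun x => by
    have := rt_nonneg (hp x)
    positivity
  exact (c1.norm.pow 2).add ((c2.norm.pow 2).div c3 c4)

lemma err_le {β κb l : ℝ} (h0 : 0 < β) (hl : 0 < l) :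
    err β κb l ≤ (1 / β) * (l ^ β * κb ^ 2 + 4 * l ^ β * (κb ^ 2 + l)) := by
  unfold err
  have h1 : Real.log (4 * (κb ^ 2 + l) / l) ≤ 4 * (κb ^ 2 + l) / l :=
    (Real.log_le_sub_one_of_pos (by positivity)).trans (by linarith)
  have h2 : l ^ (1 + β) * Real.log (4 * (κb ^ 2 + l) / l) ≤ 4 * l ^ β * (κb ^ 2 + l) := by
    refine (mul_le_mul_of_nonneg_left h1 (by positivity)).trans_eq ?_
    rw [Real.rpow_add hl, Real.rpow_one]
    field_simp
  gcongr

/-- lower bound for the triple integral -/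
lemma lower {β : ℝ} (h0 : 0 < β) (h1 : β < 1) {κb : ℝ} {κ : n → ℝ} (hκ : ∀ i, 0 ≤ κ i)
    (hκb : ∀ i, κ i ≤ κb) {a b : ℝ} {M M' : ℝ → Matrix n n ℂ}
    (hM : ∀ x, HasDerivAt M (M' x) x) (hM' : Continuous M') (up : ∀ x, (dg κ - M x).PosSemidef)
    (lo : ∀ x, (dg κ + M x).PosSemidef) (Ma : M a = dg κ) (Mb : M b = -dg κ) {l L : ℝ}
    (hl : 0 < l) (hL : l ≤ L) :
    (Continuous fun x => ∫ lam in l..L, lam ^ (β - 1) * (-rt (M' x) +
      lam * trT (kl κ lam) (M x) (M' x))) ∧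
    bb β * (∑ i, κ i ^ (1 + 2 * β)) * Bc β -
        2 * (Fintype.card n * (κb * (l ^ β / β) + κb ^ 3 * (L ^ (β - 1) / (1 - β)))) ≤
      ∫ x in a..b, ∫ lam in l..L, lam ^ (β - 1) * (-rt (M' x) +
        lam * trT (kl κ lam) (M x) (M' x)) := by
  have hMc : Continuous M := continuous_iff_continuousAt.2 fun x => (hM x).continuousAt
  set cl : ℝ → ℝ := fun t => max (-1) (min t 1) with hcl
  have hclm : ∀ t, cl t ∈ Set.Icc (-1 : ℝ) 1 := fun t =>
    ⟨le_max_left _ _, max_le (by norm_num) (min_le_right _ _)⟩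
  have hcle : ∀ t ∈ Set.Icc (-1 : ℝ) 1, cl t = t := fun t ht => by
    simp only [hcl, min_eq_left ht.2, max_eq_right ht.1]
  have hml : ∀ lam : ℝ, 0 < max lam l := fun lam => lt_max_of_lt_right hl
  set R : ℝ × ℝ × ℝ → Matrix n n ℂ := fun z => res (kl κ (max z.2.1 l)) (M z.1) (cl z.2.2)
    with hR
  have hRc : Continuous R := by
    rw [← continuousOn_univ]
    refine ContinuousOn.minv (X := fun z : ℝ × ℝ × ℝ =>
      dg (kl κ (max z.2.1 l)) - cl z.2.2 • M z.1) (Continuous.continuousOn ?_) fun z _ =>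
        PWA.unit_det (res_posDef (kl_sub_posDef hκ (up _) (hml _))
          (kl_add_posDef hκ (lo _) (hml _)) (hclm _))
    have c1 : Continuous fun z : ℝ × ℝ × ℝ => cl z.2.2 := by simp only [hcl]; fun_prop
    refine (continuous_dg fun i => ?_).sub (c1.smul (hMc.comp continuous_fst))
    unfold kl; fun_prop
  set Q₀ : ℝ → ℝ → ℝ → ℝ := fun x lam t =>
    -rt (M' x) / 2 + lam / 2 * rt (R (x, lam, t) * R (x, lam, t) * M' x) with hQ₀
  have hQ₀c : Continuous fun z : ℝ × ℝ × ℝ => Q₀ z.1 z.2.1 z.2.2 := by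
    have e1 : Continuous fun z : ℝ × ℝ × ℝ => rt (M' z.1) :=
      continuous_rt.comp (hM'.comp continuous_fst)
    have e2 : Continuous fun z : ℝ × ℝ × ℝ => rt (R z * R z * M' z.1) :=
      continuous_rt.comp ((hRc.matrix_mul hRc).matrix_mul (hM'.comp continuous_fst))
    simp only [hQ₀]
    fun_prop
  set Q : ℝ → ℝ → ℝ → ℝ := fun x lam t => (max lam l) ^ (β - 1) * Q₀ x lam t with hQ
  have hQc : Continuous fun z : ℝ × ℝ × ℝ => Q z.1 z.2.1 z.2.2 :=
    (Continuous.rpow_const (by fun_prop) fun z => .inl (hml _).ne').mul hQ₀c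
  have hP : ∀ x, ∫ lam in l..L, lam ^ (β - 1) * (-rt (M' x) + lam * trT (kl κ lam) (M x) (M' x)) =
      ∫ lam in l..L, ∫ t in (-1 : ℝ)..1, Q x lam t := by
    intro x
    refine intervalIntegral.integral_congr fun lam hlam => ?_
    rw [Set.uIcc_of_le hL] at hlam
    have hp : 0 < lam := hl.trans_le hlam.1
    have e : ∫ t in (-1 : ℝ)..1, Q x lam t = ∫ t in (-1 : ℝ)..1, lam ^ (β - 1) * (-rt (M' x) / 2 +
        lam / 2 * rt (res (kl κ lam) (M x) t * res (kl κ lam) (M x) t * M' x)) := by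
      refine intervalIntegral.integral_congr fun t ht => ?_
      rw [Set.uIcc_of_le (by norm_num)] at ht
      simp only [hQ, hQ₀, hR, max_eq_left hlam.1, hcle t ht]
    rw [e, intervalIntegral.integral_const_mul, intervalIntegral.integral_add (by simp)
      ((PWA.ii_RR (kl_sub_posDef hκ (up _) hp) (kl_add_posDef hκ (lo _) hp) _).const_mul _),
      intervalIntegral.integral_const_mul, intervalIntegral.integral_const, trT]
    simp only [smul_eq_mul]
    ring
  simp only [hP]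
  refine ⟨cont1 hQc _ _ _ _, ?_⟩
  rw [triple hQc]
  have hcont : Continuous fun t : ℝ => (1 - t ^ 2) ^ β :=
    (Real.continuous_rpow_const h0.le).comp (by fun_prop)
  have e : bb β * (∑ i, κ i ^ (1 + 2 * β)) * Bc β -
      2 * (Fintype.card n * (κb * (l ^ β / β) + κb ^ 3 * (L ^ (β - 1) / (1 - β)))) =
      ∫ t in (-1 : ℝ)..1, (bb β * (∑ i, κ i ^ (1 + 2 * β)) * (1 - t ^ 2) ^ β -
        Fintype.card n * (κb * (l ^ β / β) + κb ^ 3 * (L ^ (β - 1) / (1 - β)))) := by
    rw [intervalIntegral.integral_sub ((hcont.intervalIntegrable _ _).const_mul _) (by simp),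
      intervalIntegral.integral_const_mul, intervalIntegral.integral_const, Bc]
    simp only [smul_eq_mul]
    ring
  rw [e]
  refine intervalIntegral.integral_mono_on (by norm_num)
    (((continuous_const.mul hcont).sub continuous_const).intervalIntegrable _ _)
    ((cont1 (Q := fun t y x => Q x y t) (rev hQc) _ _ _ _).intervalIntegrable _ _) fun t ht => ?_
  have ht2 : 0 ≤ 1 - t ^ 2 := by nlinarith [ht.1, ht.2]
  have e2 : ∫ lam in l..L, ∫ x in a..b, Q x lam t = ∫ lam in l..L, ∑ i, κ i * (lam ^ (β - 1) *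
      (κ i ^ 2 * (1 - t ^ 2) / (κ i ^ 2 * (1 - t ^ 2) + lam))) := by
    refine intervalIntegral.integral_congr fun lam hlam => ?_
    rw [Set.uIcc_of_le hL] at hlam
    have hp : 0 < lam := hl.trans_le hlam.1
    have hc : Continuous fun x => Q₀ x lam t :=
      hQ₀c.comp (f := fun x : ℝ => (x, lam, t)) (by fun_prop)
    simp only [hQ, hQ₀, hR, max_eq_left hlam.1, hcle t ht] at hc ⊢
    rw [intervalIntegral.integral_const_mul,
      x_int hκ hM up lo Ma Mb hp ht (hc.intervalIntegrable _ _), Finset.mul_sum]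
    refine Finset.sum_congr rfl fun i _ => ?_
    ring
  have hii : ∀ i, IntervalIntegrable (fun lam : ℝ => κ i * (lam ^ (β - 1) *
      (κ i ^ 2 * (1 - t ^ 2) / (κ i ^ 2 * (1 - t ^ 2) + lam)))) volume l L := fun i => by
    refine ContinuousOn.intervalIntegrable ?_
    rw [Set.uIcc_of_le hL]
    refine continuousOn_const.mul (ContinuousOn.mul
      (continuousOn_id.rpow_const fun x hx => .inl (hl.trans_le hx.1).ne')
      (continuousOn_const.div (by fun_prop) fun x hx => ?_))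
    have := hl.trans_le hx.1
    positivity
  rw [e2, intervalIntegral.integral_finsetSum fun i _ => hii i, Finset.mul_sum, Finset.sum_mul,
    ← Finset.card_univ, ← nsmul_eq_mul, ← Finset.sum_const, ← Finset.sum_sub_distrib]
  refine Finset.sum_le_sum fun i _ => ?_
  rw [intervalIntegral.integral_const_mul]
  have hki := hκ i
  have hkb := hκb i
  have b1 := bb_le_int h0 h1 (s := κ i ^ 2 * (1 - t ^ 2)) (by positivity) hl hL
  refine le_trans ?_ (mul_le_mul_of_nonneg_left b1 hki)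
  have e3 : κ i * (κ i ^ 2 * (1 - t ^ 2)) ^ β = κ i ^ (1 + 2 * β) * (1 - t ^ 2) ^ β := by
    rw [Real.mul_rpow (by positivity) ht2, Real.rpow_add_of_nonneg hki zero_le_one (by positivity),
      Real.rpow_one, Real.rpow_mul hki, Real.rpow_two, mul_assoc]
  have hLp : 0 < L := hl.trans_le hL
  have h1β : 0 < 1 - β := by linarith
  have b2 : κ i * (l ^ β / β) ≤ κb * (l ^ β / β) := by gcongr
  have b3 : κ i * (κ i ^ 2 * (1 - t ^ 2)) * (L ^ (β - 1) / (1 - β)) ≤
      κb ^ 3 * (L ^ (β - 1) / (1 - β)) := by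
    gcongr
    calc κ i * (κ i ^ 2 * (1 - t ^ 2)) ≤ κ i * (κ i ^ 2 * 1) := by
          gcongr; nlinarith [sq_nonneg t]
      _ = κ i ^ 3 := by ring
      _ ≤ κb ^ 3 := by gcongr
  have e4 : κ i * (bb β * (κ i ^ 2 * (1 - t ^ 2)) ^ β - l ^ β / β -
      κ i ^ 2 * (1 - t ^ 2) * L ^ (β - 1) / (1 - β)) =
      bb β * (κ i * (κ i ^ 2 * (1 - t ^ 2)) ^ β) - κ i * (l ^ β / β) -
        κ i * (κ i ^ 2 * (1 - t ^ 2)) * (L ^ (β - 1) / (1 - β)) := by ring
  rw [e4, e3]
  linarith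

end ClaimBA
open ClaimBA

theorem claimB {β : ℝ} (h0 : 0 < β) (h1 : β < 1) {κb : ℝ} (hκb : 0 ≤ κb) :
    ∃ c : ℝ, 0 < c ∧ ∀ (ι μ : Type) [Fintype ι] [DecidableEq ι] [Fintype μ] [DecidableEq μ]
      (κ : ι → ℝ) (a b : ℝ) (M : ℝ → Matrix ι ι ℂ) (G : ℝ → Matrix ι μ ℂ),
      (∀ i, 0 ≤ κ i) → (∀ i, κ i ≤ κb) → a ≤ b → Continuous G →
      (∀ x, HasDerivAt M (dg κ * dg κ - M x * M x - G x * (G x)ᴴ) x) →
      (∀ x, (dg κ - M x).PosSemidef) → (∀ x, (dg κ + M x).PosSemidef) →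
      M a = dg κ → M b = -dg κ →
      ∑ i, κ i ^ (1 + 2 * β) + c * ∫ x in a..b, qd β κ (M x) (G x * (G x)ᴴ) ≤
        Lc β * ∫ x in a..b, tp ((G x)ᴴ * G x) (1 + β) := by
  obtain ⟨c, hc, H⟩ := lam_int h0 h1 hκb
  have hbb := bb_pos h0 h1
  have hBc := Bc_pos h0
  refine ⟨c / (bb β * Bc β), by positivity, ?_⟩
  intro ι μ _ _ _ _ κ a b M G hκ hκ' hab hG hM up lo Ma Mb
  have hMc : Continuous M := continuous_iff_continuousAt.2 fun x => (hM x).continuousAt
  have hV : Continuous fun x => G x * (G x)ᴴ := hG.matrix_mul hG.matrix_conjTranspose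
  have hM' : Continuous fun x => dg κ * dg κ - M x * M x - G x * (G x)ᴴ :=
    (continuous_const.sub (hMc.matrix_mul hMc)).sub hV
  have hq : Continuous fun x => qd β κ (M x) (G x * (G x)ᴴ) :=
    continuous_qd β κ hMc hV fun x => posSemidef_self_mul_conjTranspose _
  have htp : Continuous fun x => tp ((G x)ᴴ * G x) (1 + β) :=
    continuous_rt.comp (Continuous.pw (by positivity) (hG.matrix_conjTranspose.matrix_mul hG)
      fun x => isHermitian_conjTranspose_mul_self _)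
  set S := ∑ i, κ i ^ (1 + 2 * β)
  set Iq := ∫ x in a..b, qd β κ (M x) (G x * (G x)ᴴ) with hIq
  set It := ∫ x in a..b, tp ((G x)ᴴ * G x) (1 + β) with hIt
  set N : ℝ := (Fintype.card ι : ℝ) with hN
  set c₁ := bb β * (1 + 1 / β) ^ (-β) / (1 + β) with hc₁
  set E : ℝ → ℝ := fun l => 2 * (N * (κb * (l ^ β / β) + κb ^ 3 * (l ^ (1 - β) / (1 - β)))) +
    (b - a) * (N * ((1 / β) * (l ^ β * κb ^ 2 + 4 * l ^ β * (κb ^ 2 + l)))) with hE
  have hEt : Tendsto (fun l => c₁ * It + E l) (𝓝[>] 0) (𝓝 (c₁ * It)) := by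
    have c1 : Continuous fun l : ℝ => l ^ β := Real.continuous_rpow_const h0.le
    have c2 : Continuous fun l : ℝ => l ^ (1 - β) := Real.continuous_rpow_const (by linarith)
    have c3 : Continuous fun l => c₁ * It + E l := by simp only [hE]; fun_prop
    have := (c3.tendsto 0).mono_left (nhdsWithin_le_nhds (s := Set.Ioi 0))
    simpa [hE, Real.zero_rpow h0.ne', Real.zero_rpow (sub_pos.2 h1).ne'] using this
  have key : bb β * S * Bc β + c * Iq ≤ c₁ * It := by
    refine ge_of_tendsto hEt ?_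
    have hp : (0 : ℝ) < (κb ^ 2 + 2)⁻¹ := by positivity
    filter_upwards [Ioo_mem_nhdsGT hp] with l hl
    have hl0 : 0 < l := hl.1
    have hL : κb ^ 2 + 2 ≤ l⁻¹ := ((lt_inv_comm₀ hl0 (by positivity)).1 hl.2).le
    have hl1 : l ≤ 1 := hl.2.le.trans (inv_le_one_of_one_le₀ (by nlinarith [sq_nonneg κb]))
    have hl2 : l ≤ κb ^ 2 + 1 := by nlinarith [sq_nonneg κb]
    obtain ⟨k1, k2⟩ := lower h0 h1 hκ hκ' hM hM' up lo Ma Mb hl0
      (L := l⁻¹) (by nlinarith [sq_nonneg κb])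
    have k3 := intervalIntegral.integral_mono_on hab
      ((k1.add (continuous_const.mul hq)).intervalIntegrable (μ := volume) a b)
      (((continuous_const.mul htp).add continuous_const).intervalIntegrable (μ := volume) a b)
      fun x _ => H ι μ κ (M x) (G x) l l⁻¹ hκ hκ' (up x) (lo x) hl0 hl2 hL
    simp only [Pi.add_apply, Pi.mul_apply] at k3
    rw [intervalIntegral.integral_add (k1.intervalIntegrable _ _)
      ((hq.intervalIntegrable _ _).const_mul _), intervalIntegral.integral_add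
      ((htp.intervalIntegrable _ _).const_mul _) (by simp), intervalIntegral.integral_const_mul,
      intervalIntegral.integral_const_mul, intervalIntegral.integral_const, smul_eq_mul] at k3
    rw [Real.inv_rpow hl0.le, ← Real.rpow_neg hl0.le, neg_sub] at k2
    have k4 : (b - a) * (N * err β κb l) ≤
        (b - a) * (N * ((1 / β) * (l ^ β * κb ^ 2 + 4 * l ^ β * (κb ^ 2 + l)))) := by
      have : 0 ≤ b - a := sub_nonneg.2 hab
      gcongr
      exact err_le h0 hl0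
    simp only [hE]
    linarith
  have hLc : Lc β = c₁ / (bb β * Bc β) := by
    have hp : 0 < 1 + 1 / β := by positivity
    rw [Lc, hc₁, neg_add, Real.rpow_add hp, Real.rpow_neg_one]
    field_simp
    ring
  rw [hLc, div_mul_eq_mul_div c₁, le_div_iff₀ (by positivity)]
  refine le_of_eq_of_le ?_ key
  field_simp

lemma pot_psd (β : ℝ) (ψ : Matrix n k ℂ) : (pot β ψ).PosSemidef :=
  (pw_psd (posSemidef_conjTranspose_mul_self ψ) _).mul_mul_conjTranspose_same ψ

namespace ClaimBA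

lemma exp_nonneg {β : ℝ} (h0 : 0 < β) (h1 : β < 1) : 0 ≤ 1 / β - 1 :=
  sub_nonneg.2 (one_le_one_div h0 h1.le)

end ClaimBA

lemma continuous_pot {β : ℝ} (h0 : 0 < β) (h1 : β < 1) :
    Continuous (pot β : Matrix n k ℂ → Matrix n n ℂ) :=
  (continuous_id.matrix_mul (Continuous.pw (exp_nonneg h0 h1)
    (continuous_id.matrix_conjTranspose.matrix_mul continuous_id)
    fun ψ => isHermitian_conjTranspose_mul_self ψ)).matrix_mul continuous_id.matrix_conjTranspose

lemma pot_zero (β : ℝ) : pot β (0 : Matrix n k ℂ) = 0 := by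
  simp [pot]

/-- `(ψψᴴ)^r ψ = ψ (ψᴴψ)^r` -/
lemma pot_mul {β : ℝ} (h0 : 0 < β) (h1 : β < 1) (ψ : Matrix n k ℂ) :
    pot β ψ * ψ = ψ * pw (ψᴴ * ψ) (1 / β) := by
  have hp := posSemidef_conjTranspose_mul_self ψ
  have := pw_mul_pw hp (exp_nonneg h0 h1) zero_le_one
  rw [pw_one hp.1, sub_add_cancel] at this
  rw [pot, ← this]
  simp only [Matrix.mul_assoc]

lemma rt_pot {β : ℝ} (h0 : 0 < β) (h1 : β < 1) (ψ : Matrix n k ℂ) :
    rt (pot β ψ) = tp (ψᴴ * ψ) (1 / β) := by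
  have hp := posSemidef_conjTranspose_mul_self ψ
  have := pw_mul_pw hp (exp_nonneg h0 h1) zero_le_one
  rw [pw_one hp.1, sub_add_cancel] at this
  rw [pot, tp, ← this, Matrix.mul_assoc, rt_mul_comm, Matrix.mul_assoc]

lemma rt_conj_pot {β : ℝ} (h0 : 0 < β) (h1 : β < 1) (ψ : Matrix n k ℂ) :
    rt (ψᴴ * pot β ψ * ψ) = tp (ψᴴ * ψ) (1 + 1 / β) := by
  have hp := posSemidef_conjTranspose_mul_self ψ
  have := pw_mul_pw hp zero_le_one (show 0 ≤ 1 / β by positivity)
  rw [pw_one hp.1] at this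
  rw [Matrix.mul_assoc, pot_mul h0 h1, tp, ← this, Matrix.mul_assoc]

lemma pot_unitary (β : ℝ) {U : Matrix n n ℂ} (hU : Uᴴ * U = 1) (ψ : Matrix n k ℂ) :
    pot β (Uᴴ * ψ) = Uᴴ * pot β ψ * U := by
  have e : (Uᴴ * ψ)ᴴ * (Uᴴ * ψ) = ψᴴ * ψ := by
    rw [conjTranspose_mul, conjTranspose_conjTranspose, Matrix.mul_assoc, ← Matrix.mul_assoc U,
      mul_eq_one_comm.mp hU, Matrix.one_mul]
  rw [pot, e, pot, conjTranspose_mul, conjTranspose_conjTranspose]
  simp only [Matrix.mul_assoc]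

namespace ClaimBA

lemma integrable_of {f : ℝ → ℝ} {a b : ℝ} (hf : Continuous f)
    (h : ∀ x, x ∉ Set.Ioo a b → f x = 0) : Integrable f :=
  hf.integrable_of_hasCompactSupport (HasCompactSupport.intro (isCompact_Icc (a := a) (b := b))
    fun x hx => h x fun hx' => hx (Set.Ioo_subset_Icc_self hx'))

lemma interval_eq {f : ℝ → ℝ} {a b : ℝ} (h : ∀ x, x ∉ Set.Ioo a b → f x = 0) :
    ∫ x in a..b, f x = ∫ x, f x :=
  intervalIntegral.integral_eq_integral_of_support_subset fun x hx =>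
    Set.Ioo_subset_Ioc_self (by by_contra hx'; exact hx (h x hx'))

lemma q_zero {m : ℕ} {β : ℝ} (A : Approx m β) (x : ℝ) (hx : x ∉ Set.Ioo A.a A.b) : A.q x = 0 := by
  have hV : A.V x = 0 := by rw [Approx.V, A.hs x hx, pot_zero]
  rw [Approx.q, hV, qd]
  rcases le_or_gt x A.a with h | h
  · simp [A.Ma x h, Matrix.mul_assoc]
  · simp [A.Mb x (not_lt.1 fun h' => hx ⟨h, h'⟩), Matrix.mul_assoc]

lemma tp_zero {m : ℕ} {β : ℝ} (A : Approx m β) {s : ℝ} (hs : 0 < s) (x : ℝ)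
    (hx : x ∉ Set.Ioo A.a A.b) : tp (A.rho x) s = 0 := by
  simp [Approx.rho, A.hs x hx, tp, pw_zero hs.ne']

end ClaimBA

namespace Approx
variable {m : ℕ} {β : ℝ} (A : Approx m β)

lemma continuous_ψ : Continuous A.ψ :=
  continuous_iff_continuousAt.2 fun x => (A.hψ x).continuousAt

lemma continuous_M : Continuous A.M :=
  continuous_iff_continuousAt.2 fun x => (A.hM x).continuousAt

lemma continuous_rho : Continuous A.rho :=
  A.continuous_ψ.matrix_conjTranspose.matrix_mul A.continuous_ψ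

lemma rho_psd (x : ℝ) : (A.rho x).PosSemidef := posSemidef_conjTranspose_mul_self _

lemma q_nonneg (x : ℝ) : 0 ≤ A.q x := by
  unfold q qd
  positivity

lemma integrable_q (h0 : 0 < β) (h1 : β < 1) : Integrable A.q :=
  integrable_of (continuous_qd β A.κ A.continuous_M ((continuous_pot h0 h1).comp A.continuous_ψ)
    fun _ => pot_psd _ _) (q_zero A)

lemma integrable_sq : Integrable fun x => A.sq x ^ 2 :=
  integrable_of (a := A.a) (b := A.b)
    ((A.hψ'.sub (A.continuous_M.matrix_mul A.continuous_ψ)).norm.pow 2)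
    fun x hx => by simp [sq, A.hs x hx, A.hs' x hx]

lemma integrable_tp {s : ℝ} (hs : 0 < s) : Integrable fun x => tp (A.rho x) s :=
  integrable_of (continuous_rt.comp (Continuous.pw hs.le A.continuous_rho
    fun x => (A.rho_psd x).1)) (tp_zero A hs)

end Approx

theorem Approx.DB_ge {β : ℝ} (h0 : 0 < β) (h1 : β < 1) {κb : ℝ} (hκb : 0 ≤ κb) :
    ∃ c : ℝ, 0 < c ∧ ∀ (m : ℕ) (A : Approx m β), (∀ i, A.κ i ≤ κb) → c * ∫ x, A.q x ≤ A.DB := by
  obtain ⟨c, hc, H⟩ := claimB h0 h1 hκb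
  refine ⟨c, hc, fun m A hκ => ?_⟩
  have he : 0 ≤ (1 / β - 1) / 2 := by have := exp_nonneg h0 h1; positivity
  set G : ℝ → Matrix A.ι (Fin m) ℂ := fun x => A.ψ x * pw (A.rho x) ((1 / β - 1) / 2) with hG
  have hP : ∀ x, (pw (A.rho x) ((1 / β - 1) / 2))ᴴ = pw (A.rho x) ((1 / β - 1) / 2) :=
    fun x => (pw_psd (A.rho_psd x) _).1
  have e1 : ∀ x, G x * (G x)ᴴ = pot β (A.ψ x) := fun x => by
    have := pw_mul_pw (A.rho_psd x) he he
    rw [add_halves] at this
    rw [pot, ← Approx.rho, ← this, hG]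
    simp only [conjTranspose_mul, hP, Matrix.mul_assoc]
  have e2 : ∀ x, tp ((G x)ᴴ * G x) (1 + β) = tp (A.rho x) (1 + 1 / β) := fun x => by
    have a1 := pw_mul_pw (A.rho_psd x) he zero_le_one
    have a2 := pw_mul_pw (A.rho_psd x) (add_nonneg he zero_le_one) he
    rw [← a1, pw_one (A.rho_psd x).1] at a2
    have a3 : (G x)ᴴ * G x = pw (A.rho x) ((1 / β - 1) / 2 + 1 + (1 / β - 1) / 2) := by
      rw [← a2, hG]
      simp only [conjTranspose_mul, hP]
      rw [Matrix.mul_assoc, Matrix.mul_assoc, ← Matrix.mul_assoc (A.ψ x)ᴴ, ← Approx.rho]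
    rw [a3, tp, pw_pw (A.rho_psd x), tp]
    congr 2
    field_simp
    ring
  have := H A.ι (Fin m) A.κ A.a A.b A.M G A.κ0 hκ A.hab
    (A.continuous_ψ.matrix_mul (Continuous.pw he A.continuous_rho fun x => (A.rho_psd x).1))
    (fun x => by rw [e1]; exact A.hM x) A.up A.lo (A.Ma _ le_rfl) (A.Mb _ le_rfl)
  simp only [e1, e2] at this
  rw [interval_eq (tp_zero A (by positivity))] at this
  have e3 : ∫ x in A.a..A.b, qd β A.κ (A.M x) (pot β (A.ψ x)) = ∫ x, A.q x :=
    interval_eq (q_zero A)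
  rw [e3] at this
  rw [Approx.DB, Approx.J]
  linarith

theorem Approx.DB_nonneg {β : ℝ} (h0 : 0 < β) (h1 : β < 1) {m : ℕ} (A : Approx m β) :
    0 ≤ A.DB := by
  obtain ⟨c, hc, H⟩ := Approx.DB_ge h0 h1 (κb := ∑ i, A.κ i) (Finset.sum_nonneg fun i _ => A.κ0 i)
  refine le_trans ?_ (H m A fun i =>
    Finset.single_le_sum (fun i _ => A.κ0 i) (Finset.mem_univ i))
  exact mul_nonneg hc.le (integral_nonneg A.q_nonneg)

end Crest.Agent.R332
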