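import Crest.Agent.R332.Basic

/-! Row 332: definitions.  Throughout `β = γ - 1/2 ∈ (0,1)`, `r = 1/β`, `p = 1 + β`,
`p' = 1 + 1/β`, `2γ = 1 + 2β`. -/

set_option autoImplicit false
set_option linter.unusedSectionVars false

open Matrix Filter Topology MeasureTheory
open scoped ComplexOrder Matrix.Norms.Frobenius

namespace Crest.Agent.R332

variable {n k : Type*} [Fintype n] [DecidableEq n] [Fintype k] [DecidableEq k]

/-- `∫_{-1}^1 (1 - t²)^β dt` -/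
noncomputable def Bc (β : ℝ) : ℝ := ∫ t in (-1 : ℝ)..1, (1 - t ^ 2) ^ β

/-- `∫_0^∞ s^(β-1) / (1 + s) ds` -/
noncomputable def bb (β : ℝ) : ℝ := ∫ s in Set.Ioi (0 : ℝ), s ^ (β - 1) / (1 + s)

/-- the sharp constant -/
noncomputable def Lc (β : ℝ) : ℝ := (1 / β) * (1 + 1 / β) ^ (-(1 + β)) / Bc β

/-- the deficit in Young's trace inequality -/
noncomputable def dY (β : ℝ) (X Y : Matrix n n ℂ) : ℝ :=
  tp X (1 + β) / (1 + β) + tp Y (1 + 1 / β) / (1 + 1 / β) - rt (X * Y)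

/-- the deficit in the calibration inequality -/
noncomputable def qd (β : ℝ) (κ : n → ℝ) (M V : Matrix n n ℂ) : ℝ :=
  ‖dg κ * dg κ * M - M * (dg κ * dg κ)‖ ^ 2 +
    ‖V - (1 + 1 / β) • (dg κ * dg κ - M * M)‖ ^ 2 / (1 + rt V) ^ 2

/-- the potential `(ψ ψᴴ)^r = ψ (ψᴴ ψ)^(r-1) ψᴴ` -/
noncomputable def pot (β : ℝ) (ψ : Matrix n k ℂ) : Matrix n n ℂ :=
  ψ * pw (ψᴴ * ψ) (1 / β - 1) * ψᴴ

/-- resolvent `(D - t M)⁻¹` -/
noncomputable def res (d : n → ℝ) (M : Matrix n n ℂ) (t : ℝ) : Matrix n n ℂ := (dg d - t • M)⁻¹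

/-- `tr(T X)` for `T = ½ ∫_{-1}^1 (D - t M)⁻² dt` -/
noncomputable def trT (d : n → ℝ) (M X : Matrix n n ℂ) : ℝ :=
  (1 / 2) * ∫ t in (-1 : ℝ)..1, rt (res d M t * res d M t * X)

/-- `√(κ² + λ)` -/
noncomputable def kl (κ : n → ℝ) (lam : ℝ) : n → ℝ := fun i => Real.sqrt (κ i ^ 2 + lam)

/-- A matrix Riccati path from `K` to `-K` driven by the potential `(ψψᴴ)^r`. -/
structure Approx (m : ℕ) (β : ℝ) where
  ι : Type
  [fin : Fintype ι]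
  [dec : DecidableEq ι]
  κ : ι → ℝ
  κ0 : ∀ i, 0 ≤ κ i
  a : ℝ
  b : ℝ
  hab : a ≤ b
  ψ : ℝ → Matrix ι (Fin m) ℂ
  ψ' : ℝ → Matrix ι (Fin m) ℂ
  hψ : ∀ x, HasDerivAt ψ (ψ' x) x
  hψ' : Continuous ψ'
  hs : ∀ x, x ∉ Set.Ioo a b → ψ x = 0
  hs' : ∀ x, x ∉ Set.Ioo a b → ψ' x = 0
  M : ℝ → Matrix ι ι ℂ
  hM : ∀ x, HasDerivAt M (dg κ * dg κ - M x * M x - pot β (ψ x)) x
  up : ∀ x, (dg κ - M x).PosSemidef
  lo : ∀ x, (dg κ + M x).PosSemidef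
  Ma : ∀ x, x ≤ a → M x = dg κ
  Mb : ∀ x, b ≤ x → M x = -dg κ

attribute [instance] Approx.fin Approx.dec

namespace Approx
variable {m : ℕ} {β : ℝ} (A : Approx m β)

noncomputable def rho (x : ℝ) : Matrix (Fin m) (Fin m) ℂ := (A.ψ x)ᴴ * A.ψ x
noncomputable def V (x : ℝ) : Matrix A.ι A.ι ℂ := pot β (A.ψ x)
noncomputable def K2 : Matrix A.ι A.ι ℂ := dg A.κ * dg A.κ
noncomputable def q (x : ℝ) : ℝ := qd β A.κ (A.M x) (A.V x)
noncomputable def sq (x : ℝ) : ℝ := ‖A.ψ' x - A.M x * A.ψ x‖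
noncomputable def J : ℝ := ∫ x, tp (A.rho x) (1 + 1 / β)
noncomputable def DB : ℝ := Lc β * A.J - ∑ i, A.κ i ^ (1 + 2 * β)
noncomputable def Dsq : ℝ := ∫ x, A.sq x ^ 2
noncomputable def DY (W : ℝ → Matrix (Fin m) (Fin m) ℂ) : ℝ := ∫ x, dY β (W x) (A.rho x)

end Approx

/-- the standing hypotheses on the potential -/
structure Pot {m : ℕ} (β : ℝ) (W : ℝ → Matrix (Fin m) (Fin m) ℂ) : Prop where
  meas : ∀ i j, Measurable fun x => W x i j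
  psd : ∀ x, (W x).PosSemidef
  int : Integrable fun x => tp (W x) (1 + β)

/-- a sequence of paths whose deficits tend to zero pointwise on `S`, with domination -/
structure Good {m : ℕ} {β : ℝ} (W : ℝ → Matrix (Fin m) (Fin m) ℂ) (A : ℕ → Approx m β)
    (κb : ℝ) (D : ℝ → ℝ) (S : Set ℝ) : Prop where
  hκ : ∀ j i, (A j).κ i ≤ κb
  hD : Integrable D
  hS : ∀ᵐ x, x ∈ S
  q : ∀ x ∈ S, Tendsto (fun j => (A j).q x) atTop (𝓝 0)
  rho : ∀ x ∈ S, Tendsto (fun j => (A j).rho x) atTop (𝓝 (pw (W x) β))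
  sq : ∀ x ∈ S, Tendsto (fun j => (A j).sq x) atTop (𝓝 0)
  dom : ∀ x ∈ S, ∀ j, tp ((A j).rho x) (1 + 1 / β) ≤ D x
  dom' : ∀ x ∈ S, ∀ j, (A j).sq x ^ 2 ≤ D x

lemma Good.subseq {m : ℕ} {β : ℝ} {W : ℝ → Matrix (Fin m) (Fin m) ℂ} {A : ℕ → Approx m β}
    {κb : ℝ} {D : ℝ → ℝ} {S : Set ℝ} (h : Good W A κb D S) {s : ℕ → ℕ} (hs : StrictMono s) :
    Good W (fun j => A (s j)) κb D S :=
  ⟨fun j => h.hκ (s j), h.hD, h.hS, fun x hx => (h.q x hx).comp hs.tendsto_atTop,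
    fun x hx => (h.rho x hx).comp hs.tendsto_atTop, fun x hx => (h.sq x hx).comp hs.tendsto_atTop,
    fun x hx j => h.dom x hx (s j), fun x hx j => h.dom' x hx (s j)⟩

end Crest.Agent.R332
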