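import Crest.Agent.R332.Defs

/-! Row 332, task Det: log-determinants, order/norm lemmas, derivatives of inverse and det.

`ld_mul_le`: with `A = S S`, `S = pw A (1/2)`, diagonalise `S B S` (eigenvalues `x_i > 0`) and use
`log x ≤ x - 1`.  `congr_diag`: `S = pw H (1/2)`, diagonalise `S⁻¹ B S⁻¹ = V β Vᴴ`, `Q = S V`.
`norm_mul_le_of_bound`: diagonalise `X`, `‖XY‖² = rt (Yᴴ X² Y)`.
`hasDerivAt_det`: `det (X s) = det (X t) * det (1 + (X t)⁻¹ (X s - X t))`; `det` is differentiable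
(polynomial / multilinear) and its derivative at `1` is the trace (`Matrix.det_one_add_smul`). -/

set_option autoImplicit false
set_option linter.unusedSectionVars false

open Matrix Filter Topology MeasureTheory
open scoped ComplexOrder Matrix.Norms.Frobenius

namespace Crest.Agent.R332

variable {n k : Type*} [Fintype n] [DecidableEq n] [Fintype k] [DecidableEq k]

lemma det_re_pos {A : Matrix n n ℂ} (hA : A.PosDef) : 0 < A.det.re :=
  (Complex.lt_def.mp hA.det_pos).1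

lemma det_eq_re {A : Matrix n n ℂ} (hA : A.IsHermitian) : A.det = (A.det.re : ℂ) := by
  obtain ⟨U, d, h⟩ := exists_diag hA
  rw [h.det, Complex.ofReal_re]

lemma Diag.ld {A U : Matrix n n ℂ} {d : n → ℝ} (h : Diag A U d) (hd : ∀ i, 0 < d i) :
    ld A = ∑ i, Real.log (d i) := by
  rw [R332.ld, h.det, Complex.ofReal_re, Real.log_prod fun i _ => (hd i).ne']

lemma Diag.inv {A U : Matrix n n ℂ} {d : n → ℝ} (h : Diag A U d) (hd : ∀ i, d i ≠ 0) :
    Diag A⁻¹ U fun i => (d i)⁻¹ := by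
  have h1 := (h.mul (Diag.of h.uu fun i => (d i)⁻¹)).ext (Diag.one h.uu)
    fun i => mul_inv_cancel₀ (hd i)
  rw [inv_eq_right_inv h1]
  exact Diag.of h.uu _

lemma ld_inv {A : Matrix n n ℂ} (hA : A.PosDef) : ld A⁻¹ = -ld A := by
  obtain ⟨U, d, h⟩ := exists_diag hA.1
  have hd := h.pos hA
  rw [(h.inv fun i => (hd i).ne').ld fun i => inv_pos.mpr (hd i), h.ld hd]
  simp

lemma ld_smul {A : Matrix n n ℂ} (hA : A.PosDef) {c : ℝ} (hc : 0 < c) :
    ld (c • A) = Fintype.card n * Real.log c + ld A := by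
  obtain ⟨U, d, h⟩ := exists_diag hA.1
  have hd := h.pos hA
  rw [(h.smul c).ld fun i => mul_pos hc (hd i), h.ld hd]
  simp [Real.log_mul hc.ne' (hd _).ne', Finset.sum_add_distrib]

namespace DetA

lemma exists_sqrt {A : Matrix n n ℂ} (hA : A.PosDef) :
    ∃ S : Matrix n n ℂ, S.PosDef ∧ S * S = A := by
  obtain ⟨U, d, h⟩ := exists_diag hA.1
  have hd := h.pos hA
  have h1 := Diag.of h.uu fun i => Real.sqrt (d i)
  exact ⟨_, h1.posDef fun i => Real.sqrt_pos.mpr (hd i),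
    (h1.mul h1).ext h fun i => Real.mul_self_sqrt (hd i).le⟩

lemma unit_det {A : Matrix n n ℂ} (h : A.PosDef) : IsUnit A.det :=
  isUnit_iff_ne_zero.mpr h.det_pos.ne'

lemma conj_posDef {S B : Matrix n n ℂ} (hS : S.PosDef) (hB : B.PosDef) : (S * B * S).PosDef := by
  have := hB.conjTranspose_mul_mul_same (B := S) (mulVec_injective_of_isUnit hS.isUnit)
  rwa [hS.1.eq] at this

lemma ld_le {A : Matrix n n ℂ} (hA : A.PosDef) : ld A ≤ rt A - Fintype.card n := by
  obtain ⟨U, d, h⟩ := exists_diag hA.1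
  have hd := h.pos hA
  rw [h.ld hd, h.rt, Fintype.card, Finset.card_eq_sum_ones, Nat.cast_sum,
    ← Finset.sum_sub_distrib]
  exact Finset.sum_le_sum fun i _ => by simpa using Real.log_le_sub_one_of_pos (hd i)

lemma Diag.le_of {X U : Matrix n n ℂ} {d : n → ℝ} (h : Diag X U d) {c : ℝ}
    (h1 : (c • (1 : Matrix n n ℂ) - X).PosSemidef) (i : n) : d i ≤ c := by
  have := (((Diag.one h.uu).smul c).sub h).nonneg h1 i
  linarith

lemma Diag.ge_of {X U : Matrix n n ℂ} {d : n → ℝ} (h : Diag X U d) {c : ℝ}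
    (h1 : (c • (1 : Matrix n n ℂ) + X).PosSemidef) (i : n) : -c ≤ d i := by
  have := (((Diag.one h.uu).smul c).add h).nonneg h1 i
  linarith

lemma herm_of_bound {X : Matrix n n ℂ} {c : ℝ} (h1 : (c • (1 : Matrix n n ℂ) - X).PosSemidef) :
    X.IsHermitian := by
  have h2 : (c • (1 : Matrix n n ℂ)).IsHermitian := by rw [← dg_const]; exact dg_herm _
  simpa using h2.sub h1.1

end DetA
open DetA

/-- `log det A + log det B ≤ tr(AB) - N` -/
lemma ld_mul_le {A B : Matrix n n ℂ} (hA : A.PosDef) (hB : B.PosDef) :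
    ld A + ld B ≤ rt (A * B) - Fintype.card n := by
  obtain ⟨S, hS, rfl⟩ := exists_sqrt hA
  have h := ld_le (conj_posDef hS hB)
  have e1 : rt (S * B * S) = rt (S * S * B) := by rw [rt_mul_comm, Matrix.mul_assoc]
  have e2 : ld (S * B * S) = ld (S * S) + ld B := by
    have : (S * B * S).det = ((S * S).det.re * B.det.re : ℝ) := by
      push_cast
      rw [← det_eq_re hA.1, ← det_eq_re hB.1, det_mul, det_mul, det_mul]; ring
    rw [ld, this, Complex.ofReal_re, Real.log_mul (det_re_pos hA).ne' (det_re_pos hB).ne']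
    rfl
  linarith

lemma ld_mono {P Q : Matrix n n ℂ} (hP : P.PosDef) (hQ : Q.PosSemidef) : ld P ≤ ld (P + Q) := by
  have hPQ := hP.add_posSemidef hQ
  have h := ld_mul_le hPQ.inv hP
  have e : (P + Q)⁻¹ * P = 1 - (P + Q)⁻¹ * Q := by
    rw [← nonsing_inv_mul _ (unit_det hPQ), Matrix.mul_add]; abel
  rw [ld_inv hPQ, e, rt_sub, rt_one] at h
  have := rt_mul_nonneg hPQ.inv.posSemidef hQ
  linarith

/-- simultaneous diagonalisation by congruence -/
lemma congr_diag {H B : Matrix n n ℂ} (hH : H.PosDef) (hB : B.IsHermitian) :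
    ∃ (Q : Matrix n n ℂ) (b : n → ℝ), IsUnit Q.det ∧ H = Q * Qᴴ ∧ B = Q * dg b * Qᴴ := by
  obtain ⟨S, hS, rfl⟩ := exists_sqrt hH
  have hu := unit_det hS
  have hh : (S⁻¹ * B * S⁻¹).IsHermitian := by
    have := isHermitian_conjTranspose_mul_mul S⁻¹ hB
    rwa [hS.inv.1.eq] at this
  obtain ⟨V, b, h⟩ := exists_diag hh
  refine ⟨S * V, b, ?_, ?_, ?_⟩
  · rw [det_mul]
    exact hu.mul (isUnit_det_of_left_inverse h.uu)
  · rw [conjTranspose_mul, hS.1.eq, Matrix.mul_assoc, ← Matrix.mul_assoc V, h.uu', Matrix.one_mul]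
  · rw [conjTranspose_mul, hS.1.eq]
    calc B = S * (S⁻¹ * B * S⁻¹) * S := by
          rw [Matrix.mul_assoc, Matrix.mul_assoc, nonsing_inv_mul _ hu, Matrix.mul_one,
            ← Matrix.mul_assoc, mul_nonsing_inv _ hu, Matrix.one_mul]
      _ = _ := by rw [h.eq]; simp only [Matrix.mul_assoc]

/-- `-c ≤ M ≤ c` gives `M² ≤ c²` -/
lemma sq_le_of_bound {X : Matrix n n ℂ} {c : ℝ}
    (h1 : (c • (1 : Matrix n n ℂ) - X).PosSemidef) (h2 : (c • (1 : Matrix n n ℂ) + X).PosSemidef) :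
    (c ^ 2 • (1 : Matrix n n ℂ) - X * X).PosSemidef := by
  obtain ⟨U, d, h⟩ := exists_diag (herm_of_bound h1)
  refine (((Diag.one h.uu).smul (c ^ 2)).sub (h.mul h)).psd fun i => ?_
  have := Diag.le_of h h1 i
  have := Diag.ge_of h h2 i
  nlinarith

/-- `-c ≤ X ≤ c` gives `‖X Y‖ ≤ c ‖Y‖` -/
lemma norm_mul_le_of_bound {X : Matrix n n ℂ} {c : ℝ}
    (h1 : (c • (1 : Matrix n n ℂ) - X).PosSemidef) (h2 : (c • (1 : Matrix n n ℂ) + X).PosSemidef)
    (hc : 0 ≤ c) (Y : Matrix n k ℂ) : ‖X * Y‖ ≤ c * ‖Y‖ := by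
  refine le_of_sq_le_sq ?_ (by positivity) |>.trans le_rfl
  have h := rt_mul_mono (posSemidef_self_mul_conjTranspose Y) (sq_le_of_bound h1 h2)
  rw [Matrix.mul_smul, Matrix.mul_one, rt_smul, ← norm_sq_eq_rt'] at h
  rw [mul_pow, norm_sq_eq_rt, conjTranspose_mul, (herm_of_bound h1).eq]
  calc rt (Yᴴ * X * (X * Y)) = rt (Yᴴ * (X * X) * Y) := by simp only [Matrix.mul_assoc]
    _ = rt (Y * Yᴴ * (X * X)) := by rw [rt_mul_comm, Matrix.mul_assoc]
    _ ≤ _ := h

lemma norm_mul_le_of_bound' {X : Matrix n n ℂ} {c : ℝ}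
    (h1 : (c • (1 : Matrix n n ℂ) - X).PosSemidef) (h2 : (c • (1 : Matrix n n ℂ) + X).PosSemidef)
    (hc : 0 ≤ c) (Y : Matrix k n ℂ) : ‖Y * X‖ ≤ c * ‖Y‖ := by
  have := norm_mul_le_of_bound h1 h2 hc Yᴴ
  rwa [← (herm_of_bound h1).eq, ← conjTranspose_mul, frobenius_norm_conjTranspose,
    frobenius_norm_conjTranspose] at this

/-- `-K ≤ M ≤ K`, `K ≤ c` gives `-c ≤ M ≤ c` -/
lemma bound_of_up {κ : n → ℝ} {c : ℝ} (hc : ∀ i, κ i ≤ c) {M : Matrix n n ℂ}
    (h : (dg κ - M).PosSemidef) : (c • (1 : Matrix n n ℂ) - M).PosSemidef := by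
  have e : c • (1 : Matrix n n ℂ) - M = (dg (fun _ => c) - dg κ) + (dg κ - M) := by
    rw [dg_const]; abel
  rw [e, dg_sub]
  exact (dg_psd fun i => by linarith [hc i]).add h

lemma bound_of_lo {κ : n → ℝ} {c : ℝ} (hc : ∀ i, κ i ≤ c) {M : Matrix n n ℂ}
    (h : (dg κ + M).PosSemidef) : (c • (1 : Matrix n n ℂ) + M).PosSemidef := by
  have := bound_of_up hc (M := -M) (by rwa [sub_neg_eq_add])
  rwa [sub_neg_eq_add] at this

lemma herm_of_up {κ : n → ℝ} {M : Matrix n n ℂ} (h : (dg κ - M).PosSemidef) : M.IsHermitian := by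
  simpa using (dg_herm κ).sub h.1

/-- a positive semidefinite matrix is bounded by its trace -/
lemma psd_le_rt {V : Matrix n n ℂ} (hV : V.PosSemidef) :
    (rt V • (1 : Matrix n n ℂ) - V).PosSemidef := by
  obtain ⟨U, d, h⟩ := exists_diag hV.1
  refine (((Diag.one h.uu).smul (rt V)).sub h).psd fun i => ?_
  rw [h.rt]
  have := Finset.single_le_sum (f := d) (fun j _ => h.nonneg hV j) (Finset.mem_univ i)
  linarith

lemma norm_le_rt {V : Matrix n n ℂ} (hV : V.PosSemidef) : ‖V‖ ≤ rt V := by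
  refine le_of_sq_le_sq ?_ (rt_nonneg hV) |>.trans le_rfl
  have h := rt_mul_mono hV (psd_le_rt hV)
  rw [Matrix.mul_smul, Matrix.mul_one, rt_smul] at h
  rw [norm_sq_eq_rt, hV.1.eq, sq]
  exact h

/-- `0 < P ≤ σ` gives `P⁻¹ ≥ 1/σ` -/
lemma inv_ge_of_le {P : Matrix n n ℂ} (hP : P.PosDef) {σ : ℝ} (hσ : 0 < σ)
    (h : (σ • (1 : Matrix n n ℂ) - P).PosSemidef) :
    (P⁻¹ - σ⁻¹ • (1 : Matrix n n ℂ)).PosSemidef := by
  obtain ⟨U, d, hd⟩ := exists_diag hP.1
  have hp := hd.pos hP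
  refine ((hd.inv fun i => (hp i).ne').sub ((Diag.one hd.uu).smul σ⁻¹)).psd fun i => ?_
  have := inv_anti₀ (hp i) (Diag.le_of hd h i)
  linarith

/-- `P ≥ b > 0` gives `P⁻¹ ≤ 1/b` -/
lemma inv_le_of_ge {P : Matrix n n ℂ} {b : ℝ} (hb : 0 < b)
    (h : (P - b • (1 : Matrix n n ℂ)).PosSemidef) :
    P.PosDef ∧ (b⁻¹ • (1 : Matrix n n ℂ) - P⁻¹).PosSemidef := by
  have hP : P.PosDef := by
    have := PosDef.posSemidef_add h (PosDef.one.smul hb)
    simpa using this
  obtain ⟨U, d, hd⟩ := exists_diag hP.1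
  have hp := hd.pos hP
  refine ⟨hP, (((Diag.one hd.uu).smul b⁻¹).sub (hd.inv fun i => (hp i).ne')).psd fun i => ?_⟩
  have h1 := (hd.sub ((Diag.one hd.uu).smul b)).nonneg h i
  have := inv_anti₀ hb (show b ≤ d i by linarith)
  linarith

lemma HasDerivAt.rt {X : ℝ → Matrix n n ℂ} {X' : Matrix n n ℂ} {t : ℝ} (h : HasDerivAt X X' t) :
    HasDerivAt (fun s => rt (X s)) (rt X') t :=
  (rtL (n := n)).hasFDerivAt.comp_hasDerivAt t h

namespace DetA

lemma hasDerivAt_entry {X : ℝ → Matrix n k ℂ} {X' : Matrix n k ℂ} {t : ℝ} :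
    HasDerivAt X X' t ↔ ∀ i j, HasDerivAt (fun s => X s i j) (X' i j) t := by
  constructor
  · intro h i j
    exact hasDerivAt_pi.mp (hasDerivAt_pi.mp h i) j
  · intro h
    exact hasDerivAt_pi.mpr fun i => hasDerivAt_pi.mpr fun j => h i j

end DetA

lemma HasDerivAt.mmul {l : Type*} [Fintype l] [DecidableEq l] {X : ℝ → Matrix n k ℂ}
    {Y : ℝ → Matrix k l ℂ} {X' : Matrix n k ℂ} {Y' : Matrix k l ℂ} {t : ℝ}
    (h : HasDerivAt X X' t) (h' : HasDerivAt Y Y' t) :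
    HasDerivAt (fun s => X s * Y s) (X' * Y t + X t * Y') t := by
  rw [hasDerivAt_entry] at h h' ⊢
  intro i j
  simp only [Matrix.mul_apply, Matrix.add_apply, ← Finset.sum_add_distrib]
  exact HasDerivAt.fun_sum fun a _ => (h i a).mul (h' a j)

lemma HasDerivAt.conjT {X : ℝ → Matrix n k ℂ} {X' : Matrix n k ℂ} {t : ℝ}
    (h : HasDerivAt X X' t) : HasDerivAt (fun s => (X s)ᴴ) X'ᴴ t := by
  rw [hasDerivAt_entry] at h ⊢
  intro i j
  exact (h j i).star

lemma hasDerivAt_inv {X : ℝ → Matrix n n ℂ} {X' : Matrix n n ℂ} {t : ℝ} (h : HasDerivAt X X' t)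
    (hu : IsUnit (X t).det) :
    HasDerivAt (fun s => (X s)⁻¹) (-((X t)⁻¹ * X' * (X t)⁻¹)) t := by
  obtain ⟨u, hu'⟩ := (isUnit_iff_isUnit_det _).mpr hu
  have h1 : HasFDerivAt Ring.inverse (-ContinuousLinearMap.mulLeftRight ℝ (Matrix n n ℂ) ↑u⁻¹ ↑u⁻¹)
      (X t) := hu' ▸ hasFDerivAt_ringInverse u
  have h2 := h1.comp_hasDerivAt t h
  have e : ((u⁻¹ : (Matrix n n ℂ)ˣ) : Matrix n n ℂ) = (X t)⁻¹ := by rw [← hu', coe_units_inv]
  simp only [nonsing_inv_eq_ringInverse]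
  refine HasDerivAt.congr_deriv h2 ?_
  simp [e, nonsing_inv_eq_ringInverse]

namespace DetA

lemma hasDerivAt_det_one {Y : ℝ → Matrix n n ℂ} {Y' : Matrix n n ℂ} {t : ℝ}
    (h : HasDerivAt Y Y' t) (h1 : Y t = 1) : HasDerivAt (fun s => (Y s).det) Y'.trace t := by
  rw [hasDerivAt_entry] at h
  simp only [det_apply]
  have h2 : ∀ σ : Equiv.Perm n, HasDerivAt (fun s => Equiv.Perm.sign σ • ∏ i, Y s (σ i) i)
      (Equiv.Perm.sign σ • ∑ i, (∏ j ∈ Finset.univ.erase i, Y t (σ j) j) • Y' (σ i) i) t :=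
    fun σ => (HasDerivAt.fun_finsetProd fun i _ => h (σ i) i).const_smul _
  refine (HasDerivAt.fun_sum fun σ _ => h2 σ).congr_deriv ?_
  rw [Finset.sum_eq_single 1]
  · simp [h1, trace]
  · intro σ _ hσ
    rw [Finset.sum_eq_zero, smul_zero]
    intro i _
    obtain ⟨j, hj, hji⟩ : ∃ j, σ j ≠ j ∧ j ≠ i := by
      by_contra hc
      push Not at hc
      apply hσ
      ext j
      by_contra hj
      have hj' : σ j ≠ j := by simpa using hj
      have e1 := hc j hj'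
      have e2 := hc (σ j) fun e => hj' (σ.injective e)
      exact hj' (e2.trans e1.symm)
    rw [Finset.prod_eq_zero (i := j) (by simp [hji]) (by simp [h1, hj]), zero_smul]
  · simp

end DetA

lemma hasDerivAt_det {X : ℝ → Matrix n n ℂ} {X' : Matrix n n ℂ} {t : ℝ} (h : HasDerivAt X X' t)
    (hu : IsUnit (X t).det) :
    HasDerivAt (fun s => (X s).det) ((X t).det * ((X t)⁻¹ * X').trace) t := by
  have h1 := hasDerivAt_det_one (HasDerivAt.mmul (hasDerivAt_const t (X t)⁻¹) h)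
    (nonsing_inv_mul _ hu)
  have h2 := h1.const_mul (X t).det
  simp only [← det_mul, ← Matrix.mul_assoc, mul_nonsing_inv _ hu, Matrix.one_mul, Matrix.zero_mul,
    zero_add] at h2
  exact h2

lemma hasDerivAt_ld {X : ℝ → Matrix n n ℂ} {X' : Matrix n n ℂ} {t : ℝ} (h : HasDerivAt X X' t)
    (hp : (X t).PosDef) : HasDerivAt (fun s => ld (X s)) (rt ((X t)⁻¹ * X')) t := by
  have h1 := Complex.reCLM.hasFDerivAt.comp_hasDerivAt t (hasDerivAt_det h (unit_det hp))
  have h0 := det_re_pos hp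
  refine (HasDerivAt.log h1 h0.ne').congr_deriv ?_
  simp only [Complex.reCLM_apply, Function.comp]
  rw [det_eq_re hp.1, Complex.re_ofReal_mul, Complex.ofReal_re, rt]
  field_simp

/-- continuity of the inverse along a continuous family of invertible matrices -/
lemma ContinuousOn.minv {Z : Type*} [TopologicalSpace Z] {X : Z → Matrix n n ℂ} {s : Set Z}
    (h : ContinuousOn X s) (hu : ∀ z ∈ s, IsUnit (X z).det) :
    ContinuousOn (fun z => (X z)⁻¹) s := by
  intro z hz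
  refine (continuousAt_matrix_inv (X z) ?_).comp_continuousWithinAt (h z hz)
  rw [Ring.inverse_eq_inv']
  exact continuousAt_inv₀ (hu z hz).ne_zero

lemma ContinuousOn.ld {Z : Type*} [TopologicalSpace Z] {X : Z → Matrix n n ℂ} {s : Set Z}
    (h : ContinuousOn X s) (hp : ∀ z ∈ s, (X z).PosDef) : ContinuousOn (fun z => ld (X z)) s :=
  ContinuousOn.log ((Complex.continuous_re.comp (continuous_id.matrix_det)).comp_continuousOn h)
    fun z hz => (det_re_pos (hp z hz)).ne'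

end Crest.Agent.R332
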