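import Crest.Agent.R332.Joint

/-! Row 332, task Prop: propagation of an approximate joint eigenvector.
`r = 1/β`, `μ x = -a tanh(r a (x - c))`, `μ' = -r(a² - μ²)`, `(1+r)(a² - μ²) = soliton`,
`χ x = (cosh(r a (x₀-c)) / cosh(r a (x-c)))^β > 0`, `χ' = μ χ`, `χ x₀ = 1`.
`ξ j x = (M x - μ x) y j` has `ξ' = r (M + μ) ξ - r (K² - a²) y - Δ y`, `Δ = V - (1+r)(K² - M²)`,
(`M' = -r(K² - M²) - Δ`).  `‖Δ x y‖ → 0` on `S` (`q → 0`, `rt V = tp ρ r` converges) and is
dominated by `(rt V + 2(1+r)κb²)‖y‖ ≤ C (1 + D x)` (`psd_le_rt`, `tp_le_card_add`); dominated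
convergence and `gronwall_L1` give `sup_{[x₀,x]} ‖ξ j‖ → 0`.  `f j = ψᴴ y` has
`f' = μ f + ψᴴ ξ + (ψ' - Mψ)ᴴ y`, `‖ψ‖² = rt ρ ≤ m + D`, so `f j x → χ x • f₀`.  Finally
`ρ^r f = ψᴴ V y = ψᴴ Δ y + (1+r) ψᴴ [(K² - a²) y + (a² - μ²) y - (M + μ) ξ]` at `x ∈ S`
(`pot_mul` conjugated) and `ρ^r → W x` (`tendsto_pw`, `pw_pw`, `pw_one`). -/

set_option autoImplicit false
set_option linter.unusedSectionVars false

open Matrix Filter Topology MeasureTheory
open scoped ComplexOrder Matrix.Norms.Frobenius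

namespace Crest.Agent.R332

open Crest.MathPhysics.LiebThirring

namespace PropA

lemma gron_fwd {E : Type*} [NormedAddCommGroup E] [NormedSpace ℝ E] [CompleteSpace E]
    {ξ ξ' g : ℝ → E} {C : ℝ} (hC : 0 ≤ C) (hd : ∀ x, HasDerivAt ξ (ξ' x) x) (hg : Continuous g)
    (hb : ∀ x, ‖ξ' x - g x‖ ≤ C * ‖ξ x‖) {x₀ x : ℝ} (hx : x₀ ≤ x) :
    ‖ξ x‖ ≤ (‖ξ x₀‖ + ∫ t in x₀..x, ‖g t‖) * Real.exp (C * (x - x₀)) := by
  set I := ∫ t in x₀..x, ‖g t‖
  have hG : ∀ t ∈ Set.Icc x₀ x, ‖∫ s in x₀..t, g s‖ ≤ I := fun t ht =>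
    (intervalIntegral.norm_integral_le_integral_norm ht.1).trans
      (intervalIntegral.integral_mono_interval le_rfl ht.1 ht.2
        (Eventually.of_forall fun _ => norm_nonneg _) (hg.norm.intervalIntegrable _ _))
  have hη : ∀ t, HasDerivAt (fun t => ξ t - ∫ s in x₀..t, g s) (ξ' t - g t) t := fun t =>
    (hd t).sub (hg.integral_hasStrictDerivAt x₀ t).hasDerivAt
  have h1 : ∀ t ∈ Set.Icc x₀ x, ‖ξ t‖ ≤ ‖ξ t - ∫ s in x₀..t, g s‖ + I := fun t ht => by
    have := norm_add_le (ξ t - ∫ s in x₀..t, g s) (∫ s in x₀..t, g s)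
    rw [sub_add_cancel] at this
    linarith [hG t ht]
  have h := norm_le_gronwallBound_of_norm_deriv_right_le (δ := ‖ξ x₀‖) (K := C) (ε := C * I)
    (fun t _ => (hη t).continuousAt.continuousWithinAt) (fun t _ => (hη t).hasDerivWithinAt)
    (by simp) (fun t ht => (hb t).trans (by
      rw [← mul_add]
      exact mul_le_mul_of_nonneg_left (h1 t (Set.Ico_subset_Icc_self ht)) hC)) x ⟨hx, le_rfl⟩
  refine (h1 x ⟨hx, le_rfl⟩).trans ?_
  rcases hC.eq_or_lt with rfl | hC'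
  · simp only [gronwallBound_K0, zero_mul, add_zero, Real.exp_zero, mul_one] at h ⊢
    linarith
  · rw [gronwallBound_of_K_ne_0 hC'.ne', mul_div_cancel_left₀ _ hC'.ne'] at h
    dsimp only at h
    linarith

end PropA

open PropA

theorem gronwall_L1 {E : Type*} [NormedAddCommGroup E] [NormedSpace ℝ E] [CompleteSpace E]
    {ξ ξ' g : ℝ → E} {C : ℝ} (hC : 0 ≤ C) (hd : ∀ x, HasDerivAt ξ (ξ' x) x) (hg : Continuous g)
    (hb : ∀ x, ‖ξ' x - g x‖ ≤ C * ‖ξ x‖) (x₀ x : ℝ) :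
    ‖ξ x‖ ≤ (‖ξ x₀‖ + ∫ t in Set.uIoc x₀ x, ‖g t‖) * Real.exp (C * |x - x₀|) := by
  rcases le_total x₀ x with hx | hx
  · rw [Set.uIoc_of_le hx, abs_of_nonneg (sub_nonneg.2 hx), ← intervalIntegral.integral_of_le hx]
    exact gron_fwd hC hd hg hb hx
  · have h := gron_fwd (ξ := fun t => ξ (-t)) (ξ' := fun t => -ξ' (-t)) (g := fun t => -g (-t)) hC
      (fun t => ((hd (-t)).scomp t (hasDerivAt_neg t)).congr_deriv (neg_one_smul _ _)) (by fun_prop)
      (fun t => by rw [neg_sub_neg, norm_sub_rev]; exact hb _) (neg_le_neg hx)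
    simp only [neg_neg, norm_neg] at h
    rw [intervalIntegral.integral_comp_neg (fun t => ‖g t‖), neg_neg, neg_neg] at h
    rw [Set.uIoc_of_ge hx, abs_of_nonpos (sub_nonpos.2 hx), ← intervalIntegral.integral_of_le hx]
    convert h using 3
    ring

namespace PropA

lemma gron_tendsto {E : ℕ → Type*} [∀ j, NormedAddCommGroup (E j)] [∀ j, NormedSpace ℝ (E j)]
    [∀ j, CompleteSpace (E j)] {ξ ξ' g : ∀ j, ℝ → E j} {C : ℝ} (hC : 0 ≤ C)
    (hd : ∀ j x, HasDerivAt (ξ j) (ξ' j x) x) (hg : ∀ j, Continuous (g j))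
    (hb : ∀ j x, ‖ξ' j x - g j x‖ ≤ C * ‖ξ j x‖) {x₀ : ℝ}
    (h0 : Tendsto (fun j => ‖ξ j x₀‖) atTop (𝓝 0)) {D : ℝ → ℝ} (hD : Integrable D) {S : Set ℝ}
    (hS : ∀ᵐ x, x ∈ S) (c₀ c₁ : ℝ) (hdom : ∀ x ∈ S, ∀ j, ‖g j x‖ ≤ c₀ + c₁ * D x)
    (hlim : ∀ x ∈ S, Tendsto (fun j => ‖g j x‖) atTop (𝓝 0)) (x : ℝ) :
    Tendsto (fun j => ‖ξ j x‖) atTop (𝓝 0) := by
  have hi : IntegrableOn (fun t => c₀ + c₁ * D t) (Set.uIoc x₀ x) :=
    intervalIntegrable_iff.1 (intervalIntegrable_const.add (hD.const_mul c₁).intervalIntegrable)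
  have h := tendsto_integral_of_dominated_convergence (F := fun j t => ‖g j t‖) (f := fun _ => 0) _
    (fun j => (hg j).norm.aestronglyMeasurable) hi
    (fun j => ae_restrict_of_ae (hS.mono fun t ht => by rw [norm_norm]; exact hdom t ht j))
    (ae_restrict_of_ae (hS.mono hlim))
  have h2 := (h0.add h).mul_const (Real.exp (C * |x - x₀|))
  simp only [integral_zero, add_zero, zero_mul] at h2
  exact squeeze_zero (fun _ => norm_nonneg _) (fun j => gronwall_L1 hC (hd j) (hg j) (hb j) x₀ x) h2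

/-- the soliton eigenvalue -/
noncomputable def mu (r a c x : ℝ) : ℝ := -a * Real.tanh (r * a * (x - c))

lemma one_sub_tanh (t : ℝ) : 1 - Real.tanh t ^ 2 = 1 / Real.cosh t ^ 2 := by
  have := (Real.cosh_pos t).ne'
  rw [Real.tanh_eq_sinh_div_cosh]
  field_simp
  exact Real.cosh_sq_sub_sinh_sq t

lemma hasDerivAt_tanh (t : ℝ) : HasDerivAt Real.tanh (1 - Real.tanh t ^ 2) t := by
  have h := (Real.hasDerivAt_sinh t).div (Real.hasDerivAt_cosh t) (Real.cosh_pos t).ne'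
  rw [show Real.tanh = Real.sinh / Real.cosh from funext Real.tanh_eq_sinh_div_cosh]
  refine h.congr_deriv ?_
  rw [Pi.div_apply, ← Real.tanh_eq_sinh_div_cosh, one_sub_tanh, ← sq, ← sq,
    Real.cosh_sq_sub_sinh_sq]

lemma hasDerivAt_mu (r a c x : ℝ) : HasDerivAt (mu r a c) (-(r * (a ^ 2 - mu r a c x ^ 2))) x := by
  have h := ((hasDerivAt_tanh (r * a * (x - c))).comp x
    (((hasDerivAt_id x).sub_const c).const_mul (r * a))).const_mul (-a)
  refine h.congr_deriv ?_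
  rw [mu]
  ring

lemma abs_mu_le (r : ℝ) {a : ℝ} (ha : 0 < a) (c x : ℝ) : |mu r a c x| ≤ a := by
  rw [mu, abs_mul, abs_neg, abs_of_pos ha]
  exact mul_le_of_le_one_right ha.le (Real.abs_tanh_lt_one _).le

lemma soliton_eq (r a c x : ℝ) : soliton r a c x = (1 + r) * (a ^ 2 - mu r a c x ^ 2) := by
  have := one_sub_tanh (r * a * (x - c))
  rw [soliton, mu, div_eq_mul_one_div, ← this]
  ring

variable {m : ℕ} {β : ℝ}

/-- the defect in the calibration identity -/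
noncomputable def De (A : Approx m β) (x : ℝ) : Matrix A.ι A.ι ℂ :=
  A.V x - (1 + 1 / β) • (A.K2 - A.M x * A.M x)

lemma nM (A : Approx m β) {κb : ℝ} (hκb : 0 ≤ κb) (h : ∀ i, A.κ i ≤ κb) (x : ℝ)
    (y : Matrix A.ι Unit ℂ) : ‖A.M x * y‖ ≤ κb * ‖y‖ :=
  norm_mul_le_of_bound (bound_of_up h (A.up x)) (bound_of_lo h (A.lo x)) hκb y

lemma nK (A : Approx m β) {κb : ℝ} (hκb : 0 ≤ κb) (h : ∀ i, A.κ i ≤ κb)
    (y : Matrix A.ι Unit ℂ) : ‖A.K2 * y‖ ≤ κb ^ 2 * ‖y‖ := by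
  have h1 : ∀ z : Matrix A.ι Unit ℂ, ‖dg A.κ * z‖ ≤ κb * ‖z‖ := fun z =>
    norm_mul_le_of_bound (bound_of_up h (by rw [sub_self]; exact PosSemidef.zero))
      (bound_of_lo h ((dg_psd A.κ0).add (dg_psd A.κ0))) hκb z
  rw [Approx.K2, Matrix.mul_assoc, sq, mul_assoc]
  exact (h1 _).trans (mul_le_mul_of_nonneg_left (h1 _) hκb)

lemma nMmu (A : Approx m β) {κb : ℝ} (hκb : 0 ≤ κb) (h : ∀ i, A.κ i ≤ κb) (x : ℝ) {μ a : ℝ}
    (hμ : |μ| ≤ a) (y : Matrix A.ι Unit ℂ) : ‖A.M x * y + μ • y‖ ≤ (κb + a) * ‖y‖ := by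
  refine (norm_add_le _ _).trans ?_
  rw [add_mul, norm_smul]
  exact add_le_add (nM A hκb h x y) (mul_le_mul_of_nonneg_right hμ (norm_nonneg _))

lemma rtV_le (h0 : 0 < β) (h1 : β < 1) (A : Approx m β) (x : ℝ) :
    rt (A.V x) ≤ m + tp (A.rho x) (1 + 1 / β) := by
  have := tp_le_card_add (A.rho_psd x) (s := 1 / β) (t := 1 + 1 / β) (by positivity) (by linarith)
  rw [Fintype.card_fin] at this
  exact (rt_pot h0 h1 _).trans_le this

lemma psi_sq_le (h0 : 0 < β) (A : Approx m β) (x : ℝ) :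
    ‖A.ψ x‖ ^ 2 ≤ m + tp (A.rho x) (1 + 1 / β) := by
  have := tp_le_card_add (A.rho_psd x) (s := 1) (t := 1 + 1 / β) zero_le_one
    (le_add_of_nonneg_right (by positivity))
  rw [Fintype.card_fin, tp_one (A.rho_psd x).1] at this
  exact (norm_sq_eq_rt _).trans_le this

lemma nDe (h0 : 0 < β) (h1 : β < 1) (A : Approx m β) {κb : ℝ} (hκb : 0 ≤ κb)
    (h : ∀ i, A.κ i ≤ κb) (x : ℝ) (y : Matrix A.ι Unit ℂ) :
    ‖De A x * y‖ ≤ (m + tp (A.rho x) (1 + 1 / β) + (1 + 1 / β) * (2 * κb ^ 2)) * ‖y‖ := by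
  rw [De, Matrix.sub_mul, Matrix.smul_mul, Matrix.sub_mul, add_mul, mul_assoc]
  refine (norm_sub_le _ _).trans (add_le_add ((norm_mul_le' _ _).trans
    (mul_le_mul_of_nonneg_right ((norm_le_rt (pot_psd _ _)).trans (rtV_le h0 h1 A x))
      (norm_nonneg _))) ?_)
  rw [norm_smul, Real.norm_of_nonneg (by positivity)]
  refine mul_le_mul_of_nonneg_left ((norm_sub_le _ _).trans ?_) (by positivity)
  have h2 := nK A hκb h y
  have h3 := nM A hκb h x (A.M x * y)
  have h4 := mul_le_mul_of_nonneg_left (nM A hκb h x y) hκb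
  rw [Matrix.mul_assoc]
  linarith

lemma De_tendsto (h0 : 0 < β) (h1 : β < 1) {W : ℝ → Matrix (Fin m) (Fin m) ℂ}
    {A : ℕ → Approx m β} {κb : ℝ} {D : ℝ → ℝ} {S : Set ℝ} (hA : Good W A κb D S) {x : ℝ}
    (hx : x ∈ S) : Tendsto (fun j => ‖De (A j) x‖) atTop (𝓝 0) := by
  have h := ((hA.q x hx).mul_const ((1 + (m + D x)) ^ 2)).sqrt
  rw [zero_mul, Real.sqrt_zero] at h
  refine squeeze_zero (fun _ => norm_nonneg _) (fun j => Real.le_sqrt_of_sq_le ?_) h
  have h2 := rt_nonneg (pot_psd β ((A j).ψ x))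
  have h3 := rtV_le h0 h1 (A j) x
  have h4 := hA.dom x hx j
  have h5 : ‖De (A j) x‖ ^ 2 / (1 + rt ((A j).V x)) ^ 2 ≤ (A j).q x :=
    le_add_of_nonneg_left (sq_nonneg _)
  change 0 ≤ rt ((A j).V x) at h2
  rw [div_le_iff₀ (by positivity)] at h5
  refine h5.trans (mul_le_mul_of_nonneg_left ?_ ((A j).q_nonneg x))
  gcongr
  linarith

lemma continuous_De (h0 : 0 < β) (h1 : β < 1) (A : Approx m β) : Continuous (De A) :=
  ((continuous_pot h0 h1).comp A.continuous_ψ).sub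
    ((continuous_const.sub (A.continuous_M.mul A.continuous_M)).const_smul (1 + 1 / β))

end PropA

theorem propagate {β : ℝ} (h0 : 0 < β) (h1 : β < 1) {m : ℕ}
    {W : ℝ → Matrix (Fin m) (Fin m) ℂ} (hW : ∀ x, (W x).PosSemidef) {A : ℕ → Approx m β}
    {κb : ℝ} (hκb : 0 ≤ κb) {D : ℝ → ℝ} {S : Set ℝ} (hA : Good W A κb D S) {x₀ a c : ℝ}
    (ha : 0 < a) (y : ∀ j, Matrix (A j).ι Unit ℂ) {Y : ℝ} (hy : ∀ j, ‖y j‖ ≤ Y)
    (hM : Tendsto (fun j => ‖(A j).M x₀ * y j -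
      (-a * Real.tanh (1 / β * a * (x₀ - c))) • y j‖) atTop (𝓝 0))
    (hK : Tendsto (fun j => ‖(A j).K2 * y j - a ^ 2 • y j‖) atTop (𝓝 0))
    {f₀ : Matrix (Fin m) Unit ℂ} (hf : Tendsto (fun j => ((A j).ψ x₀)ᴴ * y j) atTop (𝓝 f₀)) :
    ∀ x ∈ S, W x * f₀ = soliton (1 / β) a c x • f₀ := by
  have hr : 0 < 1 / β := by positivity
  have hY : 0 ≤ Y := (norm_nonneg _).trans (hy 0)
  set μ := mu (1 / β) a c with hμ
  have hμd : ∀ x, HasDerivAt μ _ x := hasDerivAt_mu (1 / β) a c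
  have hμc : Continuous μ := continuous_iff_continuousAt.2 fun x => (hμd x).continuousAt
  have hμa : ∀ x, |μ x| ≤ a := abs_mu_le _ ha c
  have hDy : ∀ x ∈ S, Tendsto (fun j => ‖De (A j) x * y j‖) atTop (𝓝 0) := fun x hx =>
    squeeze_zero (fun _ => norm_nonneg _) (fun j => (norm_mul_le' _ _).trans
      (mul_le_mul_of_nonneg_left (hy j) (norm_nonneg _)))
      (by simpa using (De_tendsto h0 h1 hA hx).mul_const Y)
  -- step 1: `ξ → 0`
  let ξ : ∀ j, ℝ → Matrix (A j).ι Unit ℂ := fun j x => (A j).M x * y j - μ x • y j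
  have hξb : ∀ j x, ‖ξ j x‖ ≤ (κb + a) * Y := fun j x => by
    have := nMmu (A j) hκb (hA.hκ j) x (μ := -μ x) ((abs_neg _).trans_le (hμa x)) (y j)
    rw [neg_smul, ← sub_eq_add_neg] at this
    exact this.trans (mul_le_mul_of_nonneg_left (hy j) (by positivity))
  have hξc : ∀ j, Continuous (ξ j) := fun j =>
    ((A j).continuous_M.matrix_mul continuous_const).sub (hμc.smul continuous_const)
  have hξ : ∀ x, Tendsto (fun j => ‖ξ j x‖) atTop (𝓝 0) := by
    refine gron_tendsto (g := fun j x => -((1 / β) • ((A j).K2 * y j - a ^ 2 • y j)) -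
        De (A j) x * y j) (C := 1 / β * (κb + a)) (by positivity)
      (fun j x => (HasDerivAt.mmul ((A j).hM x) (hasDerivAt_const x (y j))).sub
        ((hμd x).smul_const (y j)))
      (fun j => continuous_const.sub ((continuous_De h0 h1 _).matrix_mul continuous_const))
      (fun j x => ?_) hM hA.hD hA.hS
      ((1 / β * (κb ^ 2 + a ^ 2) + m + (1 + 1 / β) * (2 * κb ^ 2)) * Y) Y (fun x hx j => ?_)
      fun x hx => ?_
    · rw [mul_assoc]
      refine le_trans (le_of_eq ?_) (mul_le_mul_of_nonneg_left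
        (nMmu (A j) hκb (hA.hκ j) x (hμa x) (ξ j x)) hr.le)
      rw [← Real.norm_of_nonneg hr.le, ← norm_smul, Real.norm_of_nonneg hr.le]
      congr 1
      simp only [ξ, De, Approx.K2, Approx.V, Matrix.sub_mul, Matrix.mul_sub, Matrix.smul_mul,
        Matrix.mul_smul, Matrix.mul_zero, Matrix.mul_assoc, ← hμ]
      module
    · refine (norm_sub_le _ _).trans ?_
      rw [norm_neg, norm_smul, Real.norm_of_nonneg hr.le]
      have h2 := (norm_sub_le _ _).trans (add_le_add (nK (A j) hκb (hA.hκ j) (y j))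
        (norm_smul_le (a ^ 2) (y j)))
      rw [Real.norm_of_nonneg (sq_nonneg a), ← add_mul] at h2
      have h3 := mul_le_mul_of_nonneg_left
        (h2.trans (mul_le_mul_of_nonneg_left (hy j) (by positivity))) hr.le
      have h5 := tp_nonneg ((A j).rho_psd x) (1 + 1 / β)
      have h4 := (nDe h0 h1 (A j) hκb (hA.hκ j) x (y j)).trans
        (mul_le_mul_of_nonneg_left (hy j) (by positivity))
      have h6 := mul_le_mul_of_nonneg_right (hA.dom x hx j) hY
      linarith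
    · have h2 := (hK.const_mul (1 / β)).add (hDy x hx)
      rw [mul_zero, add_zero] at h2
      refine squeeze_zero (fun _ => norm_nonneg _) (fun j => (norm_sub_le _ _).trans ?_) h2
      rw [norm_neg, norm_smul, Real.norm_of_nonneg hr.le]
  have hψ : ∀ x ∈ S, ∀ j, ‖((A j).ψ x)ᴴ‖ ≤ 1 + m + D x := fun x hx j => by
    rw [frobenius_norm_conjTranspose]
    nlinarith [psi_sq_le h0 (A j) x, hA.dom x hx j, sq_nonneg (‖(A j).ψ x‖ - 1),
      norm_nonneg ((A j).ψ x)]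
  -- step 2: `ψᴴ y → χ • f₀`
  let χ : ℝ → ℝ := fun x => Real.exp (∫ t in x₀..x, μ t)
  have hχ : ∀ x, HasDerivAt χ (χ x * μ x) x := fun x =>
    (hμc.integral_hasStrictDerivAt x₀ x).hasDerivAt.exp
  have hF : ∀ x, Tendsto (fun j => ‖((A j).ψ x)ᴴ * y j - χ x • f₀‖) atTop (𝓝 0) := by
    refine gron_tendsto (E := fun _ => Matrix (Fin m) Unit ℂ)
      (ξ := fun j x => ((A j).ψ x)ᴴ * y j - χ x • f₀) (g := fun j x => ((A j).ψ x)ᴴ * ξ j x +
        ((A j).ψ' x - (A j).M x * (A j).ψ x)ᴴ * y j) (C := a) (x₀ := x₀) ha.le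
      (fun j x => (HasDerivAt.mmul (HasDerivAt.conjT ((A j).hψ x)) (hasDerivAt_const x (y j))).sub
        ((hχ x).smul_const f₀))
      (fun j => ((A j).continuous_ψ.matrix_conjTranspose.matrix_mul (hξc j)).add
        (((A j).hψ'.sub ((A j).continuous_M.matrix_mul
          (A j).continuous_ψ)).matrix_conjTranspose.matrix_mul continuous_const))
      (fun j x => ?_) ?_ hA.hD hA.hS ((1 + m) * ((κb + a) * Y) + Y) ((κb + a) * Y + Y)
      (fun x hx j => ?_) fun x hx => ?_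
    · refine le_trans (le_of_eq ?_) (mul_le_mul_of_nonneg_right (hμa x) (norm_nonneg _))
      rw [← Real.norm_eq_abs, ← norm_smul]
      congr 1
      simp only [ξ, conjTranspose_sub, conjTranspose_mul, (herm_of_up ((A j).up x)).eq,
        Matrix.sub_mul, Matrix.mul_sub, Matrix.mul_smul, Matrix.mul_zero, Matrix.mul_assoc]
      module
    · simpa [χ] using tendsto_iff_norm_sub_tendsto_zero.1 hf
    · have h2 := (norm_mul_le' ((A j).ψ x)ᴴ (ξ j x)).trans (mul_le_mul (hψ x hx j) (hξb j x)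
        (norm_nonneg _) ((norm_nonneg _).trans (hψ x hx j)))
      have h3 : ‖((A j).ψ' x - (A j).M x * (A j).ψ x)ᴴ‖ ≤ 1 + D x := by
        rw [frobenius_norm_conjTranspose]
        have := hA.dom' x hx j
        rw [Approx.sq] at this
        nlinarith [sq_nonneg (‖(A j).ψ' x - (A j).M x * (A j).ψ x‖ - 1),
          norm_nonneg ((A j).ψ' x - (A j).M x * (A j).ψ x)]
      have h4 := (norm_mul_le' _ (y j)).trans (mul_le_mul h3 (hy j)
        (norm_nonneg _) ((norm_nonneg _).trans h3))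
      refine (norm_add_le _ _).trans ?_
      linarith
    · have h2 := ((hξ x).const_mul (1 + m + D x)).add ((hA.sq x hx).mul_const Y)
      rw [mul_zero, zero_mul, add_zero] at h2
      refine squeeze_zero (fun _ => norm_nonneg _) (fun j => (norm_add_le _ _).trans
        (add_le_add ((norm_mul_le' _ _).trans
          (mul_le_mul_of_nonneg_right (hψ x hx j) (norm_nonneg _))) ((norm_mul_le' _ _).trans ?_))) h2
      rw [frobenius_norm_conjTranspose]
      exact mul_le_mul_of_nonneg_left (hy j) (norm_nonneg _)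
  -- step 3
  intro x hx
  have hF' := tendsto_iff_norm_sub_tendsto_zero.2 (hF x)
  have hρ := tendsto_pw hr.le (hA.rho x hx) (fun j => ((A j).rho_psd x).1) (pw_psd (hW x) β).1
  rw [pw_pw (hW x), mul_one_div_cancel h0.ne', pw_one (hW x).1] at hρ
  have hcm : Continuous fun z : Matrix (Fin m) (Fin m) ℂ × Matrix (Fin m) Unit ℂ =>
      z.1 * z.2 - soliton (1 / β) a c x • z.2 :=
    (continuous_fst.matrix_mul continuous_snd).sub (continuous_snd.const_smul (soliton (1 / β) a c x))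
  have h2 := (hcm.tendsto _).comp (hρ.prodMk_nhds hF')
  have h3 := ((hDy x hx).add ((hK.add ((hξ x).const_mul (κb + a))).const_mul
    (1 + 1 / β))).const_mul (1 + m + D x)
  simp only [mul_zero, add_zero] at h3
  have h4 := tendsto_nhds_unique h2 (tendsto_zero_iff_norm_tendsto_zero.2
    (squeeze_zero (fun _ => norm_nonneg _) (fun j => ?_) h3))
  · rw [Matrix.mul_smul, smul_comm, ← smul_sub] at h4
    exact sub_eq_zero.1 ((smul_eq_zero.1 h4).resolve_left (Real.exp_pos _).ne')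
  · have e1 := congrArg conjTranspose (pot_mul h0 h1 ((A j).ψ x))
    rw [conjTranspose_mul, conjTranspose_mul, (pot_psd _ _).1.eq,
      (pw_psd (posSemidef_conjTranspose_mul_self _) _).1.eq] at e1
    have e2 : pw ((A j).rho x) (1 / β) * (((A j).ψ x)ᴴ * y j) -
        soliton (1 / β) a c x • (((A j).ψ x)ᴴ * y j) = ((A j).ψ x)ᴴ * (De (A j) x * y j +
          (1 + 1 / β) • (((A j).K2 * y j - a ^ 2 • y j) - ((A j).M x * ξ j x + μ x • ξ j x))) := by
      rw [← Matrix.mul_assoc, Approx.rho, ← e1, soliton_eq]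
      simp only [ξ, De, Approx.V, Matrix.sub_mul, Matrix.mul_sub, Matrix.smul_mul, Matrix.mul_add,
        Matrix.mul_smul, Matrix.mul_assoc, ← hμ]
      module
    simp only [Function.comp_apply]
    rw [e2]
    refine (norm_mul_le' _ _).trans (mul_le_mul (hψ x hx j) ((norm_add_le _ _).trans ?_)
      (norm_nonneg _) ((norm_nonneg _).trans (hψ x hx j)))
    rw [norm_smul, Real.norm_of_nonneg (by positivity)]
    gcongr
    exact (norm_sub_le _ _).trans (add_le_add le_rfl (nMmu (A j) hκb (hA.hκ j) x (hμa x) _))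

end Crest.Agent.R332
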