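import Crest.Agent.R332.Det

/-! Row 332, task Young: trace inequalities (all through `Diag.rt_mul`, `Diag.sum_left`,
`Diag.sum_right` and scalar Young / Bernoulli inequalities), joint diagonalisation and
integrability facts.

* `dY_eq_zero`: `dY = Σ |u_ij|² φ(x_i, y_j)`, `φ(x,y) = x^p/p + y^p'/p' - xy = 0 ↔ y = x^β`
  (`Real.young_inequality_eq_iff`-type / strict convexity), then `Diag.norm_sub_sq`.
* `tendsto_of_dY`: `Y j` is bounded (`tp_le_dY`), `tendsto_of_subseq_tendsto`, compactness,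
  continuity of `dY β X ·` on psd matrices (`tendsto_pw`), `dY_eq_zero`.
* `klein_select`: `γ ≥ 1`: `B K = dg (√γ a^((γ-1)/2))` constant, `z^γ ≥ a^γ + γ a^(γ-1)(z - a)`;
  `γ < 1`: `B K = cfc (fun t => √γ (t² + ε)^((γ-1)/2)) K`, `N ε^γ ≤ η`,
  `a^γ ≤ (z+ε)^γ + γ (z+ε)^(γ-1) (a - z - ε)`, `(z+ε)^γ ≤ z^γ + ε^γ`.
* `joint_diag`: `LinearMap.IsSymmetric.directSum_isInternal_of_commute`, or diagonalise
  `A + τ B` for small `τ > 0`, or induct on eigenspaces. -/

set_option autoImplicit false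
set_option linter.unusedSectionVars false

open Matrix Filter Topology MeasureTheory
open scoped ComplexOrder Matrix.Norms.Frobenius

namespace Crest.Agent.R332

variable {n k : Type*} [Fintype n] [DecidableEq n] [Fintype k] [DecidableEq k]

namespace YoungA

lemma conj {β : ℝ} (h0 : 0 < β) : (1 + β).HolderConjugate (1 + 1 / β) := by
  refine Real.holderConjugate_iff.2 ⟨by linarith, ?_⟩
  field_simp
  ring

/-- the scalar deficit -/
noncomputable def ph (β x y : ℝ) : ℝ := x ^ (1 + β) / (1 + β) + y ^ (1 + 1 / β) / (1 + 1 / β) - x * y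

lemma ph_nonneg {β x y : ℝ} (h0 : 0 < β) (hx : 0 ≤ x) (hy : 0 ≤ y) : 0 ≤ ph β x y :=
  sub_nonneg.2 (Real.young_inequality_of_nonneg hx hy (conj h0))

lemma ph_eq_zero {β x y : ℝ} (h0 : 0 < β) (hx : 0 ≤ x) (hy : 0 ≤ y) (h : ph β x y = 0) :
    y = x ^ β := by
  have h1 := (Real.young_inequality_eq_iff_of_nonneg hx hy (conj h0)).1 (sub_eq_zero.1 h).symm
  have hp : (0 : ℝ) < 1 + 1 / β := by positivity
  have e : x ^ (1 + β) = (x ^ β) ^ (1 + 1 / β) := by
    rw [← Real.rpow_mul hx]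
    congr 1
    field_simp
    ring
  rw [e] at h1
  exact ((Real.rpow_left_inj (Real.rpow_nonneg hx _) hy hp.ne').1 h1).symm

lemma dY_eq {β : ℝ} {X Y U V : Matrix n n ℂ} {a b : n → ℝ} (h : Diag X U a) (h' : Diag Y V b) :
    dY β X Y = ∑ i, ∑ j, Complex.normSq ((Uᴴ * V) i j) * ph β (a i) (b j) := by
  rw [dY, h.tp, h'.tp, h.rt_mul h', h.sum_left h', h.sum_right h' (fun j => b j ^ (1 + 1 / β))]
  simp only [Finset.sum_div, ← Finset.sum_add_distrib, ← Finset.sum_sub_distrib]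
  refine Finset.sum_congr rfl fun i _ => Finset.sum_congr rfl fun j _ => ?_
  unfold ph
  ring

lemma pow_le_ph {β x y : ℝ} (h0 : 0 < β) (hx : 0 ≤ x) (hy : 0 ≤ y) :
    y ^ (1 + 1 / β) ≤ 2 * (1 + 1 / β) * 2 ^ (1 + β) * (ph β x y + x ^ (1 + β)) := by
  have h1 := Real.young_inequality_of_nonneg (a := 2 * x) (b := y / 2) (by positivity)
    (by positivity) (conj h0)
  have hp : (0 : ℝ) < 1 + 1 / β := by positivity
  have hp1 : (1 : ℝ) ≤ 1 + 1 / β := by
    have : 0 < 1 / β := by positivity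
    linarith
  have h2 : (2 : ℝ) ≤ 2 ^ (1 + 1 / β) := by
    conv_lhs => rw [← Real.rpow_one 2]
    exact Real.rpow_le_rpow_of_exponent_le (by norm_num) hp1
  have h3 : (1 : ℝ) ≤ 2 ^ (1 + β) := Real.one_le_rpow (by norm_num) (by linarith)
  rw [Real.mul_rpow (by norm_num) hx, Real.div_rpow hy (by norm_num)] at h1
  have h4 : y ^ (1 + 1 / β) / 2 ^ (1 + 1 / β) ≤ y ^ (1 + 1 / β) / 2 :=
    div_le_div_of_nonneg_left (by positivity) (by norm_num) h2
  have h5 : y ^ (1 + 1 / β) / 2 ^ (1 + 1 / β) / (1 + 1 / β) ≤ y ^ (1 + 1 / β) / 2 / (1 + 1 / β) :=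
    div_le_div_of_nonneg_right h4 hp.le
  have h6 : 2 ^ (1 + β) * x ^ (1 + β) / (1 + β) ≤ 2 ^ (1 + β) * x ^ (1 + β) :=
    div_le_self (by positivity) (by linarith)
  have h7 : 0 ≤ x ^ (1 + β) / (1 + β) := by positivity
  have h8 := ph_nonneg h0 hx hy
  have h9 : y ^ (1 + 1 / β) / 2 / (1 + 1 / β) ≤ ph β x y + 2 ^ (1 + β) * x ^ (1 + β) := by
    have e : y ^ (1 + 1 / β) / (1 + 1 / β) = 2 * (y ^ (1 + 1 / β) / 2 / (1 + 1 / β)) := by ring
    unfold ph
    linarith
  rw [div_div, div_le_iff₀ (by positivity)] at h9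
  have h10 : ph β x y ≤ 2 ^ (1 + β) * ph β x y := le_mul_of_one_le_left h8 h3
  calc _ ≤ _ := h9
    _ ≤ (2 ^ (1 + β) * ph β x y + 2 ^ (1 + β) * x ^ (1 + β)) * (2 * (1 + 1 / β)) := by gcongr
    _ = _ := by ring

lemma psd_of_tendsto {Y : ℕ → Matrix n n ℂ} {L : Matrix n n ℂ} (hY : ∀ j, (Y j).PosSemidef)
    (h : Tendsto Y atTop (𝓝 L)) : L.PosSemidef := by
  refine PosSemidef.of_dotProduct_mulVec_nonneg ?_ fun x => ?_
  · have h1 : Tendsto (fun j => (Y j)ᴴ) atTop (𝓝 Lᴴ) :=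
      (continuous_id.matrix_conjTranspose.tendsto L).comp h
    have e : (fun j => (Y j)ᴴ) = Y := funext fun j => (hY j).1
    rw [e] at h1
    exact tendsto_nhds_unique h1 h
  · have hc : Continuous fun M : Matrix n n ℂ => star x ⬝ᵥ (M *ᵥ x) :=
      continuous_const.dotProduct (continuous_id.matrix_mulVec continuous_const)
    exact ge_of_tendsto' ((hc.tendsto L).comp h) fun j => (hY j).dotProduct_mulVec_nonneg x

lemma tangent_convex {γ a z : ℝ} (hγ : 1 ≤ γ) (ha : 0 < a) (hz : 0 ≤ z) :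
    γ * a ^ (γ - 1) * (z - a) ≤ z ^ γ - a ^ γ := by
  have h := one_add_mul_self_le_rpow_one_add (s := z / a - 1)
    (by have : 0 ≤ z / a := by positivity
        linarith) hγ
  rw [add_sub_cancel, Real.div_rpow hz ha.le, le_div_iff₀ (by positivity)] at h
  rw [Real.rpow_sub_one ha.ne']
  have e : γ * (a ^ γ / a) * (z - a) = (1 + γ * (z / a - 1)) * a ^ γ - a ^ γ := by
    field_simp
    ring
  linarith

lemma tangent_concave {γ a w : ℝ} (hγ0 : 0 ≤ γ) (hγ : γ ≤ 1) (ha : 0 ≤ a) (hw : 0 < w) :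
    γ * w ^ (γ - 1) * (w - a) ≤ w ^ γ - a ^ γ := by
  have h := rpow_one_add_le_one_add_mul_self (s := a / w - 1)
    (by have : 0 ≤ a / w := by positivity
        linarith) hγ0 hγ
  rw [add_sub_cancel, Real.div_rpow ha hw.le, div_le_iff₀ (by positivity)] at h
  rw [Real.rpow_sub_one hw.ne']
  have e : γ * (w ^ γ / w) * (w - a) = w ^ γ - (1 + γ * (a / w - 1)) * w ^ γ := by
    field_simp
    ring
  linarith

lemma sq_rpow_half {c w γ : ℝ} (hc : 0 ≤ c) (hw : 0 ≤ w) :
    Real.sqrt c * w ^ ((γ - 1) / 2) * (Real.sqrt c * w ^ ((γ - 1) / 2)) = c * w ^ (γ - 1) := by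
  have h1 : w ^ ((γ - 1) / 2) * w ^ ((γ - 1) / 2) = w ^ (γ - 1) := by
    rw [← sq, ← Real.rpow_natCast, ← Real.rpow_mul hw]
    congr 1
    push_cast
    ring
  calc _ = (Real.sqrt c * Real.sqrt c) * (w ^ ((γ - 1) / 2) * w ^ ((γ - 1) / 2)) := by ring
    _ = _ := by rw [Real.mul_self_sqrt hc, h1]

lemma joint_dg (a : n → ℝ) {B : Matrix n n ℂ} (hB : B.IsHermitian) (h : dg a * B = B * dg a) :
    ∃ (U : Matrix n n ℂ) (α b : n → ℝ), Diag (dg a) U α ∧ Diag B U b := by
  obtain ⟨V, b, hV⟩ := exists_diag hB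
  obtain ⟨τ, hτ⟩ := Infinite.exists_notMem_finset ((Finset.univ : Finset (n × n × n × n)).image
    fun q => (b q.1 - b q.2.1) / (a q.2.2.1 - a q.2.2.2))
  have hC : (τ • dg a + B).IsHermitian := ((diag_dg a).smul τ).herm.add hB
  obtain ⟨U, c, hU⟩ := exists_diag hC
  have hBU : B * U = U * dg c - τ • (dg a * U) := by
    rw [← hU.mul_U, Matrix.add_mul, Matrix.smul_mul]
    abel
  have key : ∀ i j, U i j ≠ 0 → ∃ l, b l = c j - τ * a i := by
    intro i j hij
    let P : Matrix n n ℂ := dg fun l => if a l = a i then 1 else 0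
    have hPB : B * P = P * B := by
      ext r s
      have h1 := congrFun (congrFun h r) s
      rw [dg_mul_apply, mul_dg_apply] at h1
      rw [dg_mul_apply, mul_dg_apply]
      by_cases hz : B r s = 0
      · simp [hz]
      · have h2 : (a r : ℂ) = a s := by
          rw [mul_comm] at h1; exact mul_left_cancel₀ hz h1
        have h3 : a r = a s := by exact_mod_cast h2
        rw [h3, mul_comm]
    have h1 : B * (P * U) = P * U * dg fun s => c s - τ * a i := by
      rw [← Matrix.mul_assoc, hPB, Matrix.mul_assoc, hBU]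
      ext r s
      rw [mul_dg_apply, dg_mul_apply, dg_mul_apply, Matrix.sub_apply, mul_dg_apply,
        Matrix.smul_apply, dg_mul_apply]
      split_ifs with hr
      · rw [hr]; simp; ring
      · simp
    have h2 : dg b * (Vᴴ * (P * U)) = Vᴴ * (P * U) * dg fun s => c s - τ * a i := by
      rw [Matrix.mul_assoc, ← h1, ← hV.conj]
      calc Vᴴ * B * V * (Vᴴ * (P * U)) = Vᴴ * B * (V * Vᴴ) * (P * U) := by
            simp only [Matrix.mul_assoc]
        _ = _ := by rw [hV.uu', Matrix.mul_one, Matrix.mul_assoc]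
    by_contra hcon
    push Not at hcon
    have h3 : ∀ l, (Vᴴ * (P * U)) l j = 0 := by
      intro l
      have h4 := congrFun (congrFun h2 l) j
      rw [dg_mul_apply, mul_dg_apply, mul_comm] at h4
      by_contra hz
      have h5 := mul_left_cancel₀ hz h4
      exact hcon l (by exact_mod_cast h5)
    have h4 : (P * U) i j = 0 := by
      have e : P * U = V * (Vᴴ * (P * U)) := by
        rw [← Matrix.mul_assoc, hV.uu', Matrix.one_mul]
      rw [e, mul_apply]
      simp [h3]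
    rw [dg_mul_apply] at h4
    simp [hij] at h4
  have key2 : ∀ i i' j, U i j ≠ 0 → U i' j ≠ 0 → a i = a i' := by
    intro i i' j h1 h2
    obtain ⟨l, hl⟩ := key i j h1
    obtain ⟨l', hl'⟩ := key i' j h2
    by_contra hne
    refine hτ (Finset.mem_image.2 ⟨(l', l, i, i'), Finset.mem_univ _, ?_⟩)
    have : a i - a i' ≠ 0 := sub_ne_zero.2 hne
    simp only
    rw [hl, hl']
    field_simp
    ring
  classical
  let α : n → ℝ := fun j => if h : ∃ i, U i j ≠ 0 then a h.choose else 0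
  have hα : dg a * U = U * dg α := by
    ext i j
    rw [dg_mul_apply, mul_dg_apply]
    by_cases hz : U i j = 0
    · simp [hz]
    · have hex : ∃ i, U i j ≠ 0 := ⟨i, hz⟩
      have : α j = a i := by
        simp only [α, dif_pos hex]
        exact key2 _ _ j hex.choose_spec hz
      rw [this, mul_comm]
  have hA : Diag (dg a) U α := ⟨hU.uu, by
    rw [← hα, Matrix.mul_assoc, hU.uu', Matrix.mul_one]⟩
  have := hU.sub (hA.smul τ)
  rw [add_sub_cancel_left] at this
  exact ⟨U, α, _, hA, this⟩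

end YoungA

open YoungA

lemma dY_nonneg {β : ℝ} (h0 : 0 < β) {X Y : Matrix n n ℂ} (hX : X.PosSemidef) (hY : Y.PosSemidef) :
    0 ≤ dY β X Y := by
  obtain ⟨U, a, h⟩ := exists_diag hX.1
  obtain ⟨V, b, h'⟩ := exists_diag hY.1
  rw [dY_eq h h']
  exact Finset.sum_nonneg fun i _ => Finset.sum_nonneg fun j _ =>
    mul_nonneg (Complex.normSq_nonneg _) (ph_nonneg h0 (h.nonneg hX i) (h'.nonneg hY j))

lemma dY_eq_zero {β : ℝ} (h0 : 0 < β) {X Y : Matrix n n ℂ} (hX : X.PosSemidef)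
    (hY : Y.PosSemidef) (h : dY β X Y = 0) : Y = pw X β := by
  obtain ⟨U, a, h1⟩ := exists_diag hX.1
  obtain ⟨V, b, h2⟩ := exists_diag hY.1
  rw [dY_eq h1 h2] at h
  have hn : ∀ i j, 0 ≤ Complex.normSq ((Uᴴ * V) i j) * ph β (a i) (b j) := fun i j =>
    mul_nonneg (Complex.normSq_nonneg _) (ph_nonneg h0 (h1.nonneg hX i) (h2.nonneg hY j))
  have h3 : ‖pw X β - Y‖ ^ 2 = 0 := by
    rw [(h1.pw β).norm_sub_sq h2]
    refine Finset.sum_eq_zero fun i _ => Finset.sum_eq_zero fun j _ => ?_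
    have h4 := (Finset.sum_eq_zero_iff_of_nonneg fun i _ =>
      Finset.sum_nonneg fun j _ => hn i j).1 h i (Finset.mem_univ _)
    have h5 := (Finset.sum_eq_zero_iff_of_nonneg fun j _ => hn i j).1 h4 j (Finset.mem_univ _)
    rcases mul_eq_zero.1 h5 with h6 | h6
    · rw [h6, zero_mul]
    · rw [ph_eq_zero h0 (h1.nonneg hX i) (h2.nonneg hY j) h6]
      simp
  exact (sub_eq_zero.1 (norm_eq_zero.1 (pow_eq_zero_iff two_ne_zero |>.1 h3))).symm

lemma tp_le_dY {β : ℝ} (h0 : 0 < β) : ∃ C : ℝ, 0 ≤ C ∧ ∀ (μ : Type) [Fintype μ] [DecidableEq μ]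
    (X Y : Matrix μ μ ℂ), X.PosSemidef → Y.PosSemidef →
      tp Y (1 + 1 / β) ≤ C * (dY β X Y + tp X (1 + β)) := by
  refine ⟨2 * (1 + 1 / β) * 2 ^ (1 + β), by positivity, fun μ _ _ X Y hX hY => ?_⟩
  obtain ⟨U, a, h⟩ := exists_diag hX.1
  obtain ⟨V, b, h'⟩ := exists_diag hY.1
  rw [dY_eq h h', h.tp, h'.tp, h.sum_left h' (fun i => a i ^ (1 + β)),
    h.sum_right h' (fun j => b j ^ (1 + 1 / β)), ← Finset.sum_add_distrib, Finset.mul_sum]
  refine Finset.sum_le_sum fun i _ => ?_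
  rw [← Finset.sum_add_distrib, Finset.mul_sum]
  refine Finset.sum_le_sum fun j _ => ?_
  refine (mul_le_mul_of_nonneg_left (pow_le_ph h0 (h.nonneg hX i) (h'.nonneg hY j))
    (Complex.normSq_nonneg _)).trans (le_of_eq ?_)
  ring

/-- `tr Y^s ≤ N + tr Y^t` for `0 ≤ s ≤ t` -/
lemma tp_le_card_add {Y : Matrix n n ℂ} (hY : Y.PosSemidef) {s t : ℝ} (hs : 0 ≤ s) (hst : s ≤ t) :
    tp Y s ≤ Fintype.card n + tp Y t := by
  obtain ⟨U, a, h⟩ := exists_diag hY.1
  rw [h.tp, h.tp]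
  have e : (Fintype.card n : ℝ) = ∑ _i : n, (1 : ℝ) := by simp
  rw [e, ← Finset.sum_add_distrib]
  refine Finset.sum_le_sum fun i _ => ?_
  have ha := h.nonneg hY i
  have h1 : 0 ≤ a i ^ t := Real.rpow_nonneg ha t
  rcases le_total (a i) 1 with h2 | h2
  · linarith [Real.rpow_le_one ha h2 hs]
  · linarith [Real.rpow_le_rpow_of_exponent_le h2 hst]

lemma tp_one {Y : Matrix n n ℂ} (hY : Y.IsHermitian) : tp Y 1 = rt Y := by
  rw [tp, pw_one hY]

lemma tendsto_of_dY {β : ℝ} (h0 : 0 < β) {X : Matrix n n ℂ} (hX : X.PosSemidef)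
    {Y : ℕ → Matrix n n ℂ} (hY : ∀ j, (Y j).PosSemidef)
    (h : Tendsto (fun j => dY β X (Y j)) atTop (𝓝 0)) : Tendsto Y atTop (𝓝 (pw X β)) := by
  obtain ⟨M, hM⟩ := h.bddAbove_range
  have hp1 : (1 : ℝ) ≤ 1 + 1 / β := by
    have : 0 < 1 / β := by positivity
    linarith
  have hb : ∀ j, ‖Y j‖ ≤
      Fintype.card n + 2 * (1 + 1 / β) * 2 ^ (1 + β) * (M + tp X (1 + β)) := by
    intro j
    have h1 := norm_le_rt (hY j)
    rw [← tp_one (hY j).1] at h1
    have h2 := tp_le_card_add (hY j) zero_le_one hp1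
    have h3 : tp (Y j) (1 + 1 / β) ≤
        2 * (1 + 1 / β) * 2 ^ (1 + β) * (dY β X (Y j) + tp X (1 + β)) := by
      obtain ⟨U, a, g⟩ := exists_diag hX.1
      obtain ⟨V, b, g'⟩ := exists_diag (hY j).1
      rw [dY_eq g g', g.tp, g'.tp, g.sum_left g' (fun i => a i ^ (1 + β)),
        g.sum_right g' (fun j => b j ^ (1 + 1 / β)), ← Finset.sum_add_distrib, Finset.mul_sum]
      refine Finset.sum_le_sum fun i _ => ?_
      rw [← Finset.sum_add_distrib, Finset.mul_sum]
      refine Finset.sum_le_sum fun l _ => ?_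
      refine (mul_le_mul_of_nonneg_left (pow_le_ph h0 (g.nonneg hX i) (g'.nonneg (hY j) l))
        (Complex.normSq_nonneg _)).trans (le_of_eq ?_)
      ring
    have h4 : dY β X (Y j) ≤ M := hM ⟨j, rfl⟩
    have h5 : 2 * (1 + 1 / β) * 2 ^ (1 + β) * (dY β X (Y j) + tp X (1 + β)) ≤
        2 * (1 + 1 / β) * 2 ^ (1 + β) * (M + tp X (1 + β)) := by gcongr
    linarith
  have : ProperSpace (Matrix n n ℂ) := FiniteDimensional.proper ℂ _
  refine tendsto_of_subseq_tendsto fun ns hns => ?_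
  obtain ⟨L, -, ms, hms, hL⟩ := (isCompact_closedBall (0 : Matrix n n ℂ) _).tendsto_subseq
    (x := fun j => Y (ns j)) fun j => mem_closedBall_zero_iff.2 (hb (ns j))
  refine ⟨ms, ?_⟩
  have hLp : L.PosSemidef := psd_of_tendsto (fun j => hY (ns (ms j))) hL
  have h1 : Tendsto (fun j => dY β X (Y (ns (ms j)))) atTop (𝓝 (dY β X L)) := by
    unfold dY tp
    refine (tendsto_const_nhds.add (Tendsto.div_const ((continuous_rt.tendsto _).comp
      (tendsto_pw (by positivity) hL (fun j => (hY _).1) hLp.1)) _)).sub ?_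
    exact ((continuous_rt.comp (continuous_const.matrix_mul continuous_id)).tendsto L).comp hL
  have h2 := tendsto_nhds_unique h1 ((h.comp hns).comp hms.tendsto_atTop)
  rw [← dY_eq_zero h0 hX hLp h2]
  exact hL

theorem klein_select {γ : ℝ} (hγ0 : 1 / 2 < γ) (hγ1 : γ < 3 / 2) (a : n → ℝ) (ha : ∀ i, 0 < a i)
    {η : ℝ} (hη : 0 < η) :
    ∃ (B : Matrix n n ℂ → Matrix n n ℂ) (C : ℝ), ContinuousOn B {K | K.IsHermitian} ∧
      (∀ K, (B K).IsHermitian) ∧ (∀ K, ‖B K‖ ≤ C) ∧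
      ∀ K U κ, Diag K U κ → (∀ i, 0 ≤ κ i) →
        rt (B K * B K * (K * K - dg a)) ≤ ∑ i, κ i ^ (2 * γ) - ∑ i, a i ^ γ + η := by
  have hγ : 0 < γ := by linarith
  have hsq : ∀ z : ℝ, 0 ≤ z → z ^ (2 * γ) = (z * z) ^ γ := fun z hz => by
    rw [Real.rpow_mul hz, ← sq]
    norm_num
  rcases le_or_gt 1 γ with hg | hg
  · refine ⟨fun _ => dg fun i => Real.sqrt γ * a i ^ ((γ - 1) / 2), _, continuousOn_const,
      fun _ => dg_herm _, fun _ => le_rfl, fun K U κ h hκ => ?_⟩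
    have h1 : Diag ((dg fun i => Real.sqrt γ * a i ^ ((γ - 1) / 2)) *
        dg fun i => Real.sqrt γ * a i ^ ((γ - 1) / 2)) 1 fun i => γ * a i ^ (γ - 1) :=
      ((diag_dg _).mul (diag_dg _)).congr fun i => sq_rpow_half hγ.le (ha i).le
    rw [Matrix.mul_sub, rt_sub, h1.rt_mul (h.mul h), (h1.mul (diag_dg a)).rt,
      h1.sum_left h (fun i => γ * a i ^ (γ - 1) * a i), h1.sum_left h (fun i => a i ^ γ), h1.sum_right h (fun j => κ j ^ (2 * γ))]
    simp only [← Finset.sum_sub_distrib]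
    refine le_trans (Finset.sum_le_sum fun i _ => Finset.sum_le_sum fun j _ => ?_)
      (le_add_of_nonneg_right hη.le)
    have h2 := mul_le_mul_of_nonneg_left
      (tangent_convex hg (ha i) (mul_nonneg (hκ j) (hκ j))) 
      (Complex.normSq_nonneg (((1 : Matrix n n ℂ)ᴴ * U) i j))
    rw [hsq _ (hκ j)]
    linarith
  · set ε : ℝ := (η / (Fintype.card n + 1)) ^ γ⁻¹ with hε
    have hε0 : 0 < ε := by positivity
    have hεγ : ε ^ γ = η / (Fintype.card n + 1) := by
      rw [hε, Real.rpow_inv_rpow (by positivity) hγ.ne']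
    have hw : ∀ t : ℝ, 0 < t * t + ε := fun t => by nlinarith [mul_self_nonneg t]
    let f : ℝ → ℝ := fun t => Real.sqrt γ * (t * t + ε) ^ ((γ - 1) / 2)
    have hf : Continuous f := continuous_const.mul
      (Continuous.rpow_const (by fun_prop) fun t => Or.inl (hw t).ne')
    refine ⟨fun K => cfc f K, Real.sqrt (Fintype.card n * (γ * ε ^ (γ - 1))),
      continuousOn_cfc_herm hf, fun K => cfc_herm f K, fun K => ?_, fun K U κ h hκ => ?_⟩
    · by_cases hK : K.IsHermitian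
      · obtain ⟨U, κ, h⟩ := exists_diag hK
        refine Real.le_sqrt_of_sq_le ?_
        rw [(h.cfc f).norm_sq]
        refine (Finset.sum_le_card_nsmul _ _ (γ * ε ^ (γ - 1)) fun i _ => ?_).trans (by simp)
        rw [sq]
        simp only [f]
        rw [sq_rpow_half hγ.le (hw _).le]
        refine mul_le_mul_of_nonneg_left ?_ hγ.le
        exact Real.rpow_le_rpow_of_nonpos hε0 (by nlinarith [mul_self_nonneg (κ i)]) (by linarith)
      · show ‖cfc f K‖ ≤ _
        rw [cfc_apply_of_not_predicate K (fun h => hK (isHermitian_iff_isSelfAdjoint.mpr h)),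
          norm_zero]
        exact Real.sqrt_nonneg _
    · have h1 : Diag (cfc f K * cfc f K) U fun i => γ * (κ i * κ i + ε) ^ (γ - 1) :=
        ((h.cfc f).mul (h.cfc f)).congr fun i => sq_rpow_half hγ.le (hw _).le
      have h0 := diag_dg a
      have e : η / (Fintype.card n + 1) * Fintype.card n ≤ η := by
        rw [div_mul_eq_mul_div, div_le_iff₀ (by positivity)]
        nlinarith
      refine le_trans ?_ (add_le_add_right e _)
      have e2 : η / (Fintype.card n + 1) * Fintype.card n = ∑ _i : n, ε ^ γ := by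
        rw [hεγ]; simp [mul_comm]
      rw [e2, Matrix.mul_sub, rt_sub, h1.rt_mul h0, (h1.mul (h.mul h)).rt,
        h1.sum_left h0 (fun i => γ * (κ i * κ i + ε) ^ (γ - 1) * (κ i * κ i)),
        h1.sum_right h0 (fun i => a i ^ γ), h1.sum_left h0 (fun j => κ j ^ (2 * γ)),
        h1.sum_left h0 (fun _ => ε ^ γ)]
      simp only [← Finset.sum_sub_distrib, ← Finset.sum_add_distrib]
      refine Finset.sum_le_sum fun i _ => Finset.sum_le_sum fun j _ => ?_
      have h2 := tangent_concave hγ.le hg.le (ha j).le (hw (κ i))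
      have h3 := Real.rpow_add_le_add_rpow (mul_self_nonneg (κ i)) hε0.le hγ.le hg.le
      have h4 : 0 ≤ γ * (κ i * κ i + ε) ^ (γ - 1) * ε := by
        have := hw (κ i)
        positivity
      have h5 : γ * (κ i * κ i + ε) ^ (γ - 1) * (κ i * κ i) - γ * (κ i * κ i + ε) ^ (γ - 1) * a j ≤
          (κ i * κ i) ^ γ - a j ^ γ + ε ^ γ := by linarith
      have h6 := mul_le_mul_of_nonneg_left h5 
        (Complex.normSq_nonneg ((Uᴴ * (1 : Matrix n n ℂ)) i j))
      rw [hsq _ (hκ i)]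
      linarith

theorem joint_diag {A B : Matrix n n ℂ} (hA : A.IsHermitian) (hB : B.IsHermitian)
    (h : A * B = B * A) : ∃ (U : Matrix n n ℂ) (a b : n → ℝ), Diag A U a ∧ Diag B U b := by
  obtain ⟨V, a, hV⟩ := exists_diag hA
  obtain ⟨W, b, hW⟩ := exists_diag hB
  have hc : dg a * (Vᴴ * B * V) = Vᴴ * B * V * dg a := by
    rw [← hV.conj]
    calc Vᴴ * A * V * (Vᴴ * B * V) = Vᴴ * A * (V * Vᴴ) * B * V := by simp only [Matrix.mul_assoc]
      _ = Vᴴ * (A * B) * V := by rw [hV.uu']; simp only [Matrix.mul_one, Matrix.mul_assoc]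
      _ = Vᴴ * B * (V * Vᴴ) * A * V := by
          rw [hV.uu', h]; simp only [Matrix.mul_one, Matrix.mul_assoc]
      _ = _ := by simp only [Matrix.mul_assoc]
  obtain ⟨U, α, β, h1, h2⟩ := joint_dg a (hW.uconj hV.uu).herm hc
  have hVV : Vᴴᴴ * Vᴴ = 1 := by rw [conjTranspose_conjTranspose, hV.uu']
  have h3 := h1.uconj hVV
  have h4 := h2.uconj hVV
  rw [conjTranspose_conjTranspose] at h3 h4
  rw [← hV.eq] at h3
  have e : V * (Vᴴ * B * V) * Vᴴ = B := by
    calc V * (Vᴴ * B * V) * Vᴴ = (V * Vᴴ) * B * (V * Vᴴ) := by simp only [Matrix.mul_assoc]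
      _ = B := by rw [hV.uu']; simp
  rw [e] at h4
  exact ⟨_, _, _, h3, h4⟩

namespace Pot
variable {m : ℕ} {β : ℝ} {W : ℝ → Matrix (Fin m) (Fin m) ℂ}

/-- entries of `W` against a continuous compactly supported scalar are integrable
(`‖W x i j‖ ≤ rt (W x) ≤ m + tp (W x) (1+β)`) -/
lemma integrable_entry (h0 : 0 < β) (hW : Pot β W) {g : ℝ → ℂ} (hg : Continuous g)
    (hs : HasCompactSupport g) (i j : Fin m) : Integrable fun x => W x i j * g x := by
  obtain ⟨C, hC⟩ := hs.exists_bound_of_continuous hg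
  have h1 : Integrable fun x => (Fintype.card (Fin m) : ℝ) * ‖g x‖ + tp (W x) (1 + β) * C :=
    ((hg.integrable_of_hasCompactSupport hs).norm.const_mul _).add (hW.int.mul_const C)
  refine h1.mono' ((hW.meas i j).mul hg.measurable).aestronglyMeasurable
    (Eventually.of_forall fun x => ?_)
  have h2 : ‖W x i j‖ ≤ Fintype.card (Fin m) + tp (W x) (1 + β) := by
    refine (norm_entry_le _ i j).trans ((norm_le_rt (hW.psd x)).trans ?_)
    rw [← tp_one (hW.psd x).1]
    exact tp_le_card_add (hW.psd x) zero_le_one (by linarith)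
  rw [norm_mul]
  have h3 := mul_le_mul_of_nonneg_right h2 (norm_nonneg (g x))
  have h4 := mul_le_mul_of_nonneg_left (hC x) (tp_nonneg (hW.psd x) (1 + β))
  linarith

lemma integrable_rt (h0 : 0 < β) (hW : Pot β W) {ρ : ℝ → Matrix (Fin m) (Fin m) ℂ}
    (hρ : Continuous ρ) (hs : HasCompactSupport ρ) : Integrable fun x => rt (W x * ρ x) := by
  simp only [rt_eq_sum, mul_apply, Complex.re_sum]
  refine integrable_finsetSum _ fun i _ => integrable_finsetSum _ fun j _ => ?_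
  exact (hW.integrable_entry h0 (hρ.matrix_elem j i)
    (hs.comp_left (g := fun M : Matrix (Fin m) (Fin m) ℂ => M j i) rfl) i j).re

end Pot

end Crest.Agent.R332
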