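import Crest.Agent.R332.Scalar
import Crest.Agent.R332.Young

/-! Row 332, task Sol: soliton sums are extremal.
`g_i x = cosh(r a_i (x - c_i))^(-β)` (smooth, `0 < g ≤ 1`), `χ_R x = χ₁ (x/R)` for a fixed
`ContDiffBump` `χ₁` (`=1` on `[-1,1]`, support in `[-2,2]`, `|χ₁'| ≤ C`), `f_i = χ_R g_i / ‖χ_R g_i‖₂`,
`φ_i x = f_i x • (i-th column of U)`.  With `μ = g'/g = -a tanh(r a (x-c))`,
`μ' = a² - μ² - soliton`, one has `(χg)'² - soliton (χg)² + a² (χg)² = χ'² g² + (χ² g² μ)'`, so the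
`i`-th diagonal energy is `-a_i² + ∫χ_R'² g² / ∫χ_R² g²`, with numerator `≤ 4C²/R` and denominator
`≥ ∫_{-1}^1 g² > 0` for `R ≥ 1`; off-diagonal entries vanish (`Uᴴ U = 1`, `integral_congr_ae`).
`negMoment (dg e) γ = Σ max(-e_i, 0)^γ → Σ a_i^(2γ)` as `R → ∞`, and
`Lc β ∫ tp (W x) (1+β) = Σ a_i^(1+2β)` by `Diag.tp`, `integral_soliton`. -/

set_option autoImplicit false
set_option linter.unusedSectionVars false

open Matrix Filter Topology MeasureTheory
open scoped ComplexOrder Matrix.Norms.Frobenius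

namespace Crest.Agent.R332

open Crest.MathPhysics.LiebThirring

namespace SolA

open scoped ContDiff

lemma exists_bump : ∃ b : ℝ → ℝ, ContDiff ℝ ∞ b ∧ HasCompactSupport b ∧ (∀ x, 0 ≤ b x) ∧
    (∀ x, b x ≤ 1) ∧ (∀ x, |x| ≤ 1 → b x = 1) ∧ ∀ x, 2 ≤ |x| → b x = 0 := by
  let b : ContDiffBump (0 : ℝ) := ⟨1, 2, one_pos, one_lt_two⟩
  exact ⟨b, b.contDiff, b.hasCompactSupport, b.nonneg', fun _ => b.le_one,
    fun x hx => b.one_of_mem_closedBall (mem_closedBall_zero_iff.2 hx),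
    fun x hx => b.zero_of_le_dist (by rw [dist_zero_right]; exact hx)⟩

/-- cut-off functions -/
lemma exists_cut : ∃ (χ₁ : ℝ → ℝ), Continuous χ₁ ∧ HasCompactSupport χ₁ ∧ χ₁ 0 ≠ 0 ∧
    ∀ δ : ℝ, 0 < δ → ∃ χ : ℝ → ℝ, ContDiff ℝ ∞ χ ∧ HasCompactSupport χ ∧
      (∀ x, χ₁ x ^ 2 ≤ χ x ^ 2) ∧ ∫ x, deriv χ x ^ 2 ≤ δ := by
  obtain ⟨b, hb, hbs, hb0, hb1, hb2, hb3⟩ := exists_bump
  refine ⟨b, hb.continuous, hbs, ?_, fun δ hδ => ?_⟩
  · rw [hb2 0 (by simp)]; exact one_ne_zero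
  obtain ⟨C, hC⟩ : ∃ C, C = ∫ x, deriv b x ^ 2 := ⟨_, rfl⟩
  have hC0 : 0 ≤ C := hC ▸ integral_nonneg fun x => sq_nonneg _
  obtain ⟨R, hR⟩ : ∃ R, R = 2 + C / δ := ⟨_, rfl⟩
  have hR2 : 2 ≤ R := hR ▸ le_add_of_nonneg_right (by positivity)
  have hR0 : 0 < R := by linarith
  refine ⟨fun x => b (R⁻¹ * x), hb.comp (contDiff_const.mul contDiff_id),
    hbs.comp_smul (inv_ne_zero hR0.ne'), fun x => ?_, ?_⟩
  · rcases le_total |x| 2 with hx | hx
    · have : b (R⁻¹ * x) = 1 := by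
        refine hb2 _ ?_
        rw [abs_mul, abs_of_pos (inv_pos.2 hR0), inv_mul_le_iff₀ hR0]
        linarith
      simp only [this]
      exact pow_le_pow_left₀ (hb0 x) (hb1 x) 2
    · rw [hb3 x hx]; simpa using sq_nonneg _
  · have e : ∀ x, deriv (fun x => b (R⁻¹ * x)) x ^ 2 = R⁻¹ ^ 2 * deriv b (R⁻¹ * x) ^ 2 := by
      intro x
      rw [deriv_comp_mul_left, smul_eq_mul, mul_pow]
    simp only [e]
    rw [integral_const_mul, Measure.integral_comp_mul_left (fun x => deriv b x ^ 2), ← hC,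
      inv_inv, abs_of_pos hR0, smul_eq_mul]
    have h1 : R⁻¹ ^ 2 * (R * C) = C / R := by field_simp
    rw [h1, div_le_iff₀ hR0, hR, mul_add, mul_div_cancel₀ _ hδ.ne']
    linarith

lemma hcs_of {χ f : ℝ → ℝ} (h : HasCompactSupport χ) (hf : ∀ x, χ x = 0 → f x = 0) :
    HasCompactSupport f :=
  h.mono fun x hx h0 => hx (hf x h0)

lemma scalar_gen {g μ s : ℝ → ℝ} {a : ℝ} (hg : ContDiff ℝ ∞ g) (hg0 : ∀ x, 0 < g x)
    (hg1 : ∀ x, g x ≤ 1) (hg' : ∀ x, HasDerivAt g (g x * μ x) x)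
    (hμ' : ∀ x, HasDerivAt μ (a ^ 2 - μ x ^ 2 - s x) x) (hs : Continuous s) {δ : ℝ} (hδ : 0 < δ) :
    ∃ f : ℝ → ℝ, ContDiff ℝ ∞ f ∧ HasCompactSupport f ∧ ∫ x, f x ^ 2 = 1 ∧
      ∫ x, (deriv f x ^ 2 - s x * f x ^ 2) ≤ -a ^ 2 + δ := by
  obtain ⟨χ₁, hc₁, hs₁, h₁, hχ⟩ := exists_cut
  have hgc := hg.continuous
  have hμc : Continuous μ := continuous_iff_continuousAt.2 fun x => (hμ' x).continuousAt
  have hI₁ : 0 < ∫ x, χ₁ x ^ 2 * g x ^ 2 :=
    Continuous.integral_pos_of_hasCompactSupport_nonneg_nonzero (x := 0) (by fun_prop)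
      (hcs_of hs₁ fun x h => by simp [h]) (fun x => by positivity)
      (mul_ne_zero (pow_ne_zero _ h₁) (pow_ne_zero _ (hg0 0).ne'))
  obtain ⟨χ, hχ, hχs, hχ₁, hχ'⟩ := hχ _ (mul_pos hδ hI₁)
  have hχc := hχ.continuous
  have hχ'c : Continuous (deriv χ) := hχ.continuous_deriv (by simp)
  have hχd : ∀ x, HasDerivAt χ (deriv χ x) x := fun x =>
    (hχ.differentiable (by simp) x).hasDerivAt
  have i1 : Integrable fun x => (χ x * g x) ^ 2 :=
    Continuous.integrable_of_hasCompactSupport (by fun_prop) (hcs_of hχs fun x h => by simp [h])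
  have i2 : Integrable fun x => deriv χ x ^ 2 * g x ^ 2 :=
    Continuous.integrable_of_hasCompactSupport (by fun_prop)
      (hcs_of hχs.deriv fun x h => by simp [h])
  have i3 : Integrable fun x => 2 * χ x * deriv χ x * g x ^ 2 * μ x +
      χ x ^ 2 * g x ^ 2 * (a ^ 2 + μ x ^ 2 - s x) :=
    Continuous.integrable_of_hasCompactSupport (by fun_prop) (hcs_of hχs fun x h => by simp [h])
  have i4 : Integrable fun x => (χ x * g x) ^ 2 * μ x :=
    Continuous.integrable_of_hasCompactSupport (by fun_prop) (hcs_of hχs fun x h => by simp [h])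
  have i5 : Integrable fun x => deriv χ x ^ 2 :=
    Continuous.integrable_of_hasCompactSupport (by fun_prop)
      (hcs_of hχs.deriv fun x h => by simp [h])
  have hz := integral_eq_zero_of_hasDerivAt_of_integrable (fun x =>
    ((((hχd x).fun_mul (hg' x)).fun_pow 2).fun_mul (hμ' x)).congr_deriv (by
      simp only [Nat.cast_ofNat, Nat.add_one_sub_one]; ring)) i3 i4
  set I := ∫ x, (χ x * g x) ^ 2 with hI
  have hI' : ∫ x, χ₁ x ^ 2 * g x ^ 2 ≤ I :=
    integral_mono (Continuous.integrable_of_hasCompactSupport (by fun_prop)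
      (hcs_of hs₁ fun x h => by simp [h])) i1 fun x => by
        simp only [mul_pow]
        exact mul_le_mul_of_nonneg_right (hχ₁ x) (sq_nonneg _)
  have hI0 : 0 < I := hI₁.trans_le hI'
  have hk : (√I)⁻¹ ^ 2 = I⁻¹ := by rw [inv_pow, Real.sq_sqrt hI0.le]
  refine ⟨fun x => (√I)⁻¹ * (χ x * g x), contDiff_const.mul (hχ.mul hg),
    hcs_of hχs fun x h => by simp [h], ?_, ?_⟩
  · simp only [mul_pow (√I)⁻¹]
    rw [integral_const_mul, hk, inv_mul_cancel₀ hI0.ne']
  · have e : ∀ x, deriv (fun x => (√I)⁻¹ * (χ x * g x)) x ^ 2 -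
        s x * ((√I)⁻¹ * (χ x * g x)) ^ 2 = I⁻¹ * (deriv χ x ^ 2 * g x ^ 2 +
          (2 * χ x * deriv χ x * g x ^ 2 * μ x + χ x ^ 2 * g x ^ 2 * (a ^ 2 + μ x ^ 2 - s x)) -
            a ^ 2 * (χ x * g x) ^ 2) := by
      intro x
      rw [(((hχd x).fun_mul (hg' x)).const_mul (√I)⁻¹).deriv, ← hk]
      ring
    simp only [e]
    have i23 : Integrable fun x => deriv χ x ^ 2 * g x ^ 2 +
      (2 * χ x * deriv χ x * g x ^ 2 * μ x + χ x ^ 2 * g x ^ 2 * (a ^ 2 + μ x ^ 2 - s x)) :=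
        i2.add i3
    rw [integral_const_mul, integral_sub i23 (i1.const_mul _), integral_add i2 i3, hz,
      integral_const_mul, ← hI, add_zero, inv_mul_le_iff₀ hI0]
    have h2 : ∫ x, deriv χ x ^ 2 * g x ^ 2 ≤ ∫ x, deriv χ x ^ 2 :=
      integral_mono i2 i5 fun x => mul_le_of_le_one_right (sq_nonneg _)
        (pow_le_one₀ (hg0 x).le (hg1 x))
    have h3 := mul_le_mul_of_nonneg_left hI' hδ.le
    nlinarith

lemma continuous_soliton (r a c : ℝ) : Continuous (soliton r a c) := by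
  unfold soliton
  exact continuous_const.div (by fun_prop) fun x => pow_ne_zero _ (Real.cosh_pos _).ne'

lemma scalar {β : ℝ} (h0 : 0 < β) (a c : ℝ) {δ : ℝ} (hδ : 0 < δ) :
    ∃ f : ℝ → ℝ, ContDiff ℝ ∞ f ∧ HasCompactSupport f ∧ ∫ x, f x ^ 2 = 1 ∧
      ∫ x, (deriv f x ^ 2 - soliton (1 / β) a c x * f x ^ 2) ≤ -a ^ 2 + δ := by
  have hl : ∀ x, HasDerivAt (fun x => 1 / β * a * (x - c)) (1 / β * a) x := fun x => by
    simpa using ((hasDerivAt_id x).sub_const c).const_mul (1 / β * a)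
  refine scalar_gen (g := fun x => Real.cosh (1 / β * a * (x - c)) ^ (-β))
    (μ := fun x => -a * (Real.sinh (1 / β * a * (x - c)) / Real.cosh (1 / β * a * (x - c))))
    ?_ (fun x => Real.rpow_pos_of_pos (Real.cosh_pos _) _)
    (fun x => Real.rpow_le_one_of_one_le_of_nonpos (Real.one_le_cosh _) (by linarith))
    (fun x => ?_) (fun x => ?_) (continuous_soliton _ _ _) hδ
  · exact (ContDiff.cosh (by fun_prop)).rpow_const_of_ne fun x => (Real.cosh_pos _).ne'
  · refine ((hl x).cosh.rpow_const (Or.inl (Real.cosh_pos _).ne')).congr_deriv ?_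
    rw [Real.rpow_sub_one (Real.cosh_pos _).ne']
    have := (Real.cosh_pos (1 / β * a * (x - c))).ne'
    field_simp
  · refine ((((hl x).sinh.fun_div (hl x).cosh (Real.cosh_pos _).ne')).const_mul
      (-a)).congr_deriv ?_
    have h1 := (Real.cosh_pos (1 / β * a * (x - c))).ne'
    have h2 := Real.cosh_sq (1 / β * a * (x - c))
    rw [soliton]
    generalize Real.cosh (1 / β * a * (x - c)) = C at *
    generalize Real.sinh (1 / β * a * (x - c)) = S at *
    field_simp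
    linear_combination (-a ^ 2 * (1 + β)) * h2

/-- a column as a vector -/
noncomputable def cv {m : ℕ} (U : Matrix (Fin m) (Fin m) ℂ) (i : Fin m) : Vec m :=
  WithLp.toLp 2 fun l => U l i

lemma inner_cv {m : ℕ} {U : Matrix (Fin m) (Fin m) ℂ} (hU : Uᴴ * U = 1) (k l : Fin m) :
    inner ℂ (cv U k) (cv U l) = if k = l then 1 else 0 := by
  rw [← one_apply, ← hU]
  simp [cv, PiLp.inner_apply, mul_apply, mul_comm]

lemma lin_cv {m : ℕ} {U : Matrix (Fin m) (Fin m) ℂ} (hU : Uᴴ * U = 1) (d : Fin m → ℝ)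
    (l : Fin m) : Matrix.toEuclideanLin (U * dg d * Uᴴ) (cv U l) = (d l : ℂ) • cv U l := by
  ext i
  have := congrFun (congrFun (Diag.of hU d).mul_U i) l
  rw [mul_dg_apply, mul_apply] at this
  simp only [toLpLin_apply, mulVec, dotProduct, cv, PiLp.smul_apply, smul_eq_mul]
  rw [this, mul_comm]

end SolA

open SolA in
theorem sol_approx {β : ℝ} (h0 : 0 < β) {m : ℕ} {W : ℝ → Matrix (Fin m) (Fin m) ℂ}
    {U : Matrix (Fin m) (Fin m) ℂ} (hU : Uᴴ * U = 1) {a c : Fin m → ℝ} (ha : ∀ i, 0 ≤ a i)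
    (hW : ∀ᵐ x : ℝ, W x = U * dg (fun i => soliton (1 / β) (a i) (c i) x) * Uᴴ)
    {ε : ℝ} (hε : 0 < ε) :
    ∃ (N : ℕ) (φ : Fin N → ℝ → Vec m), IsTrialFamily φ ∧
      Lc β * (∫ x, tp (W x) (1 + β)) - ε < negMoment (energyMatrix W φ) (β + 1 / 2) := by
  have hγ : 0 ≤ β + 1 / 2 := by positivity
  have hL : Lc β * (∫ x, tp (W x) (1 + β)) = ∑ i, max (a i ^ 2 - 0) 0 ^ (β + 1 / 2) := by
    have e : ∫ x, tp (W x) (1 + β) = ∫ x, ∑ i, soliton (1 / β) (a i) (c i) x ^ (1 + β) :=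
      integral_congr_ae (hW.mono fun x hx => by
        simp only [hx]; exact (Diag.of hU _).tp _)
    rw [e, integral_finsetSum _ fun i _ => integrable_soliton h0 (ha i) (c i), Finset.mul_sum]
    refine Finset.sum_congr rfl fun i _ => ?_
    rw [integral_soliton h0 (ha i), sub_zero, max_eq_left (sq_nonneg _), ← Real.rpow_natCast,
      ← Real.rpow_mul (ha i)]
    congr 1; push_cast; ring
  have hc : Continuous fun δ : ℝ => ∑ i, max (a i ^ 2 - δ) 0 ^ (β + 1 / 2) :=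
    continuous_finsetSum _ fun i _ => (Real.continuous_rpow_const hγ).comp (by fun_prop)
  obtain ⟨δ, hδ', hδ⟩ := (((hc.tendsto 0).mono_left (nhdsWithin_le_nhds (s := Set.Ioi 0))
    ).eventually (lt_mem_nhds (sub_lt_self _ hε))).and self_mem_nhdsWithin |>.exists
  choose f hf hfs hf1 hfe using fun i => scalar h0 (a i) (c i) hδ
  have hd : ∀ k x, deriv (fun x => (f k x : ℂ) • cv U k) x = ((deriv (f k) x : ℝ) : ℂ) • cv U k :=
    fun k x => (((hf k).differentiable (by simp) x).hasDerivAt.ofReal_comp.smul_const _).deriv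
  refine ⟨m, fun k x => (f k x : ℂ) • cv U k, ⟨fun k => ?_, fun k => ?_, fun k l => ?_⟩, ?_⟩
  · exact (Complex.ofRealCLM.contDiff.comp (hf k)).smul contDiff_const
  · exact (hfs k).mono fun x hx h => hx (by simp [h])
  · simp only [inner_smul_left, inner_smul_right, inner_cv hU, Complex.conj_ofReal]
    split_ifs with h
    · subst h
      simp only [mul_one, ← sq, ← Complex.ofReal_pow]
      rw [integral_complex_ofReal, hf1]; rfl
    · simp
  · have hE : energyMatrix W (fun k x => (f k x : ℂ) • cv U k) =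
        dg fun k => ∫ x, (deriv (f k) x ^ 2 - soliton (1 / β) (a k) (c k) x * f k x ^ 2) := by
      ext k l
      rw [energyMatrix, of_apply, dg_apply, integral_congr_ae (hW.mono fun x hx => by
        simp only [hx, hd, map_smul, lin_cv hU, inner_smul_left, inner_smul_right, inner_cv hU,
          Complex.conj_ofReal]; rfl)]
      split_ifs with h
      · subst h
        rw [← integral_complex_ofReal]
        congr 1; funext x; push_cast; ring
      · simp
    rw [hE, hL]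
    refine hδ'.trans_le (le_of_le_of_eq ?_ ((diag_dg _).cfc _).rt.symm)
    refine Finset.sum_le_sum fun i _ => Real.rpow_le_rpow (le_max_right _ _)
      (max_le_max_right _ ?_) hγ
    linarith [hfe i]

end Crest.Agent.R332
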