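import Crest.Agent.R332.Good
import Crest.Agent.R332.Prop
import Crest.Agent.R332.Sol

/-! Row 332: assembly. -/

set_option autoImplicit false
set_option linter.unusedSectionVars false

open Matrix Filter Topology MeasureTheory
open scoped ComplexOrder Matrix.Norms.Frobenius

namespace Crest.Agent.R332

open Crest.MathPhysics.LiebThirring

theorem lt_ineq {β : ℝ} (h0 : 0 < β) (h1 : β < 1) {m : ℕ} {W : ℝ → Matrix (Fin m) (Fin m) ℂ}
    (hW : Pot β W) {N : ℕ} {φ : Fin N → ℝ → Vec m} (hφ : IsTrialFamily φ) :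
    negMoment (energyMatrix W φ) (β + 1 / 2) ≤ Lc β * ∫ x, tp (W x) (1 + β) := by
  refine le_of_forall_pos_le_add fun η hη => ?_
  obtain ⟨A, hA⟩ := master h0 h1 hW hφ hη
  have h2 := A.DB_nonneg h0 h1
  have h3 : 0 ≤ Lc β * (1 + β) * (A.Dsq + A.DY W) :=
    mul_nonneg (mul_nonneg (Lc_pos h0).le (by linarith))
      (add_nonneg A.Dsq_nonneg (A.DY_nonneg h0 hW))
  linarith

theorem rigid {β : ℝ} (h0 : 0 < β) (h1 : β < 1) {m : ℕ} {W : ℝ → Matrix (Fin m) (Fin m) ℂ}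
    (hW : Pot β W) (h : ∀ δ : ℝ, 0 < δ → ∃ A : Approx m β, A.DB + A.Dsq + A.DY W ≤ δ) :
    ∃ (U : Matrix (Fin m) (Fin m) ℂ) (a c : Fin m → ℝ), Uᴴ * U = 1 ∧ (∀ i, 0 ≤ a i) ∧
      ∀ᵐ x : ℝ, W x = U * dg (fun i => soliton (1 / β) (a i) (c i) x) * Uᴴ := by
  obtain ⟨A, κb, D, S, hκb, hA⟩ := exists_good h0 h1 hW h
  have hS : S.Nonempty := hA.hS.exists
  obtain ⟨U, a, c, hU, ha, hx⟩ := rank_step h0 hW.psd hS (W := W) fun x₀ hx₀ => by
    obtain ⟨s, U, ω, μ, hs, hd, hi⟩ := joint_approx h0 h1 hW.psd hκb hA hx₀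
    refine ⟨U, ω, hd, fun i hω => ?_⟩
    obtain ⟨hM, hK⟩ := hi i hω
    have hr : 0 < 1 + 1 / β := by positivity
    have hpos : 0 < μ i ^ 2 + ω i / (1 + 1 / β) := by positivity
    set a := Real.sqrt (μ i ^ 2 + ω i / (1 + 1 / β)) with ha
    have ha0 : 0 < a := Real.sqrt_pos.mpr hpos
    have ha2 : a ^ 2 = μ i ^ 2 + ω i / (1 + 1 / β) := Real.sq_sqrt hpos.le
    have hlt : |μ i| < a := by
      refine abs_lt_of_sq_lt_sq ?_ ha0.le
      have : 0 < ω i / (1 + 1 / β) := by positivity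
      linarith
    have hmem : -μ i / a ∈ Set.Ioo (-1 : ℝ) 1 := by
      rw [abs_lt] at hlt
      constructor
      · rw [lt_div_iff₀ ha0]; linarith
      · rw [div_lt_iff₀ ha0]; linarith
    set c := x₀ - Real.artanh (-μ i / a) / (1 / β * a) with hc
    have hμ : -a * Real.tanh (1 / β * a * (x₀ - c)) = μ i := by
      have : 1 / β * a * (x₀ - c) = Real.artanh (-μ i / a) := by
        rw [hc]; field_simp; ring
      rw [this, Real.tanh_artanh hmem]; field_simp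
    have hA' := hA.subseq hs
    have hrho := hA'.rho x₀ hx₀
    have hb : ∃ Y : ℝ, ∀ j, ‖(A (s j)).ψ x₀ * colm U i‖ ≤ Y := by
      refine ⟨Real.sqrt (m + D x₀) * ‖colm U i‖, fun j => (norm_mul_le' _ _).trans ?_⟩
      gcongr
      refine Real.le_sqrt_of_sq_le ?_
      have h2 := tp_le_card_add ((A (s j)).rho_psd x₀) zero_le_one
        (show (1 : ℝ) ≤ 1 + 1 / β by linarith [one_div_pos.mpr h0])
      rw [tp_one ((A (s j)).rho_psd x₀).1, Fintype.card_fin] at h2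
      rw [norm_sq_eq_rt]
      exact h2.trans (by linarith [hA'.dom x₀ hx₀ j])
    obtain ⟨Y, hY⟩ := hb
    have hf : Tendsto (fun j => ((A (s j)).ψ x₀)ᴴ * ((A (s j)).ψ x₀ * colm U i)) atTop
        (𝓝 (pw (W x₀) β * colm U i)) := by
      simp only [← Matrix.mul_assoc]
      exact ((continuous_id.matrix_mul continuous_const).tendsto _).comp hrho
    have hcol : pw (W x₀) β * colm U i = (ω i ^ β) • colm U i := by
      have := (hd.pw β).mul_U
      ext l u
      have h3 := congrFun (congrFun this l) i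
      rw [mul_dg_apply] at h3
      simp only [colm, Matrix.mul_apply, of_apply, Matrix.smul_apply, Complex.real_smul] at h3 ⊢
      rw [h3, mul_comm]
    refine ⟨a, c, ha0, fun x hx => ?_⟩
    have key := propagate h0 h1 hW.psd hκb hA' ha0 (x₀ := x₀) (c := c)
      (fun j => (A (s j)).ψ x₀ * colm U i) hY (by rw [hμ]; exact hM) (by rw [ha2]; exact hK) hf x hx
    rw [hcol, Matrix.mul_smul, smul_comm] at key
    have hne : ω i ^ β ≠ 0 := (Real.rpow_pos_of_pos hω β).ne'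
    have key2 := smul_right_injective _ hne key
    ext l
    have := congrFun (congrFun key2 l) ()
    simpa [colm, Matrix.mul_apply, mulVec, dotProduct] using this
  exact ⟨U, a, c, hU, ha, hA.hS.mono hx⟩

theorem lt_eq_iff {β : ℝ} (h0 : 0 < β) (h1 : β < 1) {m : ℕ} {W : ℝ → Matrix (Fin m) (Fin m) ℂ}
    (hW : Pot β W) :
    (∀ ε : ℝ, 0 < ε → ∃ (N : ℕ) (φ : Fin N → ℝ → Vec m), IsTrialFamily φ ∧
      Lc β * (∫ x, tp (W x) (1 + β)) - ε < negMoment (energyMatrix W φ) (β + 1 / 2)) ↔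
    ∃ (U : Matrix (Fin m) (Fin m) ℂ) (a c : Fin m → ℝ), Uᴴ * U = 1 ∧ (∀ i, 0 ≤ a i) ∧
      ∀ᵐ x : ℝ, W x = U * dg (fun i => soliton (1 / β) (a i) (c i) x) * Uᴴ := by
  constructor
  · intro h
    refine rigid h0 h1 hW fun δ hδ => ?_
    have hL : 0 < Lc β * (1 + β) := mul_pos (Lc_pos h0) (by linarith)
    set θ := min 1 (Lc β * (1 + β)) with hθ
    have hθ0 : 0 < θ := lt_min one_pos hL
    obtain ⟨N, φ, hφ, hlt⟩ := h (θ * δ / 2) (by positivity)
    obtain ⟨A, hA⟩ := master h0 h1 hW hφ (η := θ * δ / 2) (by positivity)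
    refine ⟨A, ?_⟩
    have h2 := A.DB_nonneg h0 h1
    have h3 := add_nonneg A.Dsq_nonneg (A.DY_nonneg h0 hW)
    have h4 : θ * A.DB ≤ A.DB := by nlinarith [min_le_left 1 (Lc β * (1 + β))]
    have h5 : θ * (A.Dsq + A.DY W) ≤ Lc β * (1 + β) * (A.Dsq + A.DY W) :=
      mul_le_mul_of_nonneg_right (min_le_right _ _) h3
    have h6 : θ * (A.DB + A.Dsq + A.DY W) ≤ θ * δ := by nlinarith
    exact le_of_mul_le_mul_left h6 hθ0
  · rintro ⟨U, a, c, hU, ha, hx⟩ ε hε
    exact sol_approx h0 hU ha hx hε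

end Crest.Agent.R332
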