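import Crest.Agent.R332.Master

/-! Row 332, task Good: from small integrated deficits to pointwise convergence; rank argument.

`exists_good`: choose `A j` with total deficit `≤ 2^(-j)` (each deficit is `≥ 0`).  `tp_le_dY`
bounds `J`, so `κ^(1+2β) ≤ Lc J ≤ C` (`DB_nonneg`) gives `κb`; `Approx.DB_ge` gives
`∫ q ≤ 2^(-j)/c`.  `e j x = q + dY + sq²` has summable integrals, so `E = Σ' ofReal (e j x)` has
finite `lintegral` (`lintegral_tsum`), `S = {E < ∞}`, `D = C (E.toReal + tp W) + E.toReal`;
on `S` the series converges, so `e j x → 0`; `tendsto_of_dY`.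

`rank_step`: pick `x₀ ∈ S` maximising `(W x).rank`.  With `U, ω` from the hypothesis at `x₀`,
`rank W x₀ = #{ω ≠ 0}`.  For `x ∈ S` the range of `W x` contains the columns `u_i`, `ω_i > 0`
(soliton `> 0`); if `W x u_j ≠ 0` for some `ω_j = 0`, this vector is orthogonal to these columns
(`W x` Hermitian), so `rank (W x) > rank (W x₀)`.  (Equivalently: `Uᴴ W x U` is block diagonal.)
Put `a_j = c_j = 0` for `ω_j = 0`. -/

set_option autoImplicit false
set_option linter.unusedSectionVars false

open Matrix Filter Topology MeasureTheory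
open scoped ComplexOrder Matrix.Norms.Frobenius

namespace Crest.Agent.R332

open Crest.MathPhysics.LiebThirring

theorem exists_good {β : ℝ} (h0 : 0 < β) (h1 : β < 1) {m : ℕ} {W : ℝ → Matrix (Fin m) (Fin m) ℂ}
    (hW : Pot β W) (h : ∀ δ : ℝ, 0 < δ → ∃ A : Approx m β, A.DB + A.Dsq + A.DY W ≤ δ) :
    ∃ (A : ℕ → Approx m β) (κb : ℝ) (D : ℝ → ℝ) (S : Set ℝ), 0 ≤ κb ∧ Good W A κb D S := by
  choose A hA using fun j : ℕ => h ((1 / 2) ^ j) (by positivity)
  have hB := fun j => Approx.DB_nonneg h0 h1 (A j)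
  have hq := fun j => (A j).Dsq_nonneg
  have hY := fun j => (A j).DY_nonneg h0 hW
  have hle : ∀ j : ℕ, ((1 : ℝ) / 2) ^ j ≤ 1 := fun j => pow_le_one₀ (by norm_num) (by norm_num)
  obtain ⟨C, hC, hCt⟩ := tp_le_dY h0
  have hL := Lc_pos h0
  set I := ∫ x, tp (W x) (1 + β)
  have hJ : ∀ j, (A j).J ≤ C * (1 + I) := by
    intro j
    have i1 := (A j).integrable_dY h0 hW
    calc (A j).J ≤ ∫ x, C * (dY β (W x) ((A j).rho x) + tp (W x) (1 + β)) :=
          integral_mono ((A j).integrable_tp (by positivity)) ((i1.add hW.int).const_mul C)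
            fun x => hCt _ _ _ (hW.psd x) ((A j).rho_psd x)
      _ = C * ((A j).DY W + I) := by rw [integral_const_mul, integral_add i1 hW.int]; rfl
      _ ≤ C * (1 + I) := by
          gcongr
          linarith [hA j, hB j, hq j, hle j]
  set κb := max 1 (Lc β * (C * (1 + I)))
  have hκ : ∀ j i, (A j).κ i ≤ κb := by
    intro j i
    by_cases hi : (A j).κ i ≤ 1
    · exact hi.trans (le_max_left _ _)
    · refine le_trans ?_ (le_max_right _ _)
      have e1 : (A j).κ i ≤ (A j).κ i ^ (1 + 2 * β) :=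
        Real.self_le_rpow_of_one_le (not_le.1 hi).le (by linarith)
      have e2 : (A j).κ i ^ (1 + 2 * β) ≤ ∑ i, (A j).κ i ^ (1 + 2 * β) :=
        Finset.single_le_sum (f := fun i => (A j).κ i ^ (1 + 2 * β))
          (fun i _ => Real.rpow_nonneg ((A j).κ0 i) _) (Finset.mem_univ i)
      have e3 := hB j
      rw [Approx.DB] at e3
      have e4 := mul_le_mul_of_nonneg_left (hJ j) hL.le
      linarith
  have hκb : 0 ≤ κb := zero_le_one.trans (le_max_left _ _)
  obtain ⟨c, hc, hcq⟩ := Approx.DB_ge h0 h1 hκb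
  set e : ℕ → ℝ → ℝ := fun j x => (A j).q x + dY β (W x) ((A j).rho x) + (A j).sq x ^ 2 with he
  have n1 := fun j x => (A j).q_nonneg x
  have n2 := fun j x => dY_nonneg h0 (hW.psd x) ((A j).rho_psd x)
  have n3 := fun j x => sq_nonneg ((A j).sq x)
  have e0 : ∀ j x, 0 ≤ e j x := fun j x => add_nonneg (add_nonneg (n1 j x) (n2 j x)) (n3 j x)
  have ei : ∀ j, Integrable (e j) := fun j =>
    (((A j).integrable_q h0 h1).add ((A j).integrable_dY h0 hW)).add (A j).integrable_sq
  have eb : ∀ j, ∫ x, e j x ≤ (1 / c + 1) * (1 / 2) ^ j := by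
    intro j
    have i1 := (A j).integrable_q h0 h1
    have i2 := (A j).integrable_dY h0 hW
    have i12 : Integrable fun x => (A j).q x + dY β (W x) ((A j).rho x) := i1.add i2
    simp only [he]
    rw [integral_add i12 (A j).integrable_sq, integral_add i1 i2]
    have a1 : ∫ x, (A j).q x ≤ 1 / c * (1 / 2) ^ j := by
      rw [one_div, ← div_eq_inv_mul, le_div_iff₀ hc]
      linarith [hcq m (A j) (hκ j), hA j, hq j, hY j]
    have a2 := hA j
    have a3 := hB j
    rw [Approx.Dsq, Approx.DY] at a2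
    linarith
  have es : Summable fun j => ∫ x, e j x :=
    Summable.of_nonneg_of_le (fun j => integral_nonneg (e0 j)) eb
      (summable_geometric_two.mul_left _)
  set E : ℝ → ENNReal := fun x => ∑' j, ENNReal.ofReal (e j x)
  have em : ∀ j, AEMeasurable fun x => ENNReal.ofReal (e j x) :=
    fun j => (ei j).aemeasurable.ennreal_ofReal
  have Em : AEMeasurable E := AEMeasurable.tsum em
  have Ef : ∫⁻ x, E x ≠ ⊤ := by
    simp only [E]
    rw [lintegral_tsum em]
    simp only [← fun j => ofReal_integral_eq_lintegral_ofReal (ei j) (Eventually.of_forall (e0 j))]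
    rw [← ENNReal.ofReal_tsum_of_nonneg (fun j => integral_nonneg (e0 j)) es]
    exact ENNReal.ofReal_ne_top
  have Ei : Integrable fun x => (E x).toReal := integrable_toReal_of_lintegral_ne_top Em Ef
  have hle' : ∀ x, E x < ⊤ → ∀ j, e j x ≤ (E x).toReal := fun x hx j =>
    (ENNReal.ofReal_le_iff_le_toReal hx.ne).1 (ENNReal.le_tsum (f := fun j => ENNReal.ofReal (e j x)) j)
  have hlim : ∀ x, E x < ⊤ → Tendsto (fun j => e j x) atTop (𝓝 0) := by
    intro x hx
    have := (ENNReal.summable_toReal hx.ne).tendsto_atTop_zero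
    simpa only [ENNReal.toReal_ofReal (e0 _ x)] using this
  refine ⟨A, κb, fun x => C * ((E x).toReal + tp (W x) (1 + β)) + (E x).toReal, {x | E x < ⊤},
    hκb, hκ, ((Ei.add hW.int).const_mul C).add Ei, ae_lt_top' Em Ef, fun x hx => ?_,
    fun x hx => ?_, fun x hx => ?_, fun x hx j => ?_, fun x hx j => ?_⟩
  · exact squeeze_zero (fun j => n1 j x) (fun j => by
      simp only [he]; linarith [n2 j x, n3 j x]) (hlim x hx)
  · exact tendsto_of_dY h0 (hW.psd x) (fun j => (A j).rho_psd x) (squeeze_zero (fun j => n2 j x)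
      (fun j => by simp only [he]; linarith [n1 j x, n3 j x]) (hlim x hx))
  · have : Tendsto (fun j => (A j).sq x ^ 2) atTop (𝓝 0) := squeeze_zero (fun j => n3 j x)
      (fun j => by simp only [he]; linarith [n1 j x, n2 j x]) (hlim x hx)
    have := this.sqrt
    simpa only [Real.sqrt_zero, Approx.sq, Real.sqrt_sq (norm_nonneg _)] using this
  · have a1 := hCt _ _ _ (hW.psd x) ((A j).rho_psd x)
    have a2 := hle' x hx j
    simp only [he] at a2
    have a3 : C * (dY β (W x) ((A j).rho x) + tp (W x) (1 + β)) ≤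
        C * ((E x).toReal + tp (W x) (1 + β)) := by
      gcongr
      linarith [n1 j x, n3 j x]
    linarith [ENNReal.toReal_nonneg (a := E x)]
  · have a2 := hle' x hx j
    simp only [he] at a2
    have a3 : 0 ≤ C * ((E x).toReal + tp (W x) (1 + β)) :=
      mul_nonneg hC (add_nonneg ENNReal.toReal_nonneg (tp_nonneg (hW.psd x) _))
    linarith [n1 j x, n2 j x]

theorem rank_step {β : ℝ} (h0 : 0 < β) {m : ℕ} {W : ℝ → Matrix (Fin m) (Fin m) ℂ}
    (hW : ∀ x, (W x).PosSemidef) {S : Set ℝ} (hS : S.Nonempty)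
    (h : ∀ x₀ ∈ S, ∃ (U : Matrix (Fin m) (Fin m) ℂ) (ω : Fin m → ℝ), Diag (W x₀) U ω ∧
      ∀ i, 0 < ω i → ∃ a c : ℝ, 0 < a ∧ ∀ x ∈ S,
        W x *ᵥ (fun l => U l i) = soliton (1 / β) a c x • fun l => U l i) :
    ∃ (U : Matrix (Fin m) (Fin m) ℂ) (a c : Fin m → ℝ), Uᴴ * U = 1 ∧ (∀ i, 0 ≤ a i) ∧
      ∀ x ∈ S, W x = U * dg (fun i => soliton (1 / β) (a i) (c i) x) * Uᴴ := by
  have hbd : BddAbove ((fun x => (W x).rank) '' S) := ⟨m, by
    rintro _ ⟨x, -, rfl⟩
    exact rank_le_width _⟩
  obtain ⟨x₀, hx₀, hmax⟩ := Nat.sSup_mem (hS.image fun x => (W x).rank) hbd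
  obtain ⟨U, ω, hd, hω⟩ := h x₀ hx₀
  have ω0 := hd.nonneg (hW x₀)
  have hω' : ∀ i, ∃ a c : ℝ, (ω i = 0 → a = 0) ∧ (0 < ω i → 0 < a ∧ ∀ x ∈ S,
      W x *ᵥ (fun l => U l i) = soliton (1 / β) a c x • fun l => U l i) := by
    intro i
    by_cases hi : 0 < ω i
    · obtain ⟨a, c, h1, h2⟩ := hω i hi
      exact ⟨a, c, fun e => absurd e hi.ne', fun _ => ⟨h1, h2⟩⟩
    · exact ⟨0, 0, fun _ => rfl, fun e => absurd e hi⟩
  choose a c ha0 hac using hω'
  refine ⟨U, a, c, hd.uu, fun i => ?_, fun x hx => ?_⟩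
  · rcases (ω0 i).eq_or_lt with e | e
    · exact (ha0 i e.symm).ge
    · exact (hac i e).1.le
  set s : Fin m → ℝ := fun i => soliton (1 / β) (a i) (c i) x
  set B := Uᴴ * W x * U with hB
  have hBh : B.IsHermitian := isHermitian_conjTranspose_mul_mul U (hW x).1
  have hcol : ∀ i, 0 < ω i → ∀ l, B l i = if l = i then (s i : ℂ) else 0 := by
    intro i hi l
    have e1 : ∀ k, (W x * U) k i = s i * U k i := fun k => by
      have := congrFun ((hac i hi).2 x hx) k
      simpa [mulVec, dotProduct, mul_apply, s] using this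
    have e2 := congrFun (congrFun hd.uu l) i
    rw [hB, Matrix.mul_assoc, mul_apply]
    simp only [e1, mul_left_comm _ (s i : ℂ), ← Finset.mul_sum]
    rw [mul_apply] at e2
    rw [e2, one_apply]
    split_ifs <;> simp
  have hs : ∀ i, 0 < ω i → 0 < s i := by
    intro i hi
    have := (hac i hi).1
    have := Real.cosh_pos (1 / β * a i * (x - c i))
    simp only [s, soliton]
    positivity
  have hfac : dg ω = B * dg fun i => ω i / s i := by
    ext l i
    rw [mul_dg_apply, dg_apply]
    rcases (ω0 i).eq_or_lt with e | e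
    · split_ifs with hl
      · simp [hl, ← e]
      · simp [← e]
    · rw [hcol i e]
      have : (s i : ℂ) ≠ 0 := by exact_mod_cast (hs i e).ne'
      split_ifs with hl
      · subst hl; push_cast; field_simp
      · simp
  have hle : LinearMap.range (dg ω).mulVecLin ≤ LinearMap.range B.mulVecLin := by
    rw [hfac, mulVecLin_mul]
    exact LinearMap.range_comp_le_range _ _
  have hr : B.rank ≤ (dg ω).rank := by
    calc B.rank ≤ (W x).rank := (rank_mul_le_left _ _).trans (rank_mul_le_right _ _)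
      _ ≤ (W x₀).rank := by
          have := le_csSup hbd ⟨x, hx, rfl⟩
          rwa [← hmax] at this
      _ ≤ (dg ω).rank := by
          rw [hd.eq]
          exact (rank_mul_le_left _ _).trans (rank_mul_le_right _ _)
  have heq := Submodule.eq_of_le_of_finrank_le hle hr
  have hBs : B = dg s := by
    ext l j
    rw [dg_apply]
    rcases (ω0 j).eq_or_lt with e | e
    · have s0 : s j = 0 := by simp [s, soliton, ha0 j e.symm]
      have : B l j = 0 := by
        rcases (ω0 l).eq_or_lt with e' | e'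
        · obtain ⟨w, hw⟩ : B.mulVecLin (Pi.single j 1) ∈ LinearMap.range (dg ω).mulVecLin := by
            rw [heq]; exact LinearMap.mem_range_self _ _
          have := congrFun hw l
          simpa [dg, mulVec_diagonal, ← e'] using this.symm
        · have hne : j ≠ l := fun h => by rw [h] at e; exact e'.ne e
          rw [← hBh.apply l j, hcol l e' j, if_neg hne, star_zero]
      rw [this]
      split_ifs with hl
      · rw [hl, s0]; simp
      · rfl
    · rw [hcol j e]
      split_ifs with hl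
      · rw [hl]
      · rfl
  calc W x = (U * Uᴴ) * W x * (U * Uᴴ) := by rw [hd.uu']; simp
    _ = U * B * Uᴴ := by simp only [hB, Matrix.mul_assoc]
    _ = _ := by rw [hBs]

end Crest.Agent.R332
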