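import Crest.Agent.R332.Master

/-! Row 332, task Joint: approximate joint eigenvectors at a good point `x₀`.
`r = 1/β`, `G j = (A j).ψ x₀`, `M j`, `V j`, `ρ j → W₀^β`, `S j = K² - M²`, `Δ j = V - (1+r) S`.
`rt V = tp ρ r` converges, so `‖Δ j‖ → 0` and `‖K²M - MK²‖ → 0`; `‖G‖² = rt ρ` is bounded;
`M V - V M = (1+r)(M K² - K² M) + (MΔ - ΔM) → 0` (`norm_mul_le_of_bound`).
`ℬ j = Gᴴ M G` is bounded (`m × m`), so converges along a subsequence to a Hermitian `ℬ`.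
`E j = (MV - VM) G = M G ρ^r - G ρ^(r-1) ℬ j` (`pot_mul`), `Gᴴ E j = ℬ j ρ^r - ρ^r ℬ j → 0`, so
`ℬ W₀ = W₀ ℬ`; `joint_diag` gives `U, ω, b`.  For a column `e` with `ω > 0`, `μ = b ω^(-β)`:
`ω (M G e - μ G e) = M G (W₀ - ρ^r) e + E e + G (ρ^(r-1) ℬ j e - b ω^(1-β) e) → 0` and
`(1+r) K² = V - Δ + (1+r) M²`, `V G e = G ρ^r e ≈ ω G e`, `M² G e ≈ μ² G e`. -/

set_option autoImplicit false
set_option linter.unusedSectionVars false

open Matrix Filter Topology MeasureTheory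
open scoped ComplexOrder Matrix.Norms.Frobenius

namespace Crest.Agent.R332

open Crest.MathPhysics.LiebThirring

/-- the `i`-th column as an `m × 1` matrix -/
def colm {m : ℕ} (U : Matrix (Fin m) (Fin m) ℂ) (i : Fin m) : Matrix (Fin m) Unit ℂ :=
  Matrix.of fun l _ => U l i

namespace JointA

section alg
variable {n k l : Type*} [Fintype n] [DecidableEq n] [Fintype k] [DecidableEq k]
  [Fintype l] [DecidableEq l]

lemma comm_le {M K V : Matrix n n ℂ} {c p : ℝ} (hp : 0 ≤ p) (hc : 0 ≤ c)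
    (h1 : (c • (1 : Matrix n n ℂ) - M).PosSemidef) (h2 : (c • (1 : Matrix n n ℂ) + M).PosSemidef) :
    ‖M * V - V * M‖ ≤ p * ‖K * M - M * K‖ + 2 * c * ‖V - p • (K - M * M)‖ := by
  have e : M * V - V * M = -(p • (K * M - M * K)) +
      (M * (V - p • (K - M * M)) - (V - p • (K - M * M)) * M) := by
    simp only [Matrix.mul_sub, Matrix.sub_mul, Matrix.mul_smul, Matrix.smul_mul, smul_sub,
      Matrix.mul_assoc]
    abel
  have a1 := norm_mul_le_of_bound h1 h2 hc (V - p • (K - M * M))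
  have a2 := norm_mul_le_of_bound' h1 h2 hc (V - p • (K - M * M))
  have a3 := norm_sub_le (M * (V - p • (K - M * M))) ((V - p • (K - M * M)) * M)
  rw [e]
  refine (norm_add_le _ _).trans ?_
  rw [norm_neg, norm_smul, Real.norm_of_nonneg hp]
  linarith

lemma comm_B_le {M V : Matrix n n ℂ} {G : Matrix n k ℂ} {R : Matrix k k ℂ} (hV : V.IsHermitian)
    (hR : R.IsHermitian) (h : V * G = G * R) :
    ‖Gᴴ * M * G * R - R * (Gᴴ * M * G)‖ ≤ ‖G‖ * ‖M * V - V * M‖ * ‖G‖ := by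
  have h' : Gᴴ * V = R * Gᴴ := by
    have := congrArg conjTranspose h
    rwa [conjTranspose_mul, conjTranspose_mul, hV.eq, hR.eq] at this
  have e : Gᴴ * M * G * R - R * (Gᴴ * M * G) = Gᴴ * (M * V - V * M) * G := by
    rw [Matrix.mul_sub, Matrix.sub_mul, ← Matrix.mul_assoc Gᴴ V, h']
    simp only [Matrix.mul_assoc, h]
  rw [e]
  refine (norm_mul_le' _ _).trans (mul_le_mul_of_nonneg_right ?_ (norm_nonneg _))
  simpa using norm_mul_le' Gᴴ (M * V - V * M)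

lemma eig_le {M V : Matrix n n ℂ} {G : Matrix n k ℂ} {R P : Matrix k k ℂ} {c : ℝ} (hc : 0 ≤ c)
    (h1 : (c • (1 : Matrix n n ℂ) - M).PosSemidef) (h2 : (c • (1 : Matrix n n ℂ) + M).PosSemidef)
    (h : V * G = G * R) (hV : V = G * P * Gᴴ) (e : Matrix k l ℂ) {ω : ℝ} (hω : 0 < ω) (μ : ℝ) :
    ‖M * (G * e) - μ • (G * e)‖ ≤ ω⁻¹ * (c * (‖G‖ * ‖ω • e - R * e‖) +
      ‖M * V - V * M‖ * (‖G‖ * ‖e‖) + ‖G‖ * ‖P * (Gᴴ * M * G) * e - (ω * μ) • e‖) := by
  have h3 : V * (G * e) = G * (R * e) := by rw [← Matrix.mul_assoc, h, Matrix.mul_assoc]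
  have h4 : V * (M * (G * e)) = G * (P * (Gᴴ * M * G) * e) := by
    rw [hV]; simp only [Matrix.mul_assoc]
  have e1 : ω • (M * (G * e) - μ • (G * e)) = M * (G * (ω • e - R * e)) +
      (M * V - V * M) * (G * e) + G * (P * (Gᴴ * M * G) * e - (ω * μ) • e) := by
    rw [Matrix.sub_mul, Matrix.mul_assoc M V, Matrix.mul_assoc V M, h3, h4]
    simp only [Matrix.mul_sub, Matrix.mul_smul, smul_sub, smul_smul]
    abel
  have a1 := (norm_mul_le_of_bound h1 h2 hc (G * (ω • e - R * e))).trans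
    (mul_le_mul_of_nonneg_left (norm_mul_le' _ _) hc)
  have a2 := (norm_mul_le' (M * V - V * M) (G * e)).trans
    (mul_le_mul_of_nonneg_left (norm_mul_le' _ _) (norm_nonneg _))
  have a3 := norm_mul_le' G (P * (Gᴴ * M * G) * e - (ω * μ) • e)
  have a4 := norm_add₃_le (a := M * (G * (ω • e - R * e))) (b := (M * V - V * M) * (G * e))
    (c := G * (P * (Gᴴ * M * G) * e - (ω * μ) • e))
  rw [← e1, norm_smul, Real.norm_of_nonneg hω.le] at a4
  rw [← div_eq_inv_mul, le_div_iff₀' hω]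
  linarith

lemma eigK_le {M K V : Matrix n n ℂ} {G : Matrix n k ℂ} {R : Matrix k k ℂ} {c p : ℝ} (hp : 0 < p)
    (hc : 0 ≤ c)
    (h1 : (c • (1 : Matrix n n ℂ) - M).PosSemidef) (h2 : (c • (1 : Matrix n n ℂ) + M).PosSemidef)
    (h : V * G = G * R) (e : Matrix k l ℂ) (ω μ : ℝ) :
    ‖K * (G * e) - (μ ^ 2 + ω / p) • (G * e)‖ ≤ p⁻¹ * (‖G‖ * ‖ω • e - R * e‖ +
      ‖V - p • (K - M * M)‖ * (‖G‖ * ‖e‖)) + (c + |μ|) * ‖M * (G * e) - μ • (G * e)‖ := by
  have h3 : V * (G * e) = G * (R * e) := by rw [← Matrix.mul_assoc, h, Matrix.mul_assoc]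
  have e1 : K * (G * e) - (μ ^ 2 + ω / p) • (G * e) =
      p⁻¹ • (-(G * (ω • e - R * e)) - (V - p • (K - M * M)) * (G * e)) +
      (M * (M * (G * e) - μ • (G * e)) + μ • (M * (G * e) - μ • (G * e))) := by
    rw [Matrix.sub_mul, h3]
    simp only [Matrix.mul_sub, Matrix.sub_mul, Matrix.mul_smul, Matrix.smul_mul, smul_sub,
      smul_smul, smul_neg, inv_mul_cancel₀ hp.ne', one_smul, Matrix.mul_assoc, add_smul, sq,
      div_eq_inv_mul]
    abel
  have a1 := norm_mul_le' G (ω • e - R * e)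
  have a2 := (norm_mul_le' (V - p • (K - M * M)) (G * e)).trans
    (mul_le_mul_of_nonneg_left (norm_mul_le' _ _) (norm_nonneg _))
  have a3 := norm_mul_le_of_bound h1 h2 hc (M * (G * e) - μ • (G * e))
  rw [e1]
  refine (norm_add_le _ _).trans (add_le_add ?_ ?_)
  · rw [norm_smul, Real.norm_of_nonneg (inv_pos.2 hp).le]
    refine mul_le_mul_of_nonneg_left ((norm_sub_le _ _).trans ?_) (inv_pos.2 hp).le
    rw [norm_neg]; linarith
  · refine (norm_add_le _ _).trans ?_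
    rw [norm_smul, Real.norm_eq_abs]; linarith

end alg

lemma Diag.mul_colm {m : ℕ} {X U : Matrix (Fin m) (Fin m) ℂ} {d : Fin m → ℝ} (h : Diag X U d)
    (i : Fin m) : X * colm U i = d i • colm U i := by
  ext a b
  have := congrFun (congrFun h.mul_U a) i
  rw [mul_dg_apply] at this
  simp only [mul_apply, colm, of_apply, Matrix.smul_apply, Complex.real_smul] at this ⊢
  rw [this, mul_comm]

lemma tendsto_sq {u v : ℕ → ℝ} (hu : ∀ j, 0 ≤ u j) (h : ∀ j, u j ^ 2 ≤ v j)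
    (hv : Tendsto v atTop (𝓝 0)) : Tendsto u atTop (𝓝 0) := by
  have := (Real.continuous_sqrt.tendsto 0).comp hv
  rw [Real.sqrt_zero] at this
  exact squeeze_zero hu (fun j => Real.le_sqrt_of_sq_le (h j)) this

lemma tendsto_normG {β : ℝ} {m : ℕ} {W : ℝ → Matrix (Fin m) (Fin m) ℂ} {A : ℕ → Approx m β}
    {κb : ℝ} {D : ℝ → ℝ} {S : Set ℝ} (hA : Good W A κb D S) {x₀ : ℝ} (hx₀ : x₀ ∈ S) :
    Tendsto (fun j => ‖(A j).ψ x₀‖) atTop (𝓝 √(rt (pw (W x₀) β))) := by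
  have := (Real.continuous_sqrt.tendsto _).comp ((continuous_rt.tendsto _).comp (hA.rho x₀ hx₀))
  refine this.congr fun j => ?_
  simp only [Function.comp, Approx.rho]
  rw [← norm_sq_eq_rt, Real.sqrt_sq (norm_nonneg _)]

lemma core {β : ℝ} (h0 : 0 < β) (h1 : β < 1) {m : ℕ}
    {W : ℝ → Matrix (Fin m) (Fin m) ℂ} (hW : ∀ x, (W x).PosSemidef) {A : ℕ → Approx m β}
    {κb : ℝ} (hκb : 0 ≤ κb) {D : ℝ → ℝ} {S : Set ℝ} (hA : Good W A κb D S) {x₀ : ℝ}
    (hx₀ : x₀ ∈ S) {B : Matrix (Fin m) (Fin m) ℂ}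
    (hB : Tendsto (fun j => ((A j).ψ x₀)ᴴ * (A j).M x₀ * (A j).ψ x₀) atTop (𝓝 B)) :
    ∃ (U : Matrix (Fin m) (Fin m) ℂ) (ω μ : Fin m → ℝ),
      Diag (W x₀) U ω ∧ ∀ i, 0 < ω i →
        Tendsto (fun j => ‖(A j).M x₀ * ((A j).ψ x₀ * colm U i) -
          μ i • ((A j).ψ x₀ * colm U i)‖) atTop (𝓝 0) ∧
        Tendsto (fun j => ‖(A j).K2 * ((A j).ψ x₀ * colm U i) -
          (μ i ^ 2 + ω i / (1 + 1 / β)) • ((A j).ψ x₀ * colm U i)‖) atTop (𝓝 0) := by
  have hr : 0 < 1 / β := by positivity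
  have hr1 : 0 ≤ 1 / β - 1 := by
    rw [sub_nonneg, le_div_iff₀ h0]; linarith
  have hp : 0 < 1 + 1 / β := by positivity
  have hup := fun j => bound_of_up (hA.hκ j) ((A j).up x₀)
  have hlo := fun j => bound_of_lo (hA.hκ j) ((A j).lo x₀)
  have hρ := hA.rho x₀ hx₀
  have hρh : ∀ j, ((A j).rho x₀).IsHermitian := fun j => ((A j).rho_psd x₀).1
  have hWβ : (pw (W x₀) β).IsHermitian := (pw_psd (hW x₀) β).1
  have hR : Tendsto (fun j => pw ((A j).rho x₀) (1 / β)) atTop (𝓝 (W x₀)) := by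
    have := tendsto_pw hr.le hρ hρh hWβ
    rwa [pw_pw (hW x₀), mul_one_div_cancel h0.ne', pw_one (hW x₀).1] at this
  have hP : Tendsto (fun j => pw ((A j).rho x₀) (1 / β - 1)) atTop (𝓝 (pw (W x₀) (1 - β))) := by
    have := tendsto_pw hr1 hρ hρh hWβ
    rwa [pw_pw (hW x₀), mul_sub, mul_one_div_cancel h0.ne', mul_one] at this
  have hVG : ∀ j, (A j).V x₀ * (A j).ψ x₀ = (A j).ψ x₀ * pw ((A j).rho x₀) (1 / β) :=
    fun j => pot_mul h0 h1 _
  have hG := tendsto_normG hA hx₀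
  have hq := hA.q x₀ hx₀
  have hV : Tendsto (fun j => rt ((A j).V x₀)) atTop (𝓝 (rt (W x₀))) :=
    ((continuous_rt.tendsto _).comp hR).congr fun j => (rt_pot h0 h1 _).symm
  have hC : Tendsto (fun j => ‖(A j).K2 * (A j).M x₀ - (A j).M x₀ * (A j).K2‖) atTop (𝓝 0) :=
    tendsto_sq (fun j => norm_nonneg _) (fun j => le_add_of_nonneg_right (by positivity)) hq
  have hΔ : Tendsto (fun j => ‖(A j).V x₀ - (1 + 1 / β) • ((A j).K2 - (A j).M x₀ * (A j).M x₀)‖)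
      atTop (𝓝 0) := by
    have h2 := hq.mul ((hV.const_add 1).pow 2)
    rw [zero_mul] at h2
    refine tendsto_sq (fun j => norm_nonneg _) (fun j => ?_) h2
    have h3 : 0 < (1 + rt ((A j).V x₀)) ^ 2 := by
      have := rt_nonneg (pot_psd β ((A j).ψ x₀))
      change 0 ≤ rt ((A j).V x₀) at this
      positivity
    rw [← div_le_iff₀ h3]
    exact le_add_of_nonneg_left (sq_nonneg _)
  have hE : Tendsto (fun j => ‖(A j).M x₀ * (A j).V x₀ - (A j).V x₀ * (A j).M x₀‖) atTop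
      (𝓝 0) := by
    have h2 := (hC.const_mul (1 + 1 / β)).add (hΔ.const_mul (2 * κb))
    rw [mul_zero, mul_zero, add_zero] at h2
    exact squeeze_zero (fun j => norm_nonneg _) (fun j => comm_le hp.le hκb (hup j) (hlo j)) h2
  have hBh : B.IsHermitian := by
    refine tendsto_nhds_unique ((continuous_id.matrix_conjTranspose.tendsto B).comp hB)
      (hB.congr fun j => ?_)
    exact (isHermitian_conjTranspose_mul_mul _ (herm_of_up ((A j).up x₀))).eq.symm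
  have hBW : W x₀ * B = B * W x₀ := by
    have h2 := ((hB.mul hR).sub (hR.mul hB)).norm
    have h3 := (hG.mul hE).mul hG
    rw [mul_zero, zero_mul] at h3
    have h4 := squeeze_zero (fun j => norm_nonneg _) (fun j => comm_B_le (M := (A j).M x₀)
      (pot_psd β _).1 (pw_psd ((A j).rho_psd x₀) _).1 (hVG j)) h3
    exact (sub_eq_zero.1 (norm_eq_zero.1 (tendsto_nhds_unique h2 h4))).symm
  obtain ⟨U, ω, b, hU, hb⟩ := joint_diag (hW x₀).1 hBh hBW
  refine ⟨U, ω, fun i => b i * ω i ^ (-β), hU, fun i hi => ?_⟩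
  have hmul : Continuous fun X : Matrix (Fin m) (Fin m) ℂ => X * colm U i :=
    continuous_id.matrix_mul continuous_const
  have ha : Tendsto (fun j => ‖ω i • colm U i - pw ((A j).rho x₀) (1 / β) * colm U i‖) atTop
      (𝓝 0) := by
    have := (((hmul.tendsto _).comp hR).const_sub (ω i • colm U i)).norm
    rwa [Diag.mul_colm hU, sub_self, norm_zero] at this
  have hb' : Tendsto (fun j => ‖pw ((A j).rho x₀) (1 / β - 1) *
      (((A j).ψ x₀)ᴴ * (A j).M x₀ * (A j).ψ x₀) * colm U i -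
        (ω i * (b i * ω i ^ (-β))) • colm U i‖) atTop (𝓝 0) := by
    have := (((hmul.tendsto _).comp (hP.mul hB)).sub_const
      ((ω i * (b i * ω i ^ (-β))) • colm U i)).norm
    have e : ω i * (b i * ω i ^ (-β)) = ω i ^ (1 - β) * b i := by
      rw [sub_eq_add_neg, Real.rpow_add hi, Real.rpow_one]; ring
    rwa [Diag.mul_colm ((hU.pw (1 - β)).mul hb), ← e, sub_self, norm_zero] at this
  have hM : Tendsto (fun j => ‖(A j).M x₀ * ((A j).ψ x₀ * colm U i) -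
      (b i * ω i ^ (-β)) • ((A j).ψ x₀ * colm U i)‖) atTop (𝓝 0) := by
    have h2 := ((((hG.mul ha).const_mul κb).add (hE.mul (hG.mul_const ‖colm U i‖))).add
      (hG.mul hb')).const_mul (ω i)⁻¹
    simp only [mul_zero, zero_mul, add_zero] at h2
    exact squeeze_zero (fun j => norm_nonneg _)
      (fun j => eig_le hκb (hup j) (hlo j) (hVG j) rfl _ hi _) h2
  refine ⟨hM, ?_⟩
  have h2 := (((hG.mul ha).add (hΔ.mul (hG.mul_const ‖colm U i‖))).const_mul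
    (1 + 1 / β)⁻¹).add (hM.const_mul (κb + |b i * ω i ^ (-β)|))
  simp only [mul_zero, zero_mul, add_zero] at h2
  exact squeeze_zero (fun j => norm_nonneg _)
    (fun j => eigK_le hp hκb (hup j) (hlo j) (hVG j) _ _ _) h2

end JointA

open JointA in
theorem joint_approx {β : ℝ} (h0 : 0 < β) (h1 : β < 1) {m : ℕ}
    {W : ℝ → Matrix (Fin m) (Fin m) ℂ} (hW : ∀ x, (W x).PosSemidef) {A : ℕ → Approx m β}
    {κb : ℝ} (hκb : 0 ≤ κb) {D : ℝ → ℝ} {S : Set ℝ} (hA : Good W A κb D S) {x₀ : ℝ}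
    (hx₀ : x₀ ∈ S) :
    ∃ (s : ℕ → ℕ) (U : Matrix (Fin m) (Fin m) ℂ) (ω μ : Fin m → ℝ), StrictMono s ∧
      Diag (W x₀) U ω ∧ ∀ i, 0 < ω i →
        Tendsto (fun j => ‖(A (s j)).M x₀ * ((A (s j)).ψ x₀ * colm U i) -
          μ i • ((A (s j)).ψ x₀ * colm U i)‖) atTop (𝓝 0) ∧
        Tendsto (fun j => ‖(A (s j)).K2 * ((A (s j)).ψ x₀ * colm U i) -
          (μ i ^ 2 + ω i / (1 + 1 / β)) • ((A (s j)).ψ x₀ * colm U i)‖) atTop (𝓝 0) := by
  have : ProperSpace (Matrix (Fin m) (Fin m) ℂ) := FiniteDimensional.proper_rclike ℝ _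
  obtain ⟨C, hC⟩ := (tendsto_normG hA hx₀).bddAbove_range
  have hC' : ∀ j, ‖(A j).ψ x₀‖ ≤ C := fun j => hC ⟨j, rfl⟩
  have hC0 : 0 ≤ C := (norm_nonneg _).trans (hC' 0)
  have hb : ∀ j, ((A j).ψ x₀)ᴴ * (A j).M x₀ * (A j).ψ x₀ ∈
      Metric.closedBall (0 : Matrix (Fin m) (Fin m) ℂ) (κb * C * C) := by
    intro j
    rw [mem_closedBall_zero_iff]
    refine (norm_mul_le' _ _).trans (mul_le_mul ?_ (hC' j) (norm_nonneg _) (by positivity))
    refine (norm_mul_le_of_bound' (bound_of_up (hA.hκ j) ((A j).up x₀))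
      (bound_of_lo (hA.hκ j) ((A j).lo x₀)) hκb _).trans ?_
    rw [frobenius_norm_conjTranspose]
    exact mul_le_mul_of_nonneg_left (hC' j) hκb
  obtain ⟨B, -, s, hs, hB⟩ := tendsto_subseq_of_bounded Metric.isBounded_closedBall hb
  obtain ⟨U, ω, μ, h⟩ := core h0 h1 hW hκb (hA.subseq hs) hx₀ hB
  exact ⟨s, U, ω, μ, hs, h⟩

end Crest.Agent.R332
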