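import Crest.Agent.R332.Defs

/-! Row 332, task Scalar: one-dimensional integrals and the constant.

* `bb`: scaling `λ = s u` gives `∫_{λ>0} λ^(β-1) s/(s+λ) = bb β * s^β`
  (cf. `Real.rpowIntegrand₀₁`, `Real.rpow_eq_const_mul_integral`); the tails are bounded by
  `∫_0^{l} λ^(β-1) = l^β/β` and `∫_L^∞ s λ^(β-2) = s L^(β-1)/(1-β)`.
* `w - λ log(1 + w/λ) = ∫_0^w s/(s+λ) ds`; swap the integrals.
* `Bc`: `t = 2u - 1`, `Complex.betaIntegral`, `Complex.Gamma_mul_Gamma_eq_betaIntegral`,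
  duplication `Real.Gamma_mul_Gamma_add_half`: `Bc β = √π Γ(β+1)/Γ(β+3/2)`.
* `soliton`: `F(x) = ∫_0^{tanh(r a (x-c))} (1-t²)^β dt` has derivative `r a sech^(2+2β)`;
  `integral_of_hasDerivAt_of_tendsto`, `integrable_of_hasDerivAt_of_nonneg`-type lemmas. -/

set_option autoImplicit false
set_option linter.unusedSectionVars false

open Matrix Filter Topology MeasureTheory
open scoped ComplexOrder Matrix.Norms.Frobenius

namespace Crest.Agent.R332


open Crest.MathPhysics.LiebThirring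

namespace ScalarA

lemma bb_eq {β : ℝ} (h0 : 0 < β) (h1 : β < 1) :
    bb β = ∫ t in Set.Ioi (0 : ℝ), Real.rpowIntegrand₀₁ β t 1 := by
  refine setIntegral_congr_fun measurableSet_Ioi fun t ht => ?_
  rw [Real.rpowIntegrand₀₁_eq_pow_div ⟨h0, h1⟩ (le_of_lt ht) zero_le_one, mul_one, add_comm]

lemma eqOn {β : ℝ} (h0 : 0 < β) (h1 : β < 1) {s : ℝ} (hs : 0 ≤ s) :
    Set.EqOn (fun t => Real.rpowIntegrand₀₁ β t s) (fun lam => lam ^ (β - 1) * (s / (s + lam)))
      (Set.Ioi 0) := fun t ht => by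
  simp only
  rw [Real.rpowIntegrand₀₁_eq_pow_div ⟨h0, h1⟩ (le_of_lt ht) hs, mul_div_assoc, add_comm]

lemma intOn {β : ℝ} (h0 : 0 < β) (h1 : β < 1) {s : ℝ} (hs : 0 ≤ s) :
    IntegrableOn (fun lam : ℝ => lam ^ (β - 1) * (s / (s + lam))) (Set.Ioi 0) :=
  (Real.integrableOn_rpowIntegrand₀₁_Ioi ⟨h0, h1⟩ hs).congr_fun (eqOn h0 h1 hs) measurableSet_Ioi

lemma full {β : ℝ} (h0 : 0 < β) (h1 : β < 1) {s : ℝ} (hs : 0 ≤ s) :
    ∫ lam in Set.Ioi (0 : ℝ), lam ^ (β - 1) * (s / (s + lam)) = bb β * s ^ β := by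
  rw [← setIntegral_congr_fun measurableSet_Ioi (eqOn h0 h1 hs),
    Real.integral_rpowIntegrand₀₁_eq_rpow_mul_const ⟨h0, h1⟩ hs, bb_eq h0 h1, mul_comm]

lemma cont_B {β : ℝ} (h0 : 0 < β) : Continuous fun t : ℝ => (1 - t ^ 2) ^ β :=
  Continuous.rpow_const (by fun_prop) fun _ => Or.inr h0.le

lemma Bc_eq {β : ℝ} (h0 : 0 < β) :
    Bc β = Real.sqrt Real.pi * Real.Gamma (β + 1) / Real.Gamma (β + 3 / 2) := by
  have h1 : Bc β = 2 * (4 ^ β * ∫ u in (0 : ℝ)..1, u ^ β * (1 - u) ^ β) := by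
    have h := intervalIntegral.integral_comp_mul_add (a := 0) (b := 1) (c := 2)
      (fun t : ℝ => (1 - t ^ 2) ^ β) two_ne_zero (-1)
    norm_num at h
    rw [← intervalIntegral.integral_const_mul,
      intervalIntegral.integral_congr (g := fun u => (1 - (2 * u + -1) ^ 2) ^ β), h, Bc]
    · ring
    · intro u hu
      rw [Set.uIcc_of_le zero_le_one] at hu
      have h2 := hu.1
      have h3 : 0 ≤ 1 - u := by linarith [hu.2]
      simp only
      rw [← Real.mul_rpow h2 h3, ← Real.mul_rpow (by norm_num) (by positivity)]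
      congr 1
      ring
  have h2 : Complex.betaIntegral ((β + 1 : ℝ) : ℂ) ((β + 1 : ℝ) : ℂ) =
      ((∫ u in (0 : ℝ)..1, u ^ β * (1 - u) ^ β : ℝ) : ℂ) := by
    rw [Complex.betaIntegral, ← intervalIntegral.integral_ofReal]
    refine intervalIntegral.integral_congr fun u hu => ?_
    rw [Set.uIcc_of_le zero_le_one] at hu
    have h3 : 0 ≤ 1 - u := by linarith [hu.2]
    rw [Complex.ofReal_mul, Complex.ofReal_cpow hu.1, Complex.ofReal_cpow h3]
    push_cast
    rw [add_sub_cancel_right]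
  have h3 := Complex.Gamma_mul_Gamma_eq_betaIntegral (s := ((β + 1 : ℝ) : ℂ))
    (t := ((β + 1 : ℝ) : ℂ)) (by simp; linarith) (by simp; linarith)
  rw [h2, ← Complex.ofReal_add, Complex.Gamma_ofReal, Complex.Gamma_ofReal] at h3
  have h4 : Real.Gamma (β + 1) * Real.Gamma (β + 1) =
      Real.Gamma (β + 1 + (β + 1)) * ∫ u in (0 : ℝ)..1, u ^ β * (1 - u) ^ β := by
    exact_mod_cast h3
  have h5 := Real.Gamma_mul_Gamma_add_half (β + 1)
  have e1 : β + 1 + 1 / 2 = β + 3 / 2 := by ring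
  have e2 : 2 * (β + 1) = β + 1 + (β + 1) := by ring
  have e3 : (2 : ℝ) ^ (1 - (β + 1 + (β + 1))) = (2 * 4 ^ β)⁻¹ := by
    have : (4 : ℝ) = 2 ^ (2 : ℝ) := by norm_num
    rw [this, ← Real.rpow_mul (by norm_num), ← Real.rpow_one_add' (by norm_num) (by linarith),
      ← Real.rpow_neg (by norm_num)]
    congr 1
    ring
  rw [e1, e2, e3] at h5
  have g1 : 0 < Real.Gamma (β + 1) := Real.Gamma_pos_of_pos (by linarith)
  have g2 : 0 < Real.Gamma (β + 3 / 2) := Real.Gamma_pos_of_pos (by linarith)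
  have g3 : 0 < Real.Gamma (β + 1 + (β + 1)) := Real.Gamma_pos_of_pos (by linarith)
  have h6 : ∫ u in (0 : ℝ)..1, u ^ β * (1 - u) ^ β =
      Real.Gamma (β + 1) * Real.Gamma (β + 1) / Real.Gamma (β + 1 + (β + 1)) := by
    rw [h4]; field_simp
  have h7 : Real.Gamma (β + 3 / 2) =
      Real.Gamma (β + 1 + (β + 1)) * (2 * 4 ^ β)⁻¹ * Real.sqrt Real.pi / Real.Gamma (β + 1) := by
    rw [← h5]; field_simp
  have h8 : 0 < Real.sqrt Real.pi := Real.sqrt_pos.2 Real.pi_pos
  rw [h1, h6, h7]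
  field_simp

lemma hasDerivAt_tanh (x : ℝ) : HasDerivAt Real.tanh (1 / Real.cosh x ^ 2) x := by
  have h := (Real.hasDerivAt_sinh x).fun_div (Real.hasDerivAt_cosh x) (Real.cosh_pos x).ne'
  have e : Real.tanh = fun y => Real.sinh y / Real.cosh y := funext Real.tanh_eq_sinh_div_cosh
  rw [e]
  refine h.congr_deriv ?_
  rw [← sq, ← sq, Real.cosh_sq_sub_sinh_sq]

lemma one_sub_tanh_sq (x : ℝ) : 1 - Real.tanh x ^ 2 = 1 / Real.cosh x ^ 2 := by
  have := (Real.cosh_pos x).ne'
  rw [Real.tanh_eq_sinh_div_cosh, div_pow, ← Real.cosh_sq_sub_sinh_sq x]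
  rw [Real.cosh_sq_sub_sinh_sq x]
  field_simp
  exact Real.cosh_sq_sub_sinh_sq x

lemma tendsto_tanh : Tendsto Real.tanh atTop (𝓝 1) := by
  have e : Real.tanh = fun x => (1 - Real.exp (-x) ^ 2) / (1 + Real.exp (-x) ^ 2) := by
    funext x
    have := Real.exp_pos x
    rw [Real.tanh_eq_sinh_div_cosh, Real.sinh_eq, Real.cosh_eq, Real.exp_neg]
    field_simp
  rw [e]
  have h := Real.tendsto_exp_neg_atTop_nhds_zero.pow 2
  have h2 := (h.const_sub 1).div (h.const_add 1) (by norm_num)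
  norm_num at h2
  exact h2

lemma tendsto_tanh_bot : Tendsto Real.tanh atBot (𝓝 (-1)) := by
  have h := (tendsto_tanh.comp tendsto_neg_atBot_atTop).neg
  refine h.congr fun x => ?_
  simp

lemma sech {β : ℝ} (h0 : 0 < β) {b : ℝ} (hb : 0 < b) (c : ℝ) :
    Integrable (fun x => b * (1 / Real.cosh (b * (x - c)) ^ 2) ^ (1 + β)) ∧
      ∫ x, b * (1 / Real.cosh (b * (x - c)) ^ 2) ^ (1 + β) = Bc β := by
  let G : ℝ → ℝ := fun y => ∫ t in (0 : ℝ)..y, (1 - t ^ 2) ^ β
  have hG : ∀ y, HasDerivAt G ((1 - y ^ 2) ^ β) y := fun y =>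
    ((cont_B h0).integral_hasStrictDerivAt 0 y).hasDerivAt
  have hGc : Continuous G := continuous_iff_continuousAt.2 fun y => (hG y).continuousAt
  have hF : ∀ x, HasDerivAt (fun x => G (Real.tanh (b * (x - c))))
      (b * (1 / Real.cosh (b * (x - c)) ^ 2) ^ (1 + β)) x := by
    intro x
    have h1 : HasDerivAt (fun x => b * (x - c)) b x := by
      simpa using ((hasDerivAt_id x).sub_const c).const_mul b
    refine ((hG _).comp x ((hasDerivAt_tanh _).comp x h1)).congr_deriv ?_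
    have := Real.cosh_pos (b * (x - c))
    rw [Function.comp_apply, one_sub_tanh_sq, Real.rpow_one_add' (by positivity) (by linarith)]
    ring
  have htop : Tendsto (fun x => G (Real.tanh (b * (x - c)))) atTop (𝓝 (G 1)) :=
    (hGc.tendsto 1).comp (tendsto_tanh.comp
      ((tendsto_atTop_add_const_right _ (-c) tendsto_id).const_mul_atTop hb))
  have hbot : Tendsto (fun x => G (Real.tanh (b * (x - c)))) atBot (𝓝 (G (-1))) :=
    (hGc.tendsto (-1)).comp (tendsto_tanh_bot.comp
      ((tendsto_atBot_add_const_right _ (-c) tendsto_id).const_mul_atBot hb))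
  have hc : Continuous fun x => b * (1 / Real.cosh (b * (x - c)) ^ 2) ^ (1 + β) := by
    refine continuous_const.mul (Continuous.rpow_const ?_ fun _ => Or.inr (by linarith))
    exact continuous_const.div (by fun_prop) fun x => (pow_pos (Real.cosh_pos _) 2).ne'
  have hint : Integrable (fun x => b * (1 / Real.cosh (b * (x - c)) ^ 2) ^ (1 + β)) := by
    refine integrable_of_intervalIntegral_norm_tendsto (l := atTop) (a := fun x : ℝ => -x)
      (b := fun x => x) (G 1 - G (-1)) (fun i => hc.integrableOn_Icc.mono_set Set.Ioc_subset_Icc_self)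
      tendsto_neg_atTop_atBot tendsto_id ?_
    refine (htop.sub (hbot.comp tendsto_neg_atTop_atBot)).congr fun x => ?_
    rw [intervalIntegral.integral_congr
      (g := fun x => b * (1 / Real.cosh (b * (x - c)) ^ 2) ^ (1 + β))
      (fun y _ => Real.norm_of_nonneg (by positivity)),
      intervalIntegral.integral_eq_sub_of_hasDerivAt (fun y _ => hF y) (hc.intervalIntegrable _ _)]
    rfl
  refine ⟨hint, ?_⟩
  rw [integral_of_hasDerivAt_of_tendsto hF hint hbot htop]
  exact intervalIntegral.integral_interval_sub_left ((cont_B h0).intervalIntegrable _ _)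
    ((cont_B h0).intervalIntegrable _ _)

lemma soliton_pow {β : ℝ} (h0 : 0 < β) {a : ℝ} (ha : 0 < a) (c x : ℝ) :
    soliton (1 / β) a c x ^ (1 + β) = ((1 / β + 1) * a ^ 2) ^ (1 + β) / (1 / β * a) *
      (1 / β * a * (1 / Real.cosh (1 / β * a * (x - c)) ^ 2) ^ (1 + β)) := by
  rw [soliton, div_eq_mul_one_div _ (_ ^ 2), Real.mul_rpow (by positivity) (by positivity)]
  field_simp

end ScalarA

open ScalarA

lemma bb_pos {β : ℝ} (h0 : 0 < β) (h1 : β < 1) : 0 < bb β := by
  rw [bb_eq h0 h1]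
  exact Real.integral_rpowIntegrand₀₁_one_pos ⟨h0, h1⟩

lemma int_le_bb {β : ℝ} (h0 : 0 < β) (h1 : β < 1) {s l L : ℝ} (hs : 0 ≤ s) (hl : 0 < l)
    (hL : l ≤ L) : ∫ lam in l..L, lam ^ (β - 1) * (s / (s + lam)) ≤ bb β * s ^ β := by
  rw [← full h0 h1 hs, intervalIntegral.integral_of_le hL]
  refine setIntegral_mono_set (intOn h0 h1 hs) ?_
    (Eventually.of_forall fun x hx => lt_trans hl hx.1)
  refine ae_restrict_of_forall_mem measurableSet_Ioi fun t ht => ?_
  have : 0 < t := ht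
  positivity

lemma bb_le_int {β : ℝ} (h0 : 0 < β) (h1 : β < 1) {s l L : ℝ} (hs : 0 ≤ s) (hl : 0 < l)
    (hL : l ≤ L) :
    bb β * s ^ β - l ^ β / β - s * L ^ (β - 1) / (1 - β) ≤
      ∫ lam in l..L, lam ^ (β - 1) * (s / (s + lam)) := by
  have hi := intOn h0 h1 hs
  have hL0 : 0 < L := lt_of_lt_of_le hl hL
  have i1 := hi.mono_set (Set.Ioc_subset_Ioi_self : Set.Ioc 0 l ⊆ Set.Ioi 0)
  have i2 := hi.mono_set (Set.Ioi_subset_Ioi hl.le)
  have i3 := i2.mono_set (Set.Ioc_subset_Ioi_self : Set.Ioc l L ⊆ Set.Ioi l)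
  have i4 := hi.mono_set (Set.Ioi_subset_Ioi hL0.le)
  rw [← full h0 h1 hs, intervalIntegral.integral_of_le hL, ← Set.Ioc_union_Ioi_eq_Ioi hl.le,
    setIntegral_union Set.Ioc_disjoint_Ioi_same measurableSet_Ioi i1 i2,
    ← Set.Ioc_union_Ioi_eq_Ioi hL,
    setIntegral_union Set.Ioc_disjoint_Ioi_same measurableSet_Ioi i3 i4]
  have b1 : ∫ lam in Set.Ioc 0 l, lam ^ (β - 1) * (s / (s + lam)) ≤ l ^ β / β := by
    have e : ∫ lam in Set.Ioc 0 l, lam ^ (β - 1) = l ^ β / β := by
      rw [← intervalIntegral.integral_of_le hl.le, integral_rpow (Or.inl (by linarith)),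
        sub_add_cancel, Real.zero_rpow h0.ne', sub_zero]
    rw [← e]
    refine setIntegral_mono_on i1 (intervalIntegral.intervalIntegrable_rpow' (by linarith)).1
      measurableSet_Ioc fun x hx => ?_
    have := hx.1
    exact mul_le_of_le_one_right (by positivity) (div_le_one_of_le₀ (by linarith) (by positivity))
  have b2 : ∫ lam in Set.Ioi L, lam ^ (β - 1) * (s / (s + lam)) ≤ s * L ^ (β - 1) / (1 - β) := by
    have e : ∫ lam in Set.Ioi L, s * lam ^ (β - 2) = s * L ^ (β - 1) / (1 - β) := by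
      rw [integral_const_mul, integral_Ioi_rpow_of_lt (by linarith) hL0]
      have : β - 2 + 1 = β - 1 := by ring
      have h2 : 1 - β ≠ 0 := by linarith
      have h3 : β - 1 ≠ 0 := by linarith
      rw [this]
      field_simp
      ring
    rw [← e]
    refine setIntegral_mono_on i4
      ((integrableOn_Ioi_rpow_of_lt (by linarith) hL0).const_mul s) measurableSet_Ioi
      fun x hx => ?_
    have hx0 : 0 < x := lt_trans hL0 hx
    have e2 : s * x ^ (β - 2) = x ^ (β - 1) * (s / x) := by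
      have : β - 2 = β - 1 - 1 := by ring
      rw [this, Real.rpow_sub_one hx0.ne' (β - 1)]
      ring
    rw [e2]
    gcongr
    linarith
  linarith

lemma int_log_le_bb {β : ℝ} (h0 : 0 < β) (h1 : β < 1) {w l L : ℝ} (hw : 0 ≤ w) (hl : 0 < l)
    (hL : l ≤ L) :
    ∫ lam in l..L, lam ^ (β - 1) * (w - lam * Real.log (1 + w / lam)) ≤
      bb β * w ^ (1 + β) / (1 + β) := by
  have e1 : ∀ lam ∈ Set.Ioc l L, lam ^ (β - 1) * (w - lam * Real.log (1 + w / lam)) =
      ∫ s in Set.Ioc 0 w, lam ^ (β - 1) * (s / (s + lam)) := by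
    intro lam hlam
    have h2 : 0 < lam := lt_trans hl hlam.1
    rw [integral_const_mul, ← intervalIntegral.integral_of_le hw,
      intervalIntegral.integral_eq_sub_of_hasDerivAt
        (f := fun s => s - lam * Real.log (1 + s / lam))]
    · simp
    · intro s hs
      rw [Set.uIcc_of_le hw] at hs
      have h3 := hs.1
      have h4 := (((hasDerivAt_id s).div_const lam).const_add 1).log
        (by simp only [id]; positivity)
      refine ((hasDerivAt_id s).sub (h4.const_mul lam)).congr_deriv ?_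
      simp only [id]
      field_simp
      ring
    · refine ContinuousOn.intervalIntegrable ?_
      rw [Set.uIcc_of_le hw]
      exact continuousOn_id.div (by fun_prop) fun s hs => by have := hs.1; positivity
  have hint : Integrable (Function.uncurry fun lam s : ℝ => lam ^ (β - 1) * (s / (s + lam)))
      ((volume.restrict (Set.Ioc l L)).prod (volume.restrict (Set.Ioc 0 w))) := by
    rw [Measure.prod_restrict]
    refine IntegrableOn.mono_set (t := Set.Icc l L ×ˢ Set.Icc 0 w) ?_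
      (Set.prod_mono Set.Ioc_subset_Icc_self Set.Ioc_subset_Icc_self)
    refine ContinuousOn.integrableOn_compact (isCompact_Icc.prod isCompact_Icc) ?_
    refine ContinuousOn.mul (continuousOn_fst.rpow_const fun q hq => Or.inl ?_)
      (continuousOn_snd.div (by fun_prop) fun q hq => ?_)
    · exact (lt_of_lt_of_le hl hq.1.1).ne'
    · have h2 := lt_of_lt_of_le hl hq.1.1
      have h3 := hq.2.1
      positivity
  rw [intervalIntegral.integral_of_le hL, setIntegral_congr_fun measurableSet_Ioc e1,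
    integral_integral_swap hint]
  have e2 : ∫ s in Set.Ioc 0 w, bb β * s ^ β = bb β * w ^ (1 + β) / (1 + β) := by
    rw [integral_const_mul, ← intervalIntegral.integral_of_le hw,
      integral_rpow (Or.inl (by linarith)), Real.zero_rpow (by linarith), sub_zero, add_comm β 1,
      mul_div_assoc]
  rw [← e2]
  refine setIntegral_mono_on hint.integral_prod_right
    ((intervalIntegral.intervalIntegrable_rpow' (by linarith)).1.const_mul _) measurableSet_Ioc
    fun s hs => ?_
  rw [← intervalIntegral.integral_of_le hL]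
  exact int_le_bb h0 h1 hs.1.le hl hL

lemma Bc_pos {β : ℝ} (h0 : 0 < β) : 0 < Bc β := by
  rw [Bc_eq h0]
  have g1 : 0 < Real.Gamma (β + 1) := Real.Gamma_pos_of_pos (by linarith)
  have g2 : 0 < Real.Gamma (β + 3 / 2) := Real.Gamma_pos_of_pos (by linarith)
  have := Real.pi_pos
  positivity

lemma Lc_pos {β : ℝ} (h0 : 0 < β) : 0 < Lc β := by
  have := Bc_pos h0
  unfold Lc
  positivity

lemma sharpConst_eq {β : ℝ} (h0 : 0 < β) : sharpConst (β + 1 / 2) = Lc β := by
  have e1 : β + 1 / 2 - 1 / 2 = β := by ring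
  have e2 : β + 1 / 2 + 1 / 2 = β + 1 := by ring
  have e3 : β + 1 / 2 + 1 = β + 3 / 2 := by ring
  have e4 : β + 1 / 2 + 3 / 2 = β + 1 + 1 := by ring
  have e5 : (1 + 1 / β) ^ (-(1 + β)) = β / (β + 1) * (β / (β + 1)) ^ β := by
    rw [Real.rpow_neg (by positivity), ← Real.inv_rpow (by positivity),
      Real.rpow_one_add' (by positivity) (by linarith)]
    have : (1 + 1 / β)⁻¹ = β / (β + 1) := by field_simp
    rw [this]
  rw [sharpConst, Lc, Bc_eq h0, e1, e2, e3, e4, e5, Real.Gamma_add_one (s := β + 1) (by linarith)]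
  have g1 : 0 < Real.Gamma (β + 1) := Real.Gamma_pos_of_pos (by linarith)
  have g2 : 0 < Real.Gamma (β + 3 / 2) := Real.Gamma_pos_of_pos (by linarith)
  have h8 : 0 < Real.sqrt Real.pi := Real.sqrt_pos.2 Real.pi_pos
  field_simp

lemma soliton_nonneg {β : ℝ} (h0 : 0 < β) (a c x : ℝ) : 0 ≤ soliton (1 / β) a c x := by
  unfold soliton
  positivity

lemma integrable_soliton {β : ℝ} (h0 : 0 < β) {a : ℝ} (ha : 0 ≤ a) (c : ℝ) :
    Integrable fun x => soliton (1 / β) a c x ^ (1 + β) := by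
  rcases ha.eq_or_lt with rfl | ha
  · have : (1 + β) ≠ 0 := by linarith
    simp [soliton, Real.zero_rpow this]
  simp only [soliton_pow h0 ha]
  exact (sech h0 (by positivity) c).1.const_mul _

lemma integral_soliton {β : ℝ} (h0 : 0 < β) {a : ℝ} (ha : 0 ≤ a) (c : ℝ) :
    Lc β * ∫ x, soliton (1 / β) a c x ^ (1 + β) = a ^ (1 + 2 * β) := by
  rcases ha.eq_or_lt with rfl | ha
  · have : (1 + β) ≠ 0 := by linarith
    have h2 : (1 + 2 * β) ≠ 0 := by linarith
    simp [soliton, Real.zero_rpow this, Real.zero_rpow h2]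
  simp only [soliton_pow h0 ha]
  rw [integral_const_mul, (sech h0 (by positivity) c).2, Lc, Real.rpow_neg (by positivity),
    Real.mul_rpow (by positivity) (by positivity), add_comm (1 / β) 1]
  have e : (a ^ 2) ^ (1 + β) = a * a ^ (1 + 2 * β) := by
    rw [← Real.rpow_natCast, ← Real.rpow_mul ha.le, ← Real.rpow_one_add' ha.le (by linarith)]
    congr 1
    push_cast
    ring
  have h1 := Bc_pos h0
  have h2 : 0 < (1 + 1 / β) ^ (1 + β) := by positivity
  rw [e]
  field_simp

end Crest.Agent.R332
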