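import Crest.Agent.R332.PW
import Crest.Agent.R332.Scalar

/-! Row 332, task Lam: integration in `λ` at a fixed point.
`r = 1/β`, `K = dg κ`, `S = K² - M²`, `V = G Gᴴ`, `w = V/(1+r)`, `M' = S - V`, `D = dg (kl κ λ)`
(`D² = K² + λ`, `D ± M = (D - K) + (K ± M)` positive definite), `T = trT (kl κ λ) M`, `B = w + λ`,
`Gλ = ld(D-M) + ld(D+M)`, `Gλ' = rt(((D-M)⁻¹ + (D+M)⁻¹) (2D)⁻¹)` its `λ`-derivative
(`hasDerivAt_ld`, `dD/dλ = (2D)⁻¹`), `g = Gλ - N log λ`.  Linearity of `T` gives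
`-rt M' + λ T(M') = (1+r) rt w - (1+r) λ T(B) + r λ² T(1) + λ T(D²-M²) - rt S`, hence with
`δ₁ = N - T(D²-M²) ≥ 0` (`pw_i`), `δ₂ = T(B) - N - ld B + Gλ ≥ 0` (`pw_ii`) and `pw_iii`:
`-rt M' + λ T(M') + λ δ₁ + (1+r) λ δ₂ ≤ (1+r)[rt w - λ(ld B - N log λ)] + E`,
`E = (1+r) λ g + r λ² g' - rt S`.  `λ^(β-1) E = F'`, `F = r [λ^(1+β) g - λ^β rt S]`,
`F(L) ≤ 0` by `pw_iv` (`c = λ`), `-F(l) ≤ N err` since `rt S ≤ N κb²` and
`ld(D ± M) ≥ ld(D - K) = Σ log(l/(d_i+κ_i)) ≥ N log(l/(2√(κb²+l)))` (`ld_mono`).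
`ld B - N log λ = log det(1 + GGᴴ/((1+r)λ)) = log det(1 + GᴴG/((1+r)λ)) = Σ_j log(1 + w_j/λ)`
(`Matrix.det_one_add_mul_comm`, `w_j` = eigenvalues of `GᴴG/(1+r)`), then `int_log_le_bb`.
On `λ ∈ [κb²+1, κb²+2]`: `db = √(2κb²+2)`, `b₀ = 1`, `σ = db²(1 + rt V)`, `B - (D²-M²) = w - S`,
`‖K²M - MK²‖ ≤ 2 db ‖DM - MD‖` (entrywise, or `K²M - MK² = D(DM-MD) + (DM-MD)D`), so
`qd ≤ C (δ₁ + δ₂)` with `C = C(β, κb)` (`pw_i`, `pw_def`), and `λ^β ≥ 1` there. -/

set_option autoImplicit false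
set_option linter.unusedSectionVars false

open Matrix Filter Topology MeasureTheory
open scoped ComplexOrder Matrix.Norms.Frobenius

namespace Crest.Agent.R332

variable {n k : Type*} [Fintype n] [DecidableEq n] [Fintype k] [DecidableEq k]

lemma kl_pos (κ : n → ℝ) {lam : ℝ} (h : 0 < lam) (i : n) : 0 < kl κ lam i :=
  Real.sqrt_pos.mpr (by positivity)

lemma kl_sq (κ : n → ℝ) {lam : ℝ} (h : 0 < lam) (i : n) :
    kl κ lam i * kl κ lam i = κ i ^ 2 + lam :=
  Real.mul_self_sqrt (by positivity)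

lemma lt_kl {κ : n → ℝ} (h0 : ∀ i, 0 ≤ κ i) {lam : ℝ} (h : 0 < lam) (i : n) : κ i < kl κ lam i :=
  (Real.lt_sqrt (h0 i)).mpr (by linarith)

lemma kl_sub_posDef {κ : n → ℝ} (h0 : ∀ i, 0 ≤ κ i) {M : Matrix n n ℂ}
    (h : (dg κ - M).PosSemidef) {lam : ℝ} (hl : 0 < lam) : (dg (kl κ lam) - M).PosDef := by
  have e : dg (kl κ lam) - M = (dg (kl κ lam) - dg κ) + (dg κ - M) := by abel
  rw [e, dg_sub]
  exact (dg_posDef fun i => sub_pos.mpr (lt_kl h0 hl i)).add_posSemidef h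

lemma kl_add_posDef {κ : n → ℝ} (h0 : ∀ i, 0 ≤ κ i) {M : Matrix n n ℂ}
    (h : (dg κ + M).PosSemidef) {lam : ℝ} (hl : 0 < lam) : (dg (kl κ lam) + M).PosDef := by
  have := kl_sub_posDef h0 (M := -M) (by rwa [sub_neg_eq_add]) hl
  rwa [sub_neg_eq_add] at this

lemma dg_kl_sq (κ : n → ℝ) {lam : ℝ} (h : 0 < lam) :
    dg (kl κ lam) * dg (kl κ lam) = dg κ * dg κ + lam • (1 : Matrix n n ℂ) := by
  rw [dg_mul_dg, dg_mul_dg, ← dg_const, dg_add]
  congr 1; ext i; rw [kl_sq κ h, sq]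

lemma continuous_dg : Continuous (dg : (n → ℝ) → Matrix n n ℂ) := by
  refine continuous_matrix fun i j => ?_
  simp only [dg_apply]
  split_ifs <;> fun_prop

/-- clamp to `[-1,1]` -/
noncomputable def cl (t : ℝ) : ℝ := max (-1) (min t 1)

lemma cl_mem (t : ℝ) : cl t ∈ Set.Icc (-1 : ℝ) 1 :=
  ⟨le_max_left _ _, max_le (by norm_num) (min_le_right _ _)⟩

lemma cl_of_mem {t : ℝ} (h : t ∈ Set.Icc (-1 : ℝ) 1) : cl t = t := by
  rw [cl, min_eq_left h.2, max_eq_right h.1]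

lemma continuous_cl : Continuous cl := by unfold cl; fun_prop

lemma trT_eq_cl (d : n → ℝ) (M X : Matrix n n ℂ) :
    trT d M X = (1 / 2) * ∫ t in (-1 : ℝ)..1, rt (res d M (cl t) * res d M (cl t) * X) := by
  rw [trT]
  congr 1
  refine intervalIntegral.integral_congr fun t ht => ?_
  rw [Set.uIcc_of_le (by norm_num)] at ht
  simp only [cl_of_mem ht]

lemma continuous_res_cl {Z : Type*} [TopologicalSpace Z] {d : Z → n → ℝ} {M : Z → Matrix n n ℂ}
    (hd : Continuous d) (hM : Continuous M) (h1 : ∀ z, (dg (d z) - M z).PosDef)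
    (h2 : ∀ z, (dg (d z) + M z).PosDef) :
    Continuous fun p : Z × ℝ => res (d p.1) (M p.1) (cl p.2) := by
  rw [← continuousOn_univ]
  refine ContinuousOn.minv (X := fun p : Z × ℝ => dg (d p.1) - cl p.2 • M p.1)
    (Continuous.continuousOn ?_) fun p _ => PWA.unit_det (res_posDef (h1 _) (h2 _) (cl_mem _))
  exact (continuous_dg.comp (hd.comp continuous_fst)).sub
    ((continuous_cl.comp continuous_snd).smul (hM.comp continuous_fst))

lemma continuous_trT {Z : Type*} [TopologicalSpace Z] {d : Z → n → ℝ} {M X : Z → Matrix n n ℂ}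
    (hd : Continuous d) (hM : Continuous M) (hX : Continuous X)
    (h1 : ∀ z, (dg (d z) - M z).PosDef) (h2 : ∀ z, (dg (d z) + M z).PosDef) :
    Continuous fun z => trT (d z) (M z) (X z) := by
  simp only [trT_eq_cl]
  refine continuous_const.mul
    (intervalIntegral.continuous_parametric_intervalIntegral_of_continuous' ?_ _ _)
  have := continuous_res_cl hd hM h1 h2
  exact continuous_rt.comp ((this.mul this).mul (hX.comp continuous_fst))

/-- the boundary error -/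
noncomputable def err (β κb l : ℝ) : ℝ :=
  (1 / β) * (l ^ β * κb ^ 2 + l ^ (1 + β) * Real.log (4 * (κb ^ 2 + l) / l))

namespace LamA

lemma continuous_kl (κ : n → ℝ) : Continuous (kl κ) := by
  unfold kl; fun_prop

lemma hasDerivAt_dg_kl (κ : n → ℝ) {lam : ℝ} (h : 0 < lam) :
    HasDerivAt (fun s => dg (kl κ s)) (dg fun i => (2 * kl κ lam i)⁻¹) lam := by
  rw [DetA.hasDerivAt_entry]
  intro i j
  simp only [dg_apply]
  split_ifs
  · have h1 : HasDerivAt (fun s => kl κ s i) (2 * kl κ lam i)⁻¹ lam := by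
      have := ((hasDerivAt_id lam).const_add (κ i ^ 2)).sqrt (by simp only [id]; positivity)
      exact this.congr_deriv (by simp [kl])
    exact h1.ofReal_comp
  · exact hasDerivAt_const _ _

noncomputable def Gf (κ : n → ℝ) (M : Matrix n n ℂ) (lam : ℝ) : ℝ :=
  ld (dg (kl κ lam) - M) + ld (dg (kl κ lam) + M)

noncomputable def Gp (κ : n → ℝ) (M : Matrix n n ℂ) (lam : ℝ) : ℝ :=
  rt (((dg (kl κ lam) - M)⁻¹ + (dg (kl κ lam) + M)⁻¹) * dg fun i => (2 * kl κ lam i)⁻¹)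

variable {κ : n → ℝ} {M : Matrix n n ℂ}

lemma hasDerivAt_Gf (h0 : ∀ i, 0 ≤ κ i) (h1 : (dg κ - M).PosSemidef) (h2 : (dg κ + M).PosSemidef)
    {lam : ℝ} (h : 0 < lam) : HasDerivAt (Gf κ M) (Gp κ M lam) lam := by
  have a1 := hasDerivAt_ld (X := fun s => dg (kl κ s) - M) ((hasDerivAt_dg_kl κ h).sub_const M)
    (kl_sub_posDef h0 h1 h)
  have a2 := hasDerivAt_ld (X := fun s => dg (kl κ s) + M) ((hasDerivAt_dg_kl κ h).add_const M)
    (kl_add_posDef h0 h2 h)
  exact (a1.add a2).congr_deriv (by rw [Gp, Matrix.add_mul, rt_add])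

lemma continuousOn_Gp (h0 : ∀ i, 0 ≤ κ i) (h1 : (dg κ - M).PosSemidef)
    (h2 : (dg κ + M).PosSemidef) : ContinuousOn (Gp κ M) (Set.Ioi 0) := by
  have hc := (continuous_dg.comp (continuous_kl κ)).continuousOn (s := Set.Ioi 0)
  refine continuous_rt.comp_continuousOn (ContinuousOn.mul (ContinuousOn.add ?_ ?_) ?_)
  · exact ContinuousOn.minv (hc.sub continuousOn_const) fun z hz =>
      PWA.unit_det (kl_sub_posDef h0 h1 hz)
  · exact ContinuousOn.minv (hc.add continuousOn_const) fun z hz =>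
      PWA.unit_det (kl_add_posDef h0 h2 hz)
  · refine continuous_dg.comp_continuousOn (continuousOn_pi.mpr fun i => ?_)
    exact ContinuousOn.inv₀ (continuousOn_const.mul
      ((continuous_apply i).comp (continuous_kl κ)).continuousOn) fun z hz =>
        (mul_pos two_pos (kl_pos κ hz i)).ne'

lemma continuousOn_trT (h0 : ∀ i, 0 ≤ κ i) (h1 : (dg κ - M).PosSemidef)
    (h2 : (dg κ + M).PosSemidef) (X : Matrix n n ℂ) :
    ContinuousOn (fun lam => trT (kl κ lam) M X) (Set.Ioi 0) := by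
  rw [continuousOn_iff_continuous_domRestrict]
  exact continuous_trT (Z := Set.Ioi (0 : ℝ)) ((continuous_kl κ).comp continuous_subtype_val)
    continuous_const continuous_const (fun z => kl_sub_posDef h0 h1 z.2)
    fun z => kl_add_posDef h0 h2 z.2

lemma ld_B {G : Matrix n k ℂ} {U : Matrix k k ℂ} {g : k → ℝ} (hg : Diag (Gᴴ * G) U g) {c lam : ℝ}
    (hc : 0 < c) (hl : 0 < lam) :
    ld (c • (G * Gᴴ) + lam • (1 : Matrix n n ℂ)) =
      Fintype.card n * Real.log lam + ∑ j, Real.log (1 + c * g j / lam) := by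
  have hp : (1 + (c / lam) • (G * Gᴴ)).PosDef :=
    PosDef.one.add_posSemidef ((posSemidef_self_mul_conjTranspose G).smul (by positivity))
  have e : c • (G * Gᴴ) + lam • (1 : Matrix n n ℂ) = lam • (1 + (c / lam) • (G * Gᴴ)) := by
    rw [smul_add, smul_smul, mul_div_cancel₀ _ hl.ne', add_comm]
  have hg0 := hg.nonneg (posSemidef_conjTranspose_mul_self G)
  have e2 : ld (1 + (c / lam) • (G * Gᴴ)) = ld (1 + (c / lam) • (Gᴴ * G)) := by
    rw [ld, ld, ← Matrix.smul_mul, det_one_add_mul_comm, Matrix.mul_smul]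
  rw [e, ld_smul hp hl, e2, Diag.ld ((Diag.one hg.uu).add (hg.smul (c / lam)))
    fun j => by have := hg0 j; positivity]
  congr 1
  refine Finset.sum_congr rfl fun j _ => ?_
  congr 1; ring

lemma Gf_lower (h0 : ∀ i, 0 ≤ κ i) {κb : ℝ} (hb : ∀ i, κ i ≤ κb) (h1 : (dg κ - M).PosSemidef)
    (h2 : (dg κ + M).PosSemidef) {l : ℝ} (hl : 0 < l) :
    -(Fintype.card n * Real.log (4 * (κb ^ 2 + l) / l)) ≤
      Gf κ M l - Fintype.card n * Real.log l := by
  have hp : ∀ i, 0 < kl κ l i - κ i := fun i => sub_pos.mpr (lt_kl h0 hl i)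
  have a1 := ld_mono (dg_posDef hp) h1
  have a2 := ld_mono (dg_posDef hp) h2
  rw [Diag.ld (diag_dg _) hp, ← dg_sub] at a1 a2
  have e1 : dg (kl κ l) - dg κ + (dg κ - M) = dg (kl κ l) - M := by abel
  have e2 : dg (kl κ l) - dg κ + (dg κ + M) = dg (kl κ l) + M := by abel
  rw [e1] at a1
  rw [e2] at a2
  have hs : 0 < κb ^ 2 + l := by positivity
  have a3 : ∀ i, Real.log l - Real.log (4 * (κb ^ 2 + l) / l) ≤ 2 * Real.log (kl κ l i - κ i) := by
    intro i
    rw [← Real.log_div hl.ne' (by positivity), ← Real.log_rpow (hp i), Real.rpow_two]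
    refine Real.log_le_log (by positivity) ?_
    have b1 := kl_sq κ hl i
    have b2 := lt_kl h0 hl i
    have b3 := h0 i
    have b4 : κ i ^ 2 ≤ κb ^ 2 := by gcongr; exact hb i
    rw [div_div_eq_mul_div, div_le_iff₀ (by positivity)]
    have b5 : (kl κ l i + κ i) ^ 2 ≤ 4 * (κb ^ 2 + l) := by nlinarith
    have b6 : l = (kl κ l i - κ i) * (kl κ l i + κ i) := by nlinarith
    calc l * l = (kl κ l i - κ i) ^ 2 * (kl κ l i + κ i) ^ 2 := by
          rw [← mul_pow, ← b6, sq]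
      _ ≤ _ := by gcongr
  have a4 := Finset.sum_le_sum fun i (_ : i ∈ Finset.univ) => a3 i
  rw [← Finset.mul_sum, Finset.sum_const, Finset.card_univ, nsmul_eq_mul] at a4
  rw [Gf]; nlinarith

lemma rt_S_le (h0 : ∀ i, 0 ≤ κ i) {κb : ℝ} (hb : ∀ i, κ i ≤ κb) (h1 : (dg κ - M).PosSemidef) :
    rt (dg κ * dg κ - M * M) ≤ Fintype.card n * κb ^ 2 := by
  have a1 : 0 ≤ rt (M * M) := by
    have := norm_sq_eq_rt M
    rw [(herm_of_up h1).eq] at this
    rw [← this]; positivity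
  have a2 : ∑ i, κ i * κ i ≤ ∑ _i : n, κb ^ 2 :=
    Finset.sum_le_sum fun i _ => by nlinarith [h0 i, hb i]
  rw [Finset.sum_const, Finset.card_univ, nsmul_eq_mul] at a2
  rw [rt_sub, dg_mul_dg, rt_dg]; linarith

/-- the deficits control `qd` for `λ ∈ [κb² + 1, κb² + 2]` -/
lemma qd_le {β : ℝ} (hβ : 0 < β) {κb : ℝ} (hκb : 0 ≤ κb) (h0 : ∀ i, 0 ≤ κ i) (hb : ∀ i, κ i ≤ κb)
    (h1 : (dg κ - M).PosSemidef) (h2 : (dg κ + M).PosSemidef) {V : Matrix n n ℂ}
    (hV : V.PosSemidef) {lam : ℝ} (hl1 : κb ^ 2 + 1 ≤ lam) (hl2 : lam ≤ κb ^ 2 + 2) :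
    qd β κ M V ≤
      (4 * (2 * κb ^ 2 + 2) + 2 * (1 + 1 / β) ^ 2 * (2 * κb ^ 2 + 2) ^ 2) *
          (48 * (2 * κb ^ 2 + 2) ^ 2) *
        (Fintype.card n - trT (kl κ lam) M (dg (kl κ lam) * dg (kl κ lam) - M * M)) +
      4 * (1 + 1 / β) ^ 2 * (2 * κb ^ 2 + 2) ^ 2 *
        (trT (kl κ lam) M ((1 + 1 / β)⁻¹ • V + lam • (1 : Matrix n n ℂ)) - Fintype.card n -
          ld ((1 + 1 / β)⁻¹ • V + lam • (1 : Matrix n n ℂ)) + Gf κ M lam) := by
  have hl : 0 < lam := by nlinarith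
  set e := 2 * κb ^ 2 + 2 with he
  have he0 : 0 < e := by positivity
  set db := Real.sqrt e
  have hdb0 : 0 < db := Real.sqrt_pos.mpr he0
  have hdb2 : db ^ 2 = e := Real.sq_sqrt he0.le
  have hr : 1 < 1 + 1 / β := by linarith [one_div_pos.mpr hβ]
  have hr0 : 0 < 1 + 1 / β := by linarith
  have hd := kl_pos κ hl
  have hdb : ∀ i, kl κ lam i ≤ db := fun i => Real.sqrt_le_sqrt (by nlinarith [h0 i, hb i])
  have p1 := kl_sub_posDef h0 h1 hl
  have p2 := kl_add_posDef h0 h2 hl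
  have hM := herm_of_up h1
  have hv0 := rt_nonneg hV
  set D := dg (kl κ lam) with hD
  set Γ := D * M - M * D with hΓ
  have a1 := pw_i hd hdb hdb0 p1 p2
  have hB : ((1 + 1 / β)⁻¹ • V + lam • (1 : Matrix n n ℂ)).PosDef :=
    PosDef.posSemidef_add (hV.smul (by positivity)) (PosDef.one.smul hl)
  have hMM : (M * M).PosSemidef := by
    have := posSemidef_conjTranspose_mul_self M
    rwa [hM.eq] at this
  have hlo : (D * D - M * M - (1 : ℝ) • (1 : Matrix n n ℂ)).PosSemidef := by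
    have b1 := sq_le_of_bound (bound_of_up hb h1) (bound_of_lo hb h2)
    have e1 : D * D - M * M - (1 : ℝ) • (1 : Matrix n n ℂ) =
        (dg κ * dg κ + (lam - 1 - κb ^ 2) • (1 : Matrix n n ℂ)) +
          (κb ^ 2 • (1 : Matrix n n ℂ) - M * M) := by
      rw [hD, dg_kl_sq κ hl]; module
    rw [e1, dg_mul_dg]
    exact ((dg_psd fun i => mul_self_nonneg _).add (PosSemidef.one.smul (by linarith))).add b1
  have hup : ((e * (1 + rt V)) • (1 : Matrix n n ℂ) - (D * D - M * M)).PosSemidef := by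
    have e1 : (e * (1 + rt V)) • (1 : Matrix n n ℂ) - (D * D - M * M) =
        (dg (fun _ => e * (1 + rt V)) - D * D) + M * M := by rw [dg_const]; abel
    rw [e1, hD, dg_mul_dg, dg_sub]
    refine (dg_psd fun i => ?_).add hMM
    rw [kl_sq κ hl]
    nlinarith [h0 i, hb i]
  have hBup : ((e * (1 + rt V)) • (1 : Matrix n n ℂ) -
      ((1 + 1 / β)⁻¹ • V + lam • (1 : Matrix n n ℂ))).PosSemidef := by
    have e1 : (e * (1 + rt V)) • (1 : Matrix n n ℂ) -
        ((1 + 1 / β)⁻¹ • V + lam • (1 : Matrix n n ℂ)) =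
        (e * (1 + rt V) - lam - (1 + 1 / β)⁻¹ * rt V) • (1 : Matrix n n ℂ) +
          (1 + 1 / β)⁻¹ • (rt V • (1 : Matrix n n ℂ) - V) := by module
    rw [e1]
    refine (PosSemidef.one.smul ?_).add ((psd_le_rt hV).smul (by positivity))
    have : (1 + 1 / β)⁻¹ ≤ 1 := inv_le_one_of_one_le₀ hr.le
    nlinarith
  have a2 := pw_def hd p1 p2 hB one_pos (by positivity) hlo hup hBup
  have a3 : ‖dg κ * dg κ * M - M * (dg κ * dg κ)‖ ≤ 2 * db * ‖Γ‖ := by
    have e1 : dg κ * dg κ * M - M * (dg κ * dg κ) = D * Γ + Γ * D := by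
      have : dg κ * dg κ = D * D - lam • (1 : Matrix n n ℂ) := by rw [hD, dg_kl_sq κ hl]; abel
      rw [this, hΓ]
      simp only [Matrix.mul_sub, Matrix.sub_mul, Matrix.mul_smul, Matrix.smul_mul, Matrix.mul_one,
        Matrix.one_mul, Matrix.mul_assoc]
      abel
    have b1 : (db • (1 : Matrix n n ℂ) - D).PosSemidef := by
      rw [hD, ← dg_const, dg_sub]; exact dg_psd fun i => by linarith [hdb i]
    have b2 : (db • (1 : Matrix n n ℂ) + D).PosSemidef := by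
      rw [hD, ← dg_const, dg_add]; exact dg_psd fun i => by linarith [hd i]
    rw [e1]
    have := norm_mul_le_of_bound b1 b2 hdb0.le Γ
    have := norm_mul_le_of_bound' b1 b2 hdb0.le Γ
    linarith [norm_add_le (D * Γ) (Γ * D)]
  have a4 : ‖dg κ * dg κ * M - M * (dg κ * dg κ)‖ ^ 2 ≤ 4 * e * ‖Γ‖ ^ 2 := by
    calc _ ≤ (2 * db * ‖Γ‖) ^ 2 := by gcongr
      _ = _ := by rw [← hdb2]; ring
  have a5 : V - (1 + 1 / β) • (dg κ * dg κ - M * M) =
      (1 + 1 / β) • ((1 + 1 / β)⁻¹ • V + lam • (1 : Matrix n n ℂ) - (D * D - M * M)) := by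
    rw [hD, dg_kl_sq κ hl, smul_sub, smul_sub, smul_add, smul_smul, mul_inv_cancel₀ hr0.ne']
    module
  have a6 : ‖V - (1 + 1 / β) • (dg κ * dg κ - M * M)‖ ^ 2 / (1 + rt V) ^ 2 =
      4 * (1 + 1 / β) ^ 2 * e ^ 2 *
        (‖(1 + 1 / β)⁻¹ • V + lam • (1 : Matrix n n ℂ) - (D * D - M * M)‖ ^ 2 /
          (4 * (e * (1 + rt V)) ^ 2)) := by
    rw [a5, norm_smul, Real.norm_eq_abs, abs_of_pos hr0]; field_simp
  have a7 : ‖Γ‖ ^ 2 ≤ 48 * e ^ 2 * (Fintype.card n - trT (kl κ lam) M (D * D - M * M)) := by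
    have : 3 * (2 * db) ^ 4 = 48 * e ^ 2 := by rw [← hdb2]; ring
    rw [this, ← le_sub_iff_add_le', div_le_iff₀ (by positivity)] at a1
    linarith
  have a8 := mul_le_mul_of_nonneg_left a2
    (show 0 ≤ 4 * (1 + 1 / β) ^ 2 * e ^ 2 by positivity)
  have a9 := mul_le_mul_of_nonneg_left a7
    (show 0 ≤ 4 * e + 2 * (1 + 1 / β) ^ 2 * e ^ 2 by positivity)
  rw [qd, a6, Gf]
  nlinarith

end LamA
open LamA

set_option maxHeartbeats 1000000 in
theorem lam_int {β : ℝ} (h0 : 0 < β) (h1 : β < 1) {κb : ℝ} (hκb : 0 ≤ κb) :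
    ∃ c : ℝ, 0 < c ∧ ∀ (ι μ : Type) [Fintype ι] [DecidableEq ι] [Fintype μ] [DecidableEq μ]
      (κ : ι → ℝ) (M : Matrix ι ι ℂ) (G : Matrix ι μ ℂ) (l L : ℝ),
      (∀ i, 0 ≤ κ i) → (∀ i, κ i ≤ κb) → (dg κ - M).PosSemidef → (dg κ + M).PosSemidef →
      0 < l → l ≤ κb ^ 2 + 1 → κb ^ 2 + 2 ≤ L →
      (∫ lam in l..L, lam ^ (β - 1) * (-rt (dg κ * dg κ - M * M - G * Gᴴ) +
          lam * trT (kl κ lam) M (dg κ * dg κ - M * M - G * Gᴴ))) + c * qd β κ M (G * Gᴴ) ≤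
        bb β * (1 + 1 / β) ^ (-β) / (1 + β) * tp (Gᴴ * G) (1 + β) +
          Fintype.card ι * err β κb l := by
  set C₁ := (4 * (2 * κb ^ 2 + 2) + 2 * (1 + 1 / β) ^ 2 * (2 * κb ^ 2 + 2) ^ 2) *
    (48 * (2 * κb ^ 2 + 2) ^ 2) with hC₁
  set C₂ := 4 * (1 + 1 / β) ^ 2 * (2 * κb ^ 2 + 2) ^ 2 with hC₂
  have hC₁0 : 0 < C₁ := by positivity
  have hC₂0 : 0 < C₂ := by positivity
  refine ⟨(C₁ + C₂)⁻¹, by positivity, ?_⟩
  intro ι μ _ _ _ _ κ M G l L hκ0 hκ p1 p2 hl hl1 hL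
  have hlL : l ≤ L := by linarith
  have hr0 : 0 < 1 + 1 / β := by positivity
  have hr1 : 1 ≤ 1 + 1 / β := by linarith [one_div_pos.mpr h0]
  obtain ⟨U, g, hg⟩ := exists_diag (posSemidef_conjTranspose_mul_self G).1
  have hg0 := hg.nonneg (posSemidef_conjTranspose_mul_self G)
  have hV := posSemidef_self_mul_conjTranspose G
  set N : ℝ := ((Fintype.card ι : ℕ) : ℝ) with hN
  set S := dg κ * dg κ - M * M with hS
  set V := G * Gᴴ with hVd
  set w : μ → ℝ := fun j => (1 + 1 / β)⁻¹ * g j with hw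
  have hw0 : ∀ j, 0 ≤ w j := fun j => by have := hg0 j; positivity
  set lhs : ℝ → ℝ := fun lam => lam ^ (β - 1) * (-rt (S - V) + lam * trT (kl κ lam) M (S - V))
    with hlhs
  set om : μ → ℝ → ℝ := fun j lam => lam ^ (β - 1) * (w j - lam * Real.log (1 + w j / lam))
    with hom
  set F : ℝ → ℝ := fun lam =>
    (1 / β) * (lam ^ (1 + β) * (Gf κ M lam - N * Real.log lam) - lam ^ β * rt S) with hF
  set F' : ℝ → ℝ := fun lam => lam ^ (β - 1) * ((1 + 1 / β) * lam * (Gf κ M lam - N * Real.log lam)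
    + (1 / β) * lam ^ 2 * (Gp κ M lam - N / lam) - rt S) with hF'
  have hsub : Set.uIcc l L ⊆ Set.Ioi 0 := by
    rw [Set.uIcc_of_le hlL]; exact fun x hx => hl.trans_le hx.1
  have cpow : ContinuousOn (fun lam : ℝ => lam ^ (β - 1)) (Set.Ioi 0) :=
    continuousOn_id.rpow_const fun x hx => Or.inl (ne_of_gt hx)
  have clog : ContinuousOn Real.log (Set.Ioi 0) :=
    Real.continuousOn_log.mono fun x hx => ne_of_gt hx
  have cGf : ContinuousOn (Gf κ M) (Set.Ioi 0) := fun x hx =>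
    (hasDerivAt_Gf hκ0 p1 p2 hx).continuousAt.continuousWithinAt
  have ilhs : IntervalIntegrable lhs volume l L :=
    ((cpow.mul (continuousOn_const.add (continuousOn_id.mul
      (continuousOn_trT hκ0 p1 p2 _)))).mono hsub).intervalIntegrable
  have iom : ∀ j, IntervalIntegrable (om j) volume l L := fun j => by
    refine ((cpow.mul (continuousOn_const.sub (continuousOn_id.mul (ContinuousOn.log
      (continuousOn_const.add (continuousOn_const.div continuousOn_id fun x hx => ne_of_gt hx))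
      fun x hx => ?_)))).mono hsub).intervalIntegrable
    have := hw0 j
    have hx' : 0 < x := hx
    have : 0 < 1 + w j / x := by positivity
    exact this.ne'
  have iF' : IntervalIntegrable F' volume l L := by
    refine ((cpow.mul (ContinuousOn.sub (ContinuousOn.add ?_ ?_) continuousOn_const)).mono
      hsub).intervalIntegrable
    · exact (continuousOn_const.mul continuousOn_id).mul (cGf.sub (continuousOn_const.mul clog))
    · exact (continuousOn_const.mul (continuousOn_id.pow 2)).mul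
        ((continuousOn_Gp hκ0 p1 p2).sub
          (continuousOn_const.div continuousOn_id fun x hx => ne_of_gt hx))
  have hFF : ∫ lam in l..L, F' lam = F L - F l := by
    refine intervalIntegral.integral_eq_sub_of_hasDerivAt (fun x hx => ?_) iF'
    have hx' : 0 < x := hsub hx
    have d1 := Real.hasDerivAt_rpow_const (p := 1 + β) (Or.inl hx'.ne')
    have d2 := Real.hasDerivAt_rpow_const (p := β) (Or.inl hx'.ne')
    have d3 := (hasDerivAt_Gf hκ0 p1 p2 hx').sub ((Real.hasDerivAt_log hx'.ne').const_mul N)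
    refine (((d1.mul d3).sub (d2.mul_const (rt S))).const_mul (1 / β)).congr_deriv ?_
    have e1 : x ^ (1 + β - 1) = x ^ (β - 1) * x := by
      rw [← Real.rpow_add_one hx'.ne']; congr 1; ring
    have e2 : x ^ (1 + β) = x ^ (β - 1) * x ^ 2 := by
      rw [← Real.rpow_two, ← Real.rpow_add hx']; congr 1; ring
    simp only [hF', Pi.sub_apply, e1, e2]
    field_simp
    ring
  have hFL : F L ≤ 0 := by
    have hL0 : 0 < L := by linarith
    have a1 := pw_iv (kl_pos κ hL0) (kl_sub_posDef hκ0 p1 hL0) (kl_add_posDef hκ0 p2 hL0) hL0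
    have e1 : rt (dg (kl κ L) * dg (kl κ L) - M * M) = rt S + L * N := by
      rw [dg_kl_sq κ hL0, hS]; simp only [rt_sub, rt_add, rt_smul, rt_one, hN]; ring
    rw [e1, add_div, mul_div_cancel_left₀ _ hL0.ne'] at a1
    have a2 : Gf κ M L - N * Real.log L ≤ rt S / L := by rw [Gf]; linarith
    have e2 : L ^ (1 + β) = L ^ β * L := by rw [add_comm, Real.rpow_add_one hL0.ne']
    have a3 := mul_le_mul_of_nonneg_left a2 (Real.rpow_pos_of_pos hL0 (1 + β)).le
    have e3 : L ^ (1 + β) * (rt S / L) = L ^ β * rt S := by rw [e2]; field_simp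
    exact mul_nonpos_of_nonneg_of_nonpos (by positivity) (by linarith)
  have hFl : -F l ≤ N * err β κb l := by
    have a1 := mul_le_mul_of_nonneg_left (Gf_lower hκ0 hκ p1 p2 hl)
      (Real.rpow_pos_of_pos hl (1 + β)).le
    have a2 := mul_le_mul_of_nonneg_left (rt_S_le hκ0 hκ p1) (Real.rpow_pos_of_pos hl β).le
    have a3 : -(l ^ (1 + β) * (Gf κ M l - N * Real.log l) - l ^ β * rt S) ≤
        N * (l ^ β * κb ^ 2 + l ^ (1 + β) * Real.log (4 * (κb ^ 2 + l) / l)) := by linarith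
    have a4 := mul_le_mul_of_nonneg_left a3 (one_div_pos.mpr h0).le
    simp only [hF, err]; linarith
  -- pointwise inequality
  have hpt : ∀ lam, 0 < lam →
      lam ^ β * ((N - trT (kl κ lam) M (dg (kl κ lam) * dg (kl κ lam) - M * M)) + (1 + 1 / β) *
        (trT (kl κ lam) M ((1 + 1 / β)⁻¹ • V + lam • (1 : Matrix ι ι ℂ)) - N -
          ld ((1 + 1 / β)⁻¹ • V + lam • (1 : Matrix ι ι ℂ)) + Gf κ M lam)) ≤
      (1 + 1 / β) * ∑ j, om j lam + F' lam - lhs lam := by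
    intro lam hlam
    have q1 := kl_sub_posDef hκ0 p1 hlam
    have q2 := kl_add_posDef hκ0 p2 hlam
    have a3 := pw_iii (kl_pos κ hlam) q1 q2
    have e1 : dg (kl κ lam) * dg (kl κ lam) - M * M = S + lam • (1 : Matrix ι ι ℂ) := by
      rw [dg_kl_sq κ hlam, hS]; abel
    have e2 : lam ^ β = lam ^ (β - 1) * lam := by
      rw [← Real.rpow_add_one hlam.ne']; congr 1; ring
    have e3 : ∑ j, om j lam = lam ^ (β - 1) * ((1 + 1 / β)⁻¹ * rt V -
        lam * (ld ((1 + 1 / β)⁻¹ • V + lam • (1 : Matrix ι ι ℂ)) - N * Real.log lam)) := by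
      rw [hVd, ld_B hg (inv_pos.mpr hr0) hlam, rt_mul_comm, hg.rt, add_sub_cancel_left,
        Finset.mul_sum, Finset.mul_sum, ← Finset.sum_sub_distrib, Finset.mul_sum]
    rw [e1, trT_add q1 q2, trT_add q1 q2, trT_smul, trT_smul, e2, e3]
    simp only [hF', hlhs, trT_sub q1 q2, rt_sub]
    have hp := (Real.rpow_pos_of_pos hlam (β - 1)).le
    have a4 := mul_le_mul_of_nonneg_left a3 (show 0 ≤ lam ^ (β - 1) * ((1 / β) * lam ^ 2) by
      positivity)
    rw [← Gp] at a4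
    have e4 : lam ^ 2 * (N / lam) = lam * N := by field_simp
    have e5 : (1 + 1 / β) * (1 + 1 / β)⁻¹ = 1 := mul_inv_cancel₀ hr0.ne'
    set T1 := trT (kl κ lam) M 1
    set TV := trT (kl κ lam) M V
    set TS := trT (kl κ lam) M S
    set u := (1 + 1 / β)⁻¹
    set P := lam ^ (β - 1)
    have e6 : P * lam * ((1 + 1 / β) * (u * TV)) = P * lam * TV := by
      rw [← mul_assoc (1 + 1 / β), e5, one_mul]
    have e7 : (1 + 1 / β) * (P * (u * rt V)) = P * rt V := by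
      rw [mul_left_comm, ← mul_assoc (1 + 1 / β), e5, one_mul]
    have e8 : P * (1 / β * lam ^ 2 * (N / lam)) = P * (1 / β * (lam * N)) := by
      rw [mul_assoc (1 / β), e4]
    linarith
  have hnn : ∀ lam, 0 < lam →
      0 ≤ N - trT (kl κ lam) M (dg (kl κ lam) * dg (kl κ lam) - M * M) ∧
      0 ≤ trT (kl κ lam) M ((1 + 1 / β)⁻¹ • V + lam • (1 : Matrix ι ι ℂ)) - N -
          ld ((1 + 1 / β)⁻¹ • V + lam • (1 : Matrix ι ι ℂ)) + Gf κ M lam := by
    intro lam hlam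
    have q1 := kl_sub_posDef hκ0 p1 hlam
    have q2 := kl_add_posDef hκ0 p2 hlam
    constructor
    · have hs : 0 < Real.sqrt (κb ^ 2 + lam) := Real.sqrt_pos.mpr (by positivity)
      have := pw_i (kl_pos κ hlam) (db := Real.sqrt (κb ^ 2 + lam))
        (fun i => Real.sqrt_le_sqrt (by nlinarith [hκ0 i, hκ i])) hs q1 q2
      have h3 : 0 ≤ ‖dg (kl κ lam) * M - M * dg (kl κ lam)‖ ^ 2 /
        (3 * (2 * Real.sqrt (κb ^ 2 + lam)) ^ 4) := by positivity
      linarith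
    · have := pw_ii (kl_pos κ hlam) q1 q2 (B := (1 + 1 / β)⁻¹ • V + lam • (1 : Matrix ι ι ℂ))
        (PosDef.posSemidef_add (hV.smul (by positivity)) (PosDef.one.smul hlam))
      rw [Gf]; linarith
  set Φ : ℝ → ℝ := fun lam => (1 + 1 / β) * ∑ j, om j lam + F' lam - lhs lam with hΦ
  have isum : IntervalIntegrable (fun lam => ∑ j, om j lam) volume l L := by
    have := IntervalIntegrable.sum (s := Finset.univ) fun j _ => iom j
    exact this.congr fun x _ => by simp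
  have iΦ : IntervalIntegrable Φ volume l L := ((isum.const_mul _).add iF').sub ilhs
  have hΦ0 : ∀ lam, 0 < lam → 0 ≤ Φ lam := fun lam hlam => by
    refine le_trans ?_ (hpt lam hlam)
    obtain ⟨a1, a2⟩ := hnn lam hlam
    positivity
  have hΦ1 : ∀ lam ∈ Set.Icc (κb ^ 2 + 1) (κb ^ 2 + 2), (C₁ + C₂)⁻¹ * qd β κ M V ≤ Φ lam := by
    intro lam hlam
    have hl0 : 0 < lam := by nlinarith [hlam.1]
    refine le_trans ?_ (hpt lam hl0)
    obtain ⟨a1, a2⟩ := hnn lam hl0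
    have a3 := qd_le h0 hκb hκ0 hκ p1 p2 hV hlam.1 hlam.2
    have a4 : 1 ≤ lam ^ β := Real.one_le_rpow (by nlinarith [hlam.1]) h0.le
    rw [inv_mul_le_iff₀ (by positivity)]
    rw [← hC₁, ← hC₂, ← hN] at a3
    set δ₁ := N - trT (kl κ lam) M (dg (kl κ lam) * dg (kl κ lam) - M * M)
    set δ₂ := trT (kl κ lam) M ((1 + 1 / β)⁻¹ • V + lam • (1 : Matrix ι ι ℂ)) - N -
          ld ((1 + 1 / β)⁻¹ • V + lam • (1 : Matrix ι ι ℂ)) + Gf κ M lam
    have a5 : δ₁ + δ₂ ≤ lam ^ β * (δ₁ + (1 + 1 / β) * δ₂) := by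
      have : δ₂ ≤ (1 + 1 / β) * δ₂ := le_mul_of_one_le_left a2 hr1
      calc δ₁ + δ₂ ≤ δ₁ + (1 + 1 / β) * δ₂ := by linarith
        _ ≤ _ := le_mul_of_one_le_left (by linarith) a4
    have a6 := mul_le_mul_of_nonneg_left a5 (add_pos hC₁0 hC₂0).le
    have a7 : C₁ * δ₁ + C₂ * δ₂ ≤ (C₁ + C₂) * (δ₁ + δ₂) := by
      have b1 := mul_nonneg hC₁0.le a2
      have b2 := mul_nonneg hC₂0.le a1
      calc _ ≤ C₁ * δ₁ + C₂ * δ₂ + (C₁ * δ₂ + C₂ * δ₁) := le_add_of_nonneg_right (add_nonneg b1 b2)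
        _ = _ := by ring
    exact a3.trans (a7.trans a6)
  have hI1 : (C₁ + C₂)⁻¹ * qd β κ M V ≤ ∫ lam in l..L, Φ lam := by
    have a1 := intervalIntegral.integral_mono_interval (f := Φ) (μ := volume) hl1
      (show κb ^ 2 + 1 ≤ κb ^ 2 + 2 by linarith) hL
      ((ae_restrict_mem measurableSet_Ioc).mono fun x hx => hΦ0 x (hl.trans hx.1)) iΦ
    have a2 := intervalIntegral.integral_mono_on (μ := volume)
      (show κb ^ 2 + 1 ≤ κb ^ 2 + 2 by linarith) intervalIntegrable_const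
      (iΦ.mono_set (by
        rw [Set.uIcc_of_le (by linarith), Set.uIcc_of_le hlL]
        exact Set.Icc_subset_Icc hl1 hL)) hΦ1
    rw [intervalIntegral.integral_const] at a2
    norm_num at a2
    linarith
  rw [intervalIntegral.integral_sub ((isum.const_mul _).add iF') ilhs,
    intervalIntegral.integral_add (isum.const_mul _) iF', intervalIntegral.integral_const_mul,
    intervalIntegral.integral_finsetSum fun j _ => iom j, hFF] at hI1
  have hI2 : (1 + 1 / β) * ∑ j, ∫ lam in l..L, om j lam ≤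
      bb β * (1 + 1 / β) ^ (-β) / (1 + β) * tp (Gᴴ * G) (1 + β) := by
    rw [hg.tp, Finset.mul_sum, Finset.mul_sum]
    refine Finset.sum_le_sum fun j _ => ?_
    have a1 := mul_le_mul_of_nonneg_left (int_log_le_bb h0 h1 (hw0 j) hl hlL) hr0.le
    refine a1.trans (le_of_eq ?_)
    have e1 : w j ^ (1 + β) = (1 + 1 / β)⁻¹ * (1 + 1 / β) ^ (-β) * g j ^ (1 + β) := by
      rw [hw, Real.mul_rpow (inv_pos.mpr hr0).le (hg0 j), Real.inv_rpow hr0.le,
        Real.rpow_add hr0, Real.rpow_one, Real.rpow_neg hr0.le, mul_inv]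
    rw [e1]; field_simp
  linarith

end Crest.Agent.R332
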