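import Crest.Agent.R332.Basic

/-! Row 332, task Riccati: negative parts of Hermitian matrices. -/

set_option autoImplicit false
set_option linter.unusedSectionVars false

open Matrix Filter Topology
open scoped ComplexOrder Matrix.Norms.Frobenius

namespace Crest.Agent.R332.RiccatiA

variable {n : Type*} [Fintype n] [DecidableEq n]

/-- negative part -/
noncomputable def ng (X : Matrix n n ℂ) : Matrix n n ℂ := cfc (fun t : ℝ => max (-t) 0) X

lemma ng_herm (X : Matrix n n ℂ) : (ng X).IsHermitian := cfc_herm _ _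

lemma ng_psd {X : Matrix n n ℂ} (hX : X.IsHermitian) : (ng X).PosSemidef :=
  cfc_psd hX fun _ => le_max_right _ _

lemma add_ng_psd {X : Matrix n n ℂ} (hX : X.IsHermitian) : (X + ng X).PosSemidef := by
  obtain ⟨U, d, h⟩ := exists_diag hX
  exact (h.add (h.cfc fun t : ℝ => max (-t) 0)).psd fun i => by
    have := le_max_left (-d i) 0
    linarith

lemma ng_mul {X : Matrix n n ℂ} (hX : X.IsHermitian) : ng X * X = -(ng X * ng X) := by
  obtain ⟨U, d, h⟩ := exists_diag hX
  have h1 := h.cfc fun t : ℝ => max (-t) 0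
  refine (h1.mul h).ext (h1.mul h1).neg fun i => ?_
  rcases le_total (-d i) 0 with h2 | h2
  · simp [max_eq_right h2]
  · simp [max_eq_left h2]

lemma mul_ng {X : Matrix n n ℂ} (hX : X.IsHermitian) : X * ng X = -(ng X * ng X) := by
  obtain ⟨U, d, h⟩ := exists_diag hX
  have h1 := h.cfc fun t : ℝ => max (-t) 0
  refine (h.mul h1).ext (h1.mul h1).neg fun i => ?_
  rcases le_total (-d i) 0 with h2 | h2
  · simp [max_eq_right h2]
  · simp [max_eq_left h2]

lemma norm_sq_herm {X : Matrix n n ℂ} (hX : X.IsHermitian) : ‖X‖ ^ 2 = rt (X * X) := by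
  rw [norm_sq_eq_rt, hX.eq]

lemma norm_ng_le {X P : Matrix n n ℂ} (hX : X.IsHermitian) (hP : P.PosSemidef) :
    ‖ng X‖ ^ 2 ≤ ‖X - P‖ ^ 2 := by
  have h1 : X - P = (X + ng X - P) - ng X := by abel
  have h2 := norm_sub_sq_rt (X + ng X - P) (ng X)
  have h3 : (X + ng X - P)ᴴ = X + ng X - P := ((add_ng_psd hX).1.sub hP.1).eq
  rw [h3, Matrix.sub_mul, Matrix.add_mul, mul_ng hX, neg_add_cancel, rt_sub, rt_zero] at h2
  have h4 := rt_mul_nonneg hP (ng_psd hX)
  rw [h1, h2]
  nlinarith [sq_nonneg ‖X + ng X - P‖]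

lemma psd_of_ng {X : Matrix n n ℂ} (hX : X.IsHermitian) (h : ng X = 0) : X.PosSemidef := by
  simpa [h] using add_ng_psd hX

lemma ng_of_psd {X : Matrix n n ℂ} (hX : X.PosSemidef) : ng X = 0 := by
  have := norm_ng_le hX.1 hX
  simp only [sub_self, norm_zero] at this
  have h2 : ‖ng X‖ ^ 2 = 0 := le_antisymm (by simpa using this) (sq_nonneg _)
  simpa using h2

/-- conjugate transpose as a real continuous linear map -/
noncomputable def ctL : Matrix n n ℂ →L[ℝ] Matrix n n ℂ :=
  LinearMap.toContinuousLinearMap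
    { toFun := fun X => Xᴴ, map_add' := fun X Y => conjTranspose_add X Y,
      map_smul' := fun c A => by simp }

@[simp] lemma ctL_apply (A : Matrix n n ℂ) : ctL A = Aᴴ := rfl

theorem negPart {a b C : ℝ} {D D' : ℝ → Matrix n n ℂ}
    (hc : ContinuousOn D (Set.Icc a b)) (hh : ∀ x ∈ Set.Icc a b, (D x).IsHermitian)
    (hd : ∀ x ∈ Set.Ico a b, HasDerivWithinAt D (D' x) (Set.Ici x) x)
    (hb : ∀ x ∈ Set.Ico a b, -(C * ‖ng (D x)‖ ^ 2) ≤ rt (ng (D x) * D' x))
    (h0 : (D a).PosSemidef) : ∀ x ∈ Set.Icc a b, (D x).PosSemidef := by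
  have hcont : ContinuousOn (fun x => ‖ng (D x)‖ ^ 2) (Set.Icc a b) := by
    have h1 : ContinuousOn (fun x => ng (D x)) (Set.Icc a b) :=
      (continuousOn_cfc_herm (f := fun t : ℝ => max (-t) 0) (by fun_prop)).comp hc hh
    exact h1.norm.pow 2
  have key := le_gronwallBound_of_liminf_deriv_right_le (δ := 0) (K := 2 * C) (ε := 0)
    (f' := fun x => -2 * rt (ng (D x) * D' x)) hcont ?_ (by simp [ng_of_psd h0]) ?_
  · intro x hx
    have h1 := key x hx
    rw [gronwallBound_ε0_δ0] at h1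
    have h2 : ‖ng (D x)‖ ^ 2 = 0 := le_antisymm h1 (sq_nonneg _)
    exact psd_of_ng (hh x hx) (by simpa using h2)
  · intro x hx r hr
    have hx' := Set.Ico_subset_Icc_self hx
    set P := D x + ng (D x) with hP
    have hPp : P.PosSemidef := add_ng_psd (hh x hx')
    have h1 : HasDerivWithinAt (fun z => D z - P) (D' x) (Set.Ici x) x := (hd x hx).sub_const P
    have h2 : HasDerivWithinAt (fun z => (D z - P)ᴴ) (D' x)ᴴ (Set.Ici x) x :=
      (ctL (n := n)).hasFDerivAt.comp_hasDerivWithinAt x h1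
    have h3 := (rtL (n := n)).hasFDerivAt.comp_hasDerivWithinAt x (h2.mul h1)
    have h4 : D x - P = -ng (D x) := by rw [hP]; abel
    have h5 : HasDerivWithinAt (fun z => ‖D z - P‖ ^ 2) (-2 * rt (ng (D x) * D' x))
        (Set.Ici x) x := by
      have e1 : (fun z => ‖D z - P‖ ^ 2) =
          ⇑rtL ∘ ((fun z => (D z - P)ᴴ) * fun z => D z - P) := by
        ext z; simp [norm_sq_eq_rt]
      have e2 : -2 * rt (ng (D x) * D' x) =
          rtL ((D' x)ᴴ * (D x - P) + (D x - P)ᴴ * D' x) := by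
        simp only [rtL_apply, h4, rt_add, conjTranspose_neg, (ng_herm (D x)).eq, Matrix.neg_mul,
          Matrix.mul_neg, rt_neg]
        have : rt ((D' x)ᴴ * ng (D x)) = rt (ng (D x) * D' x) := by
          rw [← rt_conjT, conjTranspose_mul, conjTranspose_conjTranspose, (ng_herm (D x)).eq]
        rw [this]; ring
      rw [e1, e2]
      exact h3
    have h6 := h5.liminf_right_slope_le hr
    have h7 : ∀ᶠ z in 𝓝[>] x, z ∈ Set.Ioc x b := Ioc_mem_nhdsGT hx.2
    refine (h6.and_eventually h7).mono fun z ⟨hz1, hz2⟩ => lt_of_le_of_lt ?_ hz1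
    rw [slope_def_field, div_eq_inv_mul, h4, norm_neg]
    have h8 := norm_ng_le (hh z ⟨hx.1.trans hz2.1.le, hz2.2⟩) hPp
    have h9 : 0 ≤ (z - x)⁻¹ := inv_nonneg.mpr (sub_nonneg.mpr hz2.1.le)
    gcongr
  · intro x hx
    have := hb x hx
    linarith

end Crest.Agent.R332.RiccatiA
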