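import Mathlib

/-! Row 332, task Riccati: a parametric ODE with bounded, globally Lipschitz right side. -/

set_option autoImplicit false

open Set Filter Topology
open scoped NNReal

namespace Crest.Agent.R332.RiccatiA

lemma gb_homog (ε K x : ℝ) : gronwallBound ε K (ε + 0) x = ε * gronwallBound 1 K 1 x := by
  unfold gronwallBound
  split_ifs with h
  · ring
  · ring

theorem param_ode {E P : Type*} [NormedAddCommGroup E] [NormedSpace ℝ E] [CompleteSpace E]
    [TopologicalSpace P] {a b : ℝ} (hab : a ≤ b) {G : E → E} {L : ℝ≥0} (hG : LipschitzWith L G)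
    {B : ℝ} (hB0 : 0 ≤ B) {W : P → ℝ → E} (hW : Continuous fun z : P × ℝ => W z.1 z.2)
    (hB : ∀ p t y, ‖W p t - G y‖ ≤ B) {x0 : P → E} (hx0 : Continuous x0) :
    ∃ M : P → ℝ → E, (∀ p, M p a = x0 p) ∧
      (∀ p, ∀ t ∈ Icc a b, HasDerivWithinAt (M p) (W p t - G (M p t)) (Icc a b) t) ∧
      Continuous fun p => M p b := by
  have hlip : ∀ p t, LipschitzWith L fun y => W p t - G y := by
    intro p t
    refine LipschitzWith.of_dist_le_mul fun y z => ?_
    rw [dist_sub_left]
    exact hG.dist_le_mul y z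
  have hex : ∀ p, ∃ α : ℝ → E, α a = x0 p ∧
      ∀ t ∈ Icc a b, HasDerivWithinAt α (W p t - G (α t)) (Icc a b) t := by
    intro p
    have hpl : IsPicardLindelof (fun t y => W p t - G y) (⟨a, left_mem_Icc.mpr hab⟩ : Icc a b)
        (x0 p) ⟨B * (b - a), mul_nonneg hB0 (sub_nonneg.mpr hab)⟩ 0 ⟨B, hB0⟩ L := by
      refine ⟨fun t _ => (hlip p t).lipschitzOnWith, fun y _ => ?_, fun t _ y _ => hB p t y, ?_⟩
      · exact ((hW.comp (Continuous.prodMk_right p)).sub continuous_const).continuousOn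
      · simp only [sub_self, NNReal.coe_zero, sub_zero, max_eq_left (sub_nonneg.mpr hab)]
        exact le_rfl
    exact hpl.exists_eq_forall_mem_Icc_hasDerivWithinAt₀
  choose M hM0 hM using hex
  refine ⟨M, hM0, hM, ?_⟩
  have hMc : ∀ p, ContinuousOn (M p) (Icc a b) := fun p t ht => (hM p t ht).continuousWithinAt
  have hM' : ∀ p, ∀ t ∈ Ico a b, HasDerivWithinAt (M p) (W p t - G (M p t)) (Ici t) t :=
    fun p t ht => (hM p t (Ico_subset_Icc_self ht)).mono_of_mem_nhdsWithin
      (Icc_mem_nhdsGE_of_mem ht)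
  rw [continuous_iff_continuousAt]
  intro p0
  rw [ContinuousAt, Metric.tendsto_nhds]
  intro ε hε
  set Γ := gronwallBound 1 (L : ℝ) 1 (b - a) with hΓ
  obtain ⟨δ, hδ, hδε⟩ : ∃ δ > 0, δ * Γ < ε := by
    refine ⟨ε / (|Γ| + 1), by positivity, ?_⟩
    have h1 : 0 < |Γ| + 1 := by positivity
    rw [div_mul_eq_mul_div, div_lt_iff₀ h1]
    have := le_abs_self Γ
    nlinarith
  have h1 : ∀ᶠ p in 𝓝 p0, dist (x0 p) (x0 p0) < δ :=
    Metric.tendsto_nhds.mp (hx0.continuousAt (x := p0)) δ hδ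
  have h2 : ∀ᶠ p in 𝓝 p0, ∀ t ∈ Icc a b, dist (W p t) (W p0 t) < δ := by
    refine isCompact_Icc.eventually_forall_of_forall_eventually fun t _ => ?_
    have hc : Continuous fun z : P × ℝ => dist (W z.1 z.2) (W p0 z.2) :=
      hW.dist (hW.comp (continuous_const.prodMk continuous_snd))
    have : Tendsto (fun z : P × ℝ => dist (W z.1 z.2) (W p0 z.2)) (𝓝 (p0, t)) (𝓝 0) := by
      simpa using hc.tendsto (p0, t)
    exact this.eventually (gt_mem_nhds hδ)
  filter_upwards [h1, h2] with p hp1 hp2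
  have := dist_le_of_approx_trajectories_ODE (v := fun t y => W p0 t - G y) (hlip p0)
    (hMc p) (hM' p) (εf := δ) (fun t ht => by
      rw [dist_sub_right]; exact (hp2 t (Ico_subset_Icc_self ht)).le)
    (hMc p0) (hM' p0) (εg := 0) (fun t _ => by simp) (δ := δ) (by rw [hM0, hM0]; exact hp1.le)
    b (right_mem_Icc.mpr hab)
  rw [gb_homog] at this
  exact this.trans_lt hδε

end Crest.Agent.R332.RiccatiA
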