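import Crest.Agent.R332.Det
import Crest.Agent.R332.Brouwer
import Crest.Agent.R332.Riccati_ODE
import Crest.Agent.R332.Riccati_Neg

/-! Row 332, task Riccati: existence of a matrix Riccati path from `K` to `-K`.

`negPart_lemma`: `h x = ‖(D x)₋‖²` with `X₋ = cfc (fun t => max (-t) 0) X`; for psd `P`,
`‖X₋‖ ≤ ‖X - P‖`; with `P = (D x)₊`: `h z ≤ ‖(D z - D x) - (D x)₋‖² = h x - 2 rt((D x)₋ (D z - D x))
+ ‖D z - D x‖²`; `h` is continuous; `le_gronwallBound_of_liminf_deriv_right_le`.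

`riccati_exists`: let `R ≥ 0` with `2R ≥ C (b - a)`, `f t = min (t²) (R²)` (`2R`-Lipschitz,
`norm_cfc_sub_le`), `re X = ½(X + Xᴴ)`.  For Hermitian `K` with `0 ≤ K ≤ R` the ODE
`M' = K² - cfc f (re M) - V K x`, `M a = K` has a bounded, globally Lipschitz right side, so a
solution on `[a,b]` (`IsPicardLindelof.exists_eq_forall_mem_Icc_hasDerivWithinAt₀`); it is
Hermitian (`M - Mᴴ` has zero derivative); `K ↦ M_K b` is continuous (Gronwall
`dist_le_of_approx_trajectories_ODE`, uniform continuity of `V` on `{K₀} × [a,b]`).  Apply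
`brouwer` to `X ↦ ½(K - M_K b)`, `K = cfc (fun t => max 0 (min t R)) (re X)`.  At a fixed point
`Y` (Hermitian), `K = clamp Y`, `M b = K - 2Y = -K - 2Y₁ + 2Y₂`, `Y₁ = (Y-R)₊`, `Y₂ = (-Y)₊`.
(1) `rt(Y₁ M b) = -R rt Y₁ - 2 rt Y₁²` while `d/dx rt(Y₁ M) = rt(Y₁(R² - f(M))) - rt(Y₁ V) ≥
-C rt Y₁`, `rt(Y₁ M a) = R rt Y₁`; so `Y₁ = 0` and `M b + K ≥ 0`.
(2) `negPart_lemma` for `R - M` (forward) and `R + M` (backward, reflect `x ↦ a + b - x`): on the
range of the negative part `f(M) = R²`.  Hence `-R ≤ M ≤ R` and `cfc f M = M M`.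
(3) `negPart_lemma` for `K - M` (forward; `(K-M)' = -(B D + D B) + V`, `B = ½(K+M)`) and `K + M`
(backward).  (4) `rt(Y₂ M b) ≤ rt(Y₂ K) = 0` gives `Y₂ = 0`.
(5) Extend: `M̃ x = K + ∫_a^x Φ`, `Φ s = K² - M(c s)² - V K s`, `c` = clamp to `[a,b]`; `Φ` is
continuous and vanishes outside `(a,b)`, `M̃ = M ∘ c`. -/

set_option autoImplicit false
set_option linter.unusedVariables false
set_option linter.unusedSectionVars false

open Matrix Filter Topology MeasureTheory
open scoped ComplexOrder Matrix.Norms.Frobenius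

namespace Crest.Agent.R332

variable {n k : Type*} [Fintype n] [DecidableEq n] [Fintype k] [DecidableEq k]

namespace RiccatiA

lemma negPart_fwd {a b C : ℝ} {D D' : ℝ → Matrix n n ℂ}
    (hh : ∀ x ∈ Set.Icc a b, (D x).IsHermitian)
    (hd : ∀ x ∈ Set.Icc a b, HasDerivWithinAt D (D' x) (Set.Icc a b) x)
    (hb : ∀ x ∈ Set.Icc a b, -(C * ‖ng (D x)‖ ^ 2) ≤ rt (ng (D x) * D' x))
    (h0 : (D a).PosSemidef) : ∀ x ∈ Set.Icc a b, (D x).PosSemidef :=
  negPart (fun x hx => (hd x hx).continuousWithinAt) hh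
    (fun x hx => (hd x (Set.Ico_subset_Icc_self hx)).mono_of_mem_nhdsWithin
      (Icc_mem_nhdsGE_of_mem hx)) (fun x hx => hb x (Set.Ico_subset_Icc_self hx)) h0

lemma negPart_bwd {a b C : ℝ} {D D' : ℝ → Matrix n n ℂ}
    (hh : ∀ x ∈ Set.Icc a b, (D x).IsHermitian)
    (hd : ∀ x ∈ Set.Icc a b, HasDerivWithinAt D (D' x) (Set.Icc a b) x)
    (hb : ∀ x ∈ Set.Icc a b, -(C * ‖ng (D x)‖ ^ 2) ≤ rt (ng (D x) * -D' x))
    (h0 : (D b).PosSemidef) : ∀ x ∈ Set.Icc a b, (D x).PosSemidef := by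
  have hm : ∀ y ∈ Set.Icc a b, a + b - y ∈ Set.Icc a b := fun y hy =>
    ⟨by linarith [hy.2], by linarith [hy.1]⟩
  have key := negPart_fwd (a := a) (b := b) (C := C) (D := fun y => D (a + b - y))
    (D' := fun y => -D' (a + b - y)) (fun y hy => hh _ (hm y hy)) (fun y hy => ?_)
    (fun y hy => hb _ (hm y hy)) (by simpa using h0)
  · intro x hx
    simpa using key _ (hm x hx)
  · have h1 : HasDerivWithinAt (fun y : ℝ => a + b - y) (-1) (Set.Icc a b) y :=
      ((hasDerivAt_id y).const_sub (a + b)).hasDerivWithinAt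
    have h2 := (hd _ (hm y hy)).scomp y h1 hm
    rw [neg_smul, one_smul] at h2
    exact h2

/-- truncated square -/
noncomputable def fR (R t : ℝ) : ℝ := min (t ^ 2) (R ^ 2)

/-- clamp to `[0,R]` -/
noncomputable def cl (R t : ℝ) : ℝ := max 0 (min t R)

/-- Hermitian part -/
noncomputable def reM (X : Matrix n n ℂ) : Matrix n n ℂ := (1 / 2 : ℝ) • (X + Xᴴ)

lemma fR_eq {R : ℝ} (hR : 0 ≤ R) (t : ℝ) : fR R t = (min |t| R) ^ 2 := by
  unfold fR
  rcases le_total |t| R with h | h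
  · rw [min_eq_left h, sq_abs, min_eq_left]
    rw [← sq_abs]; gcongr
  · rw [min_eq_right h, min_eq_right]
    rw [← sq_abs t]; gcongr

lemma fR_lip {R : ℝ} (hR : 0 ≤ R) (s t : ℝ) : |fR R s - fR R t| ≤ 2 * R * |s - t| := by
  rw [fR_eq hR, fR_eq hR, sq_sub_sq, abs_mul]
  have h1 : |min |s| R - min |t| R| ≤ |s - t| :=
    (abs_min_sub_min_le_max _ _ _ _).trans (by simpa using abs_abs_sub_abs_le_abs_sub s t)
  have h2 : |min |s| R + min |t| R| ≤ 2 * R := by
    rw [abs_of_nonneg (by positivity)]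
    linarith [min_le_right |s| R, min_le_right |t| R]
  gcongr

lemma fR_nonneg (R t : ℝ) : 0 ≤ fR R t := le_min (sq_nonneg _) (sq_nonneg _)

lemma fR_le (R t : ℝ) : fR R t ≤ R ^ 2 := min_le_right _ _

lemma cl_nonneg (R t : ℝ) : 0 ≤ cl R t := le_max_left _ _

lemma cl_le {R : ℝ} (hR : 0 ≤ R) (t : ℝ) : cl R t ≤ R := max_le hR (min_le_right _ _)

lemma reM_herm (X : Matrix n n ℂ) : (reM X).IsHermitian := by
  simp [reM, IsHermitian, add_comm]

lemma reM_of_herm {X : Matrix n n ℂ} (hX : X.IsHermitian) : reM X = X := by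
  rw [reM, hX.eq, ← two_smul ℝ X, smul_smul]; simp

lemma continuous_reM : Continuous (reM : Matrix n n ℂ → Matrix n n ℂ) := by
  unfold reM
  fun_prop

lemma norm_reM_sub (X Y : Matrix n n ℂ) : ‖reM X - reM Y‖ ≤ ‖X - Y‖ := by
  have : reM X - reM Y = (1 / 2 : ℝ) • ((X - Y) + (X - Y)ᴴ) := by
    rw [reM, reM, ← smul_sub, conjTranspose_sub]; congr 1; abel
  rw [this, norm_smul]
  have h2 := norm_add_le (X - Y) (X - Y)ᴴ
  rw [frobenius_norm_conjTranspose] at h2
  simp only [one_div, norm_inv, Real.norm_ofNat]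
  linarith

lemma norm_cfc_le {f : ℝ → ℝ} {c : ℝ} (h0 : ∀ t, 0 ≤ f t) (hc : ∀ t, f t ≤ c)
    {A : Matrix n n ℂ} (hA : A.IsHermitian) : ‖cfc f A‖ ≤ Fintype.card n * c := by
  refine (norm_le_rt (cfc_psd hA h0)).trans ?_
  obtain ⟨U, d, h⟩ := exists_diag hA
  rw [(h.cfc f).rt]
  calc ∑ i, f (d i) ≤ ∑ _i : n, c := Finset.sum_le_sum fun i _ => hc _
    _ = _ := by simp

lemma sub_cfc_psd {f : ℝ → ℝ} {c : ℝ} (hc : ∀ t, f t ≤ c)
    {A : Matrix n n ℂ} (hA : A.IsHermitian) : (c • (1 : Matrix n n ℂ) - cfc f A).PosSemidef := by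
  obtain ⟨U, d, h⟩ := exists_diag hA
  exact (((Diag.one h.uu).smul c).sub (h.cfc f)).psd fun i => by simpa using hc _

lemma smul_one_herm (c : ℝ) : (c • (1 : Matrix n n ℂ)).IsHermitian := by
  simp [IsHermitian]

lemma smul_one_psd {c : ℝ} (hc : 0 ≤ c) : (c • (1 : Matrix n n ℂ)).PosSemidef := by
  rw [← dg_const]; exact dg_psd fun _ => hc

/-- on the range of `(R - M)₋` the truncated square is `R²` -/
lemma ng_up_mul {R : ℝ} (hR : 0 ≤ R) {M : Matrix n n ℂ} (hM : M.IsHermitian) :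
    ng (R • (1 : Matrix n n ℂ) - M) * cfc (fR R) M = R ^ 2 • ng (R • (1 : Matrix n n ℂ) - M) := by
  obtain ⟨U, d, h⟩ := exists_diag hM
  have h1 := (((Diag.one h.uu).smul R).sub h).cfc fun t : ℝ => max (-t) 0
  refine (h1.mul (h.cfc (fR R))).ext (h1.smul (R ^ 2)) fun i => ?_
  rcases le_total (d i) R with h2 | h2
  · rw [max_eq_right (by linarith)]; simp
  · rw [fR, min_eq_right (by gcongr), mul_comm]

lemma ng_lo_mul {R : ℝ} (hR : 0 ≤ R) {M : Matrix n n ℂ} (hM : M.IsHermitian) :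
    ng (R • (1 : Matrix n n ℂ) + M) * cfc (fR R) M = R ^ 2 • ng (R • (1 : Matrix n n ℂ) + M) := by
  obtain ⟨U, d, h⟩ := exists_diag hM
  have h1 := (((Diag.one h.uu).smul R).add h).cfc fun t : ℝ => max (-t) 0
  refine (h1.mul (h.cfc (fR R))).ext (h1.smul (R ^ 2)) fun i => ?_
  rcases le_total (-d i) R with h2 | h2
  · rw [max_eq_right (by linarith)]; simp
  · rw [fR, min_eq_right (by nlinarith), mul_comm]

lemma cfc_fR_eq {R : ℝ} {M : Matrix n n ℂ} (hM : M.IsHermitian)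
    (h1 : (R • (1 : Matrix n n ℂ) - M).PosSemidef) (h2 : (R • (1 : Matrix n n ℂ) + M).PosSemidef) :
    cfc (fR R) M = M * M := by
  obtain ⟨U, d, h⟩ := exists_diag hM
  refine (h.cfc (fR R)).ext (h.mul h) fun i => ?_
  have h3 := (((Diag.one h.uu).smul R).sub h).nonneg h1 i
  have h4 := (((Diag.one h.uu).smul R).add h).nonneg h2 i
  rw [fR, min_eq_left (by nlinarith), sq]

/-- the key trace bound for the Riccati linearisation -/
lemma rt_lin {R : ℝ} {D S V : Matrix n n ℂ} (hD : D.IsHermitian)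
    (hS : (R • (1 : Matrix n n ℂ) + S).PosSemidef) (hV : V.PosSemidef) :
    -(R * ‖ng D‖ ^ 2) ≤ rt (ng D * (V - (1 / 2 : ℝ) • (S * D + D * S))) := by
  have h1 : rt (ng D * (S * D)) = -rt (ng D * ng D * S) := by
    rw [← Matrix.mul_assoc, rt_mul_comm, ← Matrix.mul_assoc, mul_ng hD, Matrix.neg_mul, rt_neg]
  have h2 : rt (ng D * (D * S)) = -rt (ng D * ng D * S) := by
    rw [← Matrix.mul_assoc, ng_mul hD, Matrix.neg_mul, rt_neg]
  have h3 := rt_mul_nonneg (ng_psd hD) hV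
  have h4 : (ng D * ng D).PosSemidef := by
    have := posSemidef_conjTranspose_mul_self (ng D)
    rwa [(ng_herm D).eq] at this
  have h5 := rt_mul_nonneg h4 hS
  rw [Matrix.mul_add, rt_add, Matrix.mul_smul, Matrix.mul_one, rt_smul,
    ← norm_sq_herm (ng_herm D)] at h5
  rw [Matrix.mul_sub, Matrix.mul_smul, Matrix.mul_add, rt_sub, rt_smul, rt_add, h1, h2]
  linarith

section path
variable {a b R : ℝ} {K : Matrix n n ℂ} {M V : ℝ → Matrix n n ℂ}

lemma path_herm (hK : K.IsHermitian) (hV : ∀ t, (V t).PosSemidef) (h0 : M a = K)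
    (hM : ∀ t ∈ Set.Icc a b,
      HasDerivWithinAt M (K * K - V t - cfc (fR R) (reM (M t))) (Set.Icc a b) t) :
    ∀ t ∈ Set.Icc a b, (M t).IsHermitian := by
  have hd : ∀ t ∈ Set.Icc a b, HasDerivWithinAt (fun s => M s - (M s)ᴴ) 0 (Set.Icc a b) t := by
    intro t ht
    have h1 := hM t ht
    have h2 : HasDerivWithinAt (fun s => (M s)ᴴ) (K * K - V t - cfc (fR R) (reM (M t)))ᴴ
        (Set.Icc a b) t := (ctL (n := n)).hasFDerivAt.comp_hasDerivWithinAt t h1
    have h3 : (K * K - V t - cfc (fR R) (reM (M t)))ᴴ = K * K - V t - cfc (fR R) (reM (M t)) := by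
      rw [conjTranspose_sub, conjTranspose_sub, conjTranspose_mul, hK.eq, (hV t).1.eq,
        (cfc_herm _ _).eq]
    rw [h3] at h2
    have h4 := h1.sub h2
    rw [sub_self] at h4
    exact h4
  have := constant_of_has_deriv_right_zero (f := fun s => M s - (M s)ᴴ) (a := a) (b := b)
    (fun t ht => (hd t ht).continuousWithinAt)
    (fun x hx => (hd x (Set.Ico_subset_Icc_self hx)).mono_of_mem_nhdsWithin
      (Icc_mem_nhdsGE_of_mem hx))
  intro t ht
  have h5 := this t ht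
  simp only [h0, hK.eq, sub_self] at h5
  exact (sub_eq_zero.mp h5).symm

lemma path_bounds (hR : 0 ≤ R) (hK : K.PosSemidef)
    (hKR : (R • (1 : Matrix n n ℂ) - K).PosSemidef) (hV : ∀ t, (V t).PosSemidef) (h0 : M a = K)
    (hh : ∀ t ∈ Set.Icc a b, (M t).IsHermitian)
    (hM : ∀ t ∈ Set.Icc a b,
      HasDerivWithinAt M (K * K - V t - cfc (fR R) (M t)) (Set.Icc a b) t)
    (hb : (K + M b).PosSemidef) :
    ∀ t ∈ Set.Icc a b, cfc (fR R) (M t) = M t * M t ∧ (K - M t).PosSemidef ∧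
      (K + M t).PosSemidef := by
  have hKK : (R ^ 2 • (1 : Matrix n n ℂ) - K * K).PosSemidef :=
    sq_le_of_bound hKR ((smul_one_psd hR).add hK)
  have aux : ∀ (N : Matrix n n ℂ) (t : ℝ), N.PosSemidef → N * cfc (fR R) (M t) = R ^ 2 • N →
      -(0 * ‖N‖ ^ 2) ≤ rt (N * -(K * K - V t - cfc (fR R) (M t))) := by
    intro N t hN he
    have h1 := rt_mul_nonneg hN hKK
    have h2 := rt_mul_nonneg hN (hV t)
    rw [Matrix.mul_sub, Matrix.mul_smul, Matrix.mul_one, rt_sub] at h1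
    rw [Matrix.mul_neg, Matrix.mul_sub, Matrix.mul_sub, he, rt_neg, rt_sub, rt_sub]
    linarith
  have up : ∀ t ∈ Set.Icc a b, (R • (1 : Matrix n n ℂ) - M t).PosSemidef := by
    refine negPart_fwd (C := 0) (D := fun t => R • (1 : Matrix n n ℂ) - M t)
      (D' := fun t => -(K * K - V t - cfc (fR R) (M t)))
      (fun t ht => (smul_one_herm R).sub (hh t ht)) (fun t ht => (hM t ht).const_sub _)
      (fun t ht => aux _ t (ng_psd ((smul_one_herm R).sub (hh t ht))) (ng_up_mul hR (hh t ht)))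
      (by simpa [h0] using hKR)
  have lo : ∀ t ∈ Set.Icc a b, (R • (1 : Matrix n n ℂ) + M t).PosSemidef := by
    refine negPart_bwd (C := 0) (D := fun t => R • (1 : Matrix n n ℂ) + M t)
      (D' := fun t => K * K - V t - cfc (fR R) (M t))
      (fun t ht => (smul_one_herm R).add (hh t ht)) (fun t ht => (hM t ht).const_add _)
      (fun t ht => aux _ t (ng_psd ((smul_one_herm R).add (hh t ht))) (ng_lo_mul hR (hh t ht)))
      ?_
    have := hKR.add hb
    have e : R • (1 : Matrix n n ℂ) - K + (K + M b) = R • (1 : Matrix n n ℂ) + M b := by abel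
    rwa [e] at this
  have sq : ∀ t ∈ Set.Icc a b, cfc (fR R) (M t) = M t * M t := fun t ht =>
    cfc_fR_eq (hh t ht) (up t ht) (lo t ht)
  have up' : ∀ t ∈ Set.Icc a b, (K - M t).PosSemidef := by
    refine negPart_fwd (C := R) (D := fun t => K - M t)
      (D' := fun t => -(K * K - V t - cfc (fR R) (M t)))
      (fun t ht => hK.1.sub (hh t ht)) (fun t ht => (hM t ht).const_sub _) (fun t ht => ?_)
      (by simpa [h0] using PosSemidef.zero)
    have h1 : (R • (1 : Matrix n n ℂ) + (K + M t)).PosSemidef := by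
      have := (lo t ht).add hK
      have e : R • (1 : Matrix n n ℂ) + M t + K = R • (1 : Matrix n n ℂ) + (K + M t) := by abel
      rwa [e] at this
    have h2 := rt_lin (hK.1.sub (hh t ht)) h1 (hV t)
    have e : V t - (1 / 2 : ℝ) • ((K + M t) * (K - M t) + (K - M t) * (K + M t)) =
        -(K * K - V t - cfc (fR R) (M t)) := by
      rw [sq t ht]
      simp only [Matrix.mul_add, Matrix.add_mul, Matrix.mul_sub, Matrix.sub_mul]
      module
    rwa [e] at h2
  have lo' : ∀ t ∈ Set.Icc a b, (K + M t).PosSemidef := by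
    refine negPart_bwd (C := R) (D := fun t => K + M t)
      (D' := fun t => K * K - V t - cfc (fR R) (M t))
      (fun t ht => hK.1.add (hh t ht)) (fun t ht => (hM t ht).const_add _) (fun t ht => ?_) hb
    have h1 : (R • (1 : Matrix n n ℂ) + (K - M t)).PosSemidef :=
      (smul_one_psd hR).add (up' t ht)
    have h2 := rt_lin (hK.1.add (hh t ht)) h1 (hV t)
    have e : V t - (1 / 2 : ℝ) • ((K - M t) * (K + M t) + (K + M t) * (K - M t)) =
        -(K * K - V t - cfc (fR R) (M t)) := by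
      rw [sq t ht]
      simp only [Matrix.mul_add, Matrix.add_mul, Matrix.mul_sub, Matrix.sub_mul]
      module
    rwa [e] at h2
  exact fun t ht => ⟨sq t ht, up' t ht, lo' t ht⟩

/-- step (1): the part of the fixed point above `R` vanishes -/
lemma path_top {C : ℝ} (hab : a ≤ b) (hRC : C * (b - a) ≤ 2 * R) (hV : ∀ t, (V t).PosSemidef)
    (hVb : ∀ t, rt (V t) ≤ C) (h0 : M a = K)
    (hh : ∀ t ∈ Set.Icc a b, (M t).IsHermitian)
    (hM : ∀ t ∈ Set.Icc a b,
      HasDerivWithinAt M (K * K - V t - cfc (fR R) (M t)) (Set.Icc a b) t)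
    {Y : Matrix n n ℂ} (hY : Y.PosSemidef) (hYK : Y * K = R • Y) :
    -(R * rt Y) ≤ rt (Y * M b) := by
  have hd : ∀ t ∈ Set.Icc a b, HasDerivWithinAt (fun s => rt (Y * M s))
      (rt (Y * (K * K - V t - cfc (fR R) (M t)))) (Set.Icc a b) t := fun t ht =>
    (rtL (n := n)).hasFDerivAt.comp_hasDerivWithinAt t ((hM t ht).const_mul Y)
  have hbd : ∀ t ∈ Set.Icc a b,
      -(C * rt Y) ≤ rt (Y * (K * K - V t - cfc (fR R) (M t))) := by
    intro t ht
    have h1 := rt_mul_nonneg hY (sub_cfc_psd (fR_le R) (hh t ht))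
    have h2 := rt_mul_nonneg hY (psd_le_rt (hV t))
    have h3 : Y * (K * K) = R ^ 2 • Y := by
      rw [← Matrix.mul_assoc, hYK, Matrix.smul_mul, hYK, smul_smul, sq]
    rw [Matrix.mul_sub, Matrix.mul_smul, Matrix.mul_one, rt_sub, rt_smul] at h1 h2
    rw [Matrix.mul_sub, Matrix.mul_sub, h3, rt_sub, rt_sub, rt_smul]
    have h4 := mul_le_mul_of_nonneg_right (hVb t) (rt_nonneg hY)
    linarith
  have key := image_le_of_deriv_right_le_deriv_boundary
    (f := fun s => R * rt Y - C * rt Y * (s - a)) (f' := fun _ => -(C * rt Y)) (a := a) (b := b)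
    (by fun_prop) (fun x _ => by
      have := (((hasDerivAt_id x).sub_const a).const_mul (C * rt Y)).const_sub (R * rt Y)
      simpa using this.hasDerivWithinAt)
    (B := fun s => rt (Y * M s)) (B' := fun t => rt (Y * (K * K - V t - cfc (fR R) (M t))))
    (by simp [h0, hYK]) (fun t ht => (hd t ht).continuousWithinAt)
    (fun x hx => (hd x (Set.Ico_subset_Icc_self hx)).mono_of_mem_nhdsWithin
      (Icc_mem_nhdsGE_of_mem hx))
    (fun x hx => hbd x (Set.Ico_subset_Icc_self hx)) (Set.right_mem_Icc.mpr hab)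
  have h4 := mul_le_mul_of_nonneg_right hRC (rt_nonneg hY)
  linarith

/-- step (5): extension to the whole line -/
lemma path_extend (hab : a ≤ b) (hV0 : ∀ t, t ∉ Set.Ioo a b → V t = 0) (h0 : M a = K)
    (h1 : M b = -K)
    (hM : ∀ t ∈ Set.Icc a b, HasDerivWithinAt M (K * K - M t * M t - V t) (Set.Icc a b) t)
    (x : ℝ) : HasDerivAt (fun y => M (Set.projIcc a b hab y))
      (K * K - M (Set.projIcc a b hab x) * M (Set.projIcc a b hab x) - V x) x := by
  set N : ℝ → Matrix n n ℂ := fun y => M (Set.projIcc a b hab y) with hN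
  have hl : ∀ y ≤ a, N y = K := fun y hy => by simp [hN, Set.projIcc_of_le_left hab hy, h0]
  have hr : ∀ y, b ≤ y → N y = -K := fun y hy => by simp [hN, Set.projIcc_of_right_le hab hy, h1]
  have hm : ∀ y ∈ Set.Icc a b, N y = M y := fun y hy => by simp [hN, Set.projIcc_of_mem hab hy]
  change HasDerivAt N (K * K - N x * N x - V x) x
  have e1 : HasDerivWithinAt N (K * K - N x * N x - V x) (Set.Iic a) x := by
    by_cases hx : x ∈ Set.Iic a
    · rw [hl x hx, hV0 x fun h => absurd h.1 (not_lt.mpr hx), sub_self, sub_self]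
      exact (hasDerivWithinAt_const x _ K).congr (fun y hy => hl y hy) (hl x hx)
    · exact HasFDerivWithinAt.of_notMem_closure (by rwa [closure_Iic])
  have e2 : HasDerivWithinAt N (K * K - N x * N x - V x) (Set.Ici b) x := by
    by_cases hx : x ∈ Set.Ici b
    · rw [hr x hx, hV0 x fun h => absurd h.2 (not_lt.mpr hx), neg_mul_neg, sub_self, sub_self]
      exact (hasDerivWithinAt_const x _ (-K)).congr (fun y hy => hr y hy) (hr x hx)
    · exact HasFDerivWithinAt.of_notMem_closure (by rwa [closure_Ici])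
  have e3 : HasDerivWithinAt N (K * K - N x * N x - V x) (Set.Icc a b) x := by
    by_cases hx : x ∈ Set.Icc a b
    · rw [hm x hx]
      exact (hM x hx).congr hm (hm x hx)
    · exact HasFDerivWithinAt.of_notMem_closure (by rwa [closure_Icc])
  have e4 := (e1.union e3).union e2
  rw [Set.Iic_union_Icc_eq_Iic hab, Set.Iic_union_Ici] at e4
  exact hasDerivWithinAt_univ.mp e4

end path

lemma eq_zero_of_rt {Y : Matrix n n ℂ} (hY : Y.IsHermitian) (h : rt (Y * Y) ≤ 0) : Y = 0 := by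
  rw [← norm_sq_herm hY] at h
  have h2 : ‖Y‖ ^ 2 = 0 := le_antisymm h (sq_nonneg _)
  simpa using h2

lemma clamp_decomp {R : ℝ} (hR : 0 ≤ R) {Y : Matrix n n ℂ} (hY : Y.IsHermitian) :
    ∃ Y₁ Y₂ : Matrix n n ℂ, Y₁.PosSemidef ∧ Y₂.PosSemidef ∧ Y = cfc (cl R) Y + Y₁ - Y₂ ∧
      Y₁ * cfc (cl R) Y = R • Y₁ ∧ Y₁ * Y₂ = 0 ∧ Y₂ * cfc (cl R) Y = 0 := by
  obtain ⟨U, d, h⟩ := exists_diag hY
  have h1 := h.cfc fun t : ℝ => max (t - R) 0
  have h2 := h.cfc fun t : ℝ => max (-t) 0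
  have h3 := h.cfc (cl R)
  have hz : Diag (0 : Matrix n n ℂ) U fun _ => 0 := ⟨h.uu, by simp [dg]⟩
  refine ⟨_, _, h1.psd fun i => le_max_right _ _, h2.psd fun i => le_max_right _ _,
    h.ext ((h3.add h1).sub h2) fun i => ?_, (h1.mul h3).ext (h1.smul R) fun i => ?_,
    (h1.mul h2).ext hz fun i => ?_, (h2.mul h3).ext hz fun i => ?_⟩
  all_goals
    rcases le_total (d i) R with a1 | a1
    · rcases le_total (d i) 0 with a2 | a2
      · simp [cl, min_eq_left a1, max_eq_left a2, max_eq_right (sub_nonpos.mpr a1),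
          max_eq_left (neg_nonneg.mpr a2)]
      · simp [cl, min_eq_left a1, max_eq_right a2, max_eq_right (sub_nonpos.mpr a1),
          max_eq_right (neg_nonpos.mpr a2)]
    · simp [cl, min_eq_right a1, max_eq_right hR, max_eq_left (sub_nonneg.mpr a1),
        max_eq_right (neg_nonpos.mpr (hR.trans a1)), mul_comm]

end RiccatiA

open RiccatiA

theorem negPart_lemma {a b C : ℝ} {D D' : ℝ → Matrix n n ℂ} (hab : a ≤ b)
    (hc : ContinuousOn D (Set.Icc a b)) (hh : ∀ x ∈ Set.Icc a b, (D x).IsHermitian)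
    (hd : ∀ x ∈ Set.Ico a b, HasDerivWithinAt D (D' x) (Set.Ici x) x)
    (hb : ∀ x ∈ Set.Ico a b, -(C * ‖cfc (fun t : ℝ => max (-t) 0) (D x)‖ ^ 2) ≤
      rt (cfc (fun t : ℝ => max (-t) 0) (D x) * D' x))
    (h0 : (D a).PosSemidef) : ∀ x ∈ Set.Icc a b, (D x).PosSemidef :=
  negPart hc hh hd hb h0

theorem riccati_exists {a b C : ℝ} (hab : a ≤ b) (V : Matrix n n ℂ → ℝ → Matrix n n ℂ)
    (hVc : ContinuousOn (fun z : Matrix n n ℂ × ℝ => V z.1 z.2) ({K | K.IsHermitian} ×ˢ Set.univ))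
    (hVp : ∀ K x, (V K x).PosSemidef) (hV0 : ∀ K x, x ∉ Set.Ioo a b → V K x = 0)
    (hVb : ∀ K x, rt (V K x) ≤ C) :
    ∃ (K : Matrix n n ℂ) (M : ℝ → Matrix n n ℂ), K.PosSemidef ∧
      (∀ x, HasDerivAt M (K * K - M x * M x - V K x) x) ∧
      (∀ x, (K - M x).PosSemidef) ∧ (∀ x, (K + M x).PosSemidef) ∧
      (∀ x, x ≤ a → M x = K) ∧ (∀ x, b ≤ x → M x = -K) := by
  have hC : 0 ≤ C := (rt_nonneg (hVp 0 0)).trans (hVb 0 0)
  set R : ℝ := C * (b - a) with hRdef
  have hR : 0 ≤ R := mul_nonneg hC (sub_nonneg.mpr hab)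
  set N : ℝ := (Fintype.card n : ℝ) with hN
  have hN0 : 0 ≤ N := Nat.cast_nonneg _
  set Kf : Matrix n n ℂ → Matrix n n ℂ := fun X => cfc (cl R) (reM X) with hKf
  have hKc : Continuous Kf :=
    Continuous.cfc_herm (f := cl R) (by unfold cl; fun_prop) continuous_reM reM_herm
  have hKp : ∀ X, (Kf X).PosSemidef := fun X => cfc_psd (reM_herm X) (cl_nonneg R)
  have hKR : ∀ X, (R • (1 : Matrix n n ℂ) - Kf X).PosSemidef := fun X =>
    sub_cfc_psd (cl_le hR) (reM_herm X)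
  have hKn : ∀ X, ‖Kf X‖ ≤ N * R := fun X => norm_cfc_le (cl_nonneg R) (cl_le hR) (reM_herm X)
  have hG : LipschitzWith ⟨2 * R, by positivity⟩
      fun X : Matrix n n ℂ => cfc (fR R) (reM X) := by
    refine LipschitzWith.of_dist_le_mul fun X Y => ?_
    rw [dist_eq_norm, dist_eq_norm]
    refine (norm_cfc_sub_le (by positivity) (fR_lip hR) (reM_herm X) (reM_herm Y)).trans ?_
    exact mul_le_mul_of_nonneg_left (norm_reM_sub X Y) (by positivity)
  set B : ℝ := N * R * (N * R) + C + N * R ^ 2 with hB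
  have hB0 : 0 ≤ B := by positivity
  have hW : Continuous fun z : Matrix n n ℂ × ℝ => Kf z.1 * Kf z.1 - V (Kf z.1) z.2 := by
    have h1 : Continuous fun z : Matrix n n ℂ × ℝ => Kf z.1 := hKc.comp continuous_fst
    have h2 : Continuous fun z : Matrix n n ℂ × ℝ => V (Kf z.1) z.2 :=
      hVc.comp_continuous (f := fun z : Matrix n n ℂ × ℝ => (Kf z.1, z.2))
        (h1.prodMk continuous_snd) fun z => ⟨(hKp z.1).1, Set.mem_univ _⟩
    exact (h1.mul h1).sub h2
  have hWb : ∀ (X : Matrix n n ℂ) (t : ℝ) (y : Matrix n n ℂ),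
      ‖Kf X * Kf X - V (Kf X) t - cfc (fR R) (reM y)‖ ≤ B := by
    intro X t y
    have h1 : ‖Kf X * Kf X‖ ≤ N * R * (N * R) :=
      (norm_mul_le' _ _).trans (mul_le_mul (hKn X) (hKn X) (norm_nonneg _) (by positivity))
    have h2 : ‖V (Kf X) t‖ ≤ C := (norm_le_rt (hVp _ _)).trans (hVb _ _)
    have h3 : ‖cfc (fR R) (reM y)‖ ≤ N * R ^ 2 :=
      norm_cfc_le (fR_nonneg R) (fR_le R) (reM_herm y)
    have h4 := norm_sub_le (Kf X * Kf X - V (Kf X) t) (cfc (fR R) (reM y))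
    have h5 := norm_sub_le (Kf X * Kf X) (V (Kf X) t)
    linarith
  obtain ⟨M, hM0, hM, hMc⟩ := param_ode (P := Matrix n n ℂ) hab hG hB0
    (W := fun X t => Kf X * Kf X - V (Kf X) t) hW hWb hKc
  have hMb : ∀ X, ‖M X b - Kf X‖ ≤ B * (b - a) := by
    intro X
    have := norm_image_sub_le_of_norm_deriv_le_segment' (f := M X) (C := B) (hM X)
      (fun x _ => hWb X x _) b (Set.right_mem_Icc.mpr hab)
    rwa [hM0] at this
  obtain ⟨Y, hY⟩ := brouwer (fun X => (1 / 2 : ℝ) • (Kf X - M X b))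
    ((hKc.sub hMc).const_smul (1 / 2 : ℝ)) (B * (b - a)) fun X => by
      rw [norm_smul, norm_sub_rev]
      have h1 := hMb X
      have h2 := norm_nonneg (M X b - Kf X)
      simp only [one_div, norm_inv, Real.norm_ofNat]
      linarith
  set K := Kf Y with hK
  have hh := path_herm (hKp Y).1 (hVp K) (hM0 Y) (hM Y)
  have hhb := hh b (Set.right_mem_Icc.mpr hab)
  have hM' : ∀ t ∈ Set.Icc a b, HasDerivWithinAt (M Y) (K * K - V K t - cfc (fR R) (M Y t))
      (Set.Icc a b) t := fun t ht => by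
    have := hM Y t ht
    rwa [reM_of_herm (hh t ht)] at this
  have hYh : Y.IsHermitian := by
    rw [← hY]
    have := ((hKp Y).1.sub hhb).eq
    simp only [IsHermitian, conjTranspose_smul, star_trivial]
    rw [this]
  have hKY : K = cfc (cl R) Y := by rw [hK, hKf]; simp only [reM_of_herm hYh]
  obtain ⟨Y₁, Y₂, p1, p2, hdec, e1, e2, e3⟩ := clamp_decomp hR hYh
  rw [← hKY] at hdec e1 e3
  have hend : M Y b = -K - (2 : ℝ) • Y₁ + (2 : ℝ) • Y₂ := by
    have h1 : (1 / 2 : ℝ) • (K - M Y b) = K + Y₁ - Y₂ := by rw [← hdec]; exact hY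
    have h2 : M Y b = K - (2 : ℝ) • ((1 / 2 : ℝ) • (K - M Y b)) := by module
    rw [h2, h1]; module
  have z1 : Y₁ = 0 := by
    have h1 := path_top hab (by rw [← hRdef]; linarith) (hVp K) (hVb K) (hM0 Y) hh hM' p1 e1
    rw [hend, Matrix.mul_add, Matrix.mul_sub, Matrix.mul_neg, e1, Matrix.mul_smul,
      Matrix.mul_smul, e2] at h1
    simp only [smul_zero, add_zero, rt_sub, rt_neg, rt_smul] at h1
    exact eq_zero_of_rt p1.1 (by linarith)
  have hb : (K + M Y b).PosSemidef := by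
    have : K + M Y b = Y₂ + Y₂ := by rw [hend, z1]; module
    rw [this]; exact p2.add p2
  have hbd := path_bounds hR (hKp Y) (hKR Y) (hVp K) (hM0 Y) hh hM' hb
  have z2 : Y₂ = 0 := by
    have h1 := rt_mul_nonneg p2 (hbd b (Set.right_mem_Icc.mpr hab)).2.1
    have : K - M Y b = (2 : ℝ) • K - (2 : ℝ) • Y₂ := by rw [hend, z1]; module
    rw [this, Matrix.mul_sub, Matrix.mul_smul, Matrix.mul_smul, e3] at h1
    simp only [smul_zero, rt_sub, rt_zero, rt_smul] at h1
    exact eq_zero_of_rt p2.1 (by linarith)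
  have hend' : M Y b = -K := by rw [hend, z1, z2]; simp
  refine ⟨K, fun y => M Y (Set.projIcc a b hab y), hKp Y, fun x => ?_,
    fun x => (hbd _ (Set.projIcc a b hab x).2).2.1, fun x => (hbd _ (Set.projIcc a b hab x).2).2.2,
    fun x hx => by simp [Set.projIcc_of_le_left hab hx, hM0, hK],
    fun x hx => by simp [Set.projIcc_of_right_le hab hx, hend']⟩
  refine path_extend hab (hV0 K) (hM0 Y) hend' (fun t ht => ?_) x
  have := hM' t ht
  rwa [(hbd t ht).1, sub_right_comm] at this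

end Crest.Agent.R332
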