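import Crest.Agent.R332.ClaimB
import Crest.Agent.R332.Riccati
import Crest.Agent.R332.Young

/-! Row 332, task Master: from a trial family to a Riccati path with small deficits.

`Φ x = tm φ x` is the `n × m` matrix `conj (φ_k(x)_i)`, `Φ' x = tm (deriv φ) x`;
`∫ Φ Φᴴ = 1`, `energyMatrix W φ = ∫ (Φ' Φ'ᴴ - Φ W Φᴴ)` entrywise.  `trial_rt`: for constant
`C : ι × n`, `X : ι × ι` this gives the two trace identities below.
`master`: `A = energyMatrix W φ` is Hermitian, `Diag A Q λ`; `ι = {k // λ k < 0}`, `a k = -λ k`,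
`C₀ = (Q.submatrix id Subtype.val)ᴴ`, so `C₀ C₀ᴴ = 1`, `C₀ A C₀ᴴ = -dg a`,
`negMoment A γ = Σ_ι a^γ`.  `klein_select` gives `B`; `c₀ = 1/(Lc β (1+β))`,
`ψ_K x = √c₀ • B K * C₀ * Φ x`, `V K x = pot β (ψ_K x)` (`rt V ≤ tp ρ (1/β)` is bounded: continuous
function on a compact set of matrices, or `tp ρ s ≤ m ‖ρ‖^s`).  `riccati_exists` on `[a,b] ⊇`
all supports gives `K, M`; `Diag K U κ`; take `ψ = Uᴴ ψ_K`, `M := Uᴴ M U` (`pot_unitary`).
`square_identity`: with `h = rt(ψᴴ M ψ)`,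
`‖ψ' - Mψ‖² = ‖ψ'‖² - h' + rt(ψᴴ K² ψ) - tp ρ (1+1/β)` and `∫ h' = 0`.  Hence
`Dsq + J - ∫ rt(Wρ) = c₀ rt(B B (K² - dg a))`, `DY = I/p + J/p' - ∫ rt(Wρ)`, `1/p + 1/p' = 1`. -/

set_option autoImplicit false
set_option linter.unusedSectionVars false

open Matrix Filter Topology MeasureTheory
open scoped ComplexOrder Matrix.Norms.Frobenius

namespace Crest.Agent.R332

open Crest.MathPhysics.LiebThirring

/-- the matrix of a family of vector functions -/
noncomputable def tm {m N : ℕ} (φ : Fin N → ℝ → Vec m) (x : ℝ) : Matrix (Fin N) (Fin m) ℂ :=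
  Matrix.of fun k i => star (φ k x i)

namespace MasterA

lemma tm_apply {m N : ℕ} (φ : Fin N → ℝ → Vec m) (x : ℝ) (k : Fin N) (i : Fin m) :
    tm φ x k i = star (φ k x i) := rfl

lemma gram_apply {m N : ℕ} (φ : Fin N → ℝ → Vec m) (x : ℝ) (k l : Fin N) :
    (tm φ x * (tm φ x)ᴴ) k l = inner ℂ (φ k x) (φ l x) := by
  simp [mul_apply, tm_apply, PiLp.inner_apply, mul_comm]

lemma pot_apply {m N : ℕ} (φ : Fin N → ℝ → Vec m) (x : ℝ) (W : Matrix (Fin m) (Fin m) ℂ)
    (k l : Fin N) :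
    (tm φ x * W * (tm φ x)ᴴ) k l = inner ℂ (φ k x) (Matrix.toEuclideanLin W (φ l x)) := by
  simp only [mul_apply, tm_apply, PiLp.inner_apply, conjTranspose_apply, star_star,
    toLpLin_apply, mulVec, dotProduct, RCLike.inner_apply, Finset.sum_mul]
  rw [Finset.sum_comm]
  refine Finset.sum_congr rfl fun i _ => Finset.sum_congr rfl fun j _ => ?_
  simp only [RCLike.star_def]
  ring

lemma energy_apply {m N : ℕ} (W : ℝ → Matrix (Fin m) (Fin m) ℂ) (φ : Fin N → ℝ → Vec m)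
    (k l : Fin N) : energyMatrix W φ k l =
      ∫ x, (tm (fun k => deriv (φ k)) x * (tm (fun k => deriv (φ k)) x)ᴴ -
        tm φ x * W x * (tm φ x)ᴴ) k l := by
  simp only [energyMatrix, of_apply, Matrix.sub_apply, gram_apply, pot_apply]

lemma continuous_tm {m N : ℕ} {φ : Fin N → ℝ → Vec m} (h : ∀ k, Continuous (φ k)) :
    Continuous (tm φ) := by
  refine continuous_matrix fun k i => ?_
  have := h k
  simp only [tm_apply]
  fun_prop

lemma hcs {E : Type*} [Zero E] {f : ℝ → E} {a b : ℝ} (h : ∀ x, x ∉ Set.Ioo a b → f x = 0) :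
    HasCompactSupport f :=
  HasCompactSupport.intro (isCompact_Icc (a := a) (b := b))
    fun x hx => h x fun hx' => hx (Set.Ioo_subset_Icc_self hx')

lemma integrable_of {E : Type*} [NormedAddCommGroup E] {f : ℝ → E} {a b : ℝ} (hf : Continuous f)
    (h : ∀ x, x ∉ Set.Ioo a b → f x = 0) : Integrable f :=
  hf.integrable_of_hasCompactSupport (hcs h)

variable {n : Type*} [Fintype n] [DecidableEq n]

lemma rt_mul_eq (Y G : Matrix n n ℂ) : rt (Y * G) = (∑ k, ∑ l, Y k l * G l k).re := by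
  simp [rt, trace, mul_apply]

lemma integrable_rt_mul (Y : Matrix n n ℂ) {G : ℝ → Matrix n n ℂ}
    (hG : ∀ k l, Integrable fun x => G x k l) : Integrable fun x => rt (Y * G x) := by
  simp only [rt_mul_eq]
  exact (integrable_finsetSum _ fun k _ => integrable_finsetSum _ fun l _ =>
    (hG l k).const_mul _).re

lemma integral_rt_mul (Y : Matrix n n ℂ) {G : ℝ → Matrix n n ℂ}
    (hG : ∀ k l, Integrable fun x => G x k l) {G₀ : Matrix n n ℂ}
    (h : ∀ k l, G₀ k l = ∫ x, G x k l) : ∫ x, rt (Y * G x) = rt (Y * G₀) := by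
  simp only [rt_mul_eq]
  have hi : Integrable fun x => ∑ k, ∑ l, Y k l * G x l k :=
    integrable_finsetSum _ fun k _ => integrable_finsetSum _ fun l _ => (hG l k).const_mul _
  have := integral_re hi
  simp only [RCLike.re_to_complex] at this
  rw [this, integral_finsetSum _ fun k _ => integrable_finsetSum _ fun l _ =>
    (hG l k).const_mul _]
  congr 1
  refine Finset.sum_congr rfl fun k _ => ?_
  rw [integral_finsetSum _ fun l _ => (hG l k).const_mul _]
  refine Finset.sum_congr rfl fun l _ => ?_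
  rw [integral_const_mul, h]

end MasterA
open MasterA

lemma energyMatrix_herm {m N : ℕ} {β : ℝ} {W : ℝ → Matrix (Fin m) (Fin m) ℂ} (hW : Pot β W)
    (φ : Fin N → ℝ → Vec m) : (energyMatrix W φ).IsHermitian := by
  ext k l
  rw [conjTranspose_apply, energy_apply, energy_apply, RCLike.star_def, ← integral_conj]
  congr 1
  funext x
  have h : (tm (fun k => deriv (φ k)) x * (tm (fun k => deriv (φ k)) x)ᴴ -
      tm φ x * W x * (tm φ x)ᴴ).IsHermitian :=
    (isHermitian_mul_conjTranspose_self _).sub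
      (isHermitian_mul_mul_conjTranspose _ (hW.psd x).1)
  exact congrFun (congrFun h k) l

lemma hasDerivAt_tm {m N : ℕ} {φ : Fin N → ℝ → Vec m} (hφ : IsTrialFamily φ) (x : ℝ) :
    HasDerivAt (tm φ) (tm (fun k => deriv (φ k)) x) x := by
  let L : (Fin N → Vec m) →L[ℝ] Matrix (Fin N) (Fin m) ℂ := LinearMap.toContinuousLinearMap
    { toFun := fun v => Matrix.of fun k i => star (v k i)
      map_add' := fun v w => by ext k i; simp
      map_smul' := fun c v => by ext k i; simp }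
  have h : HasDerivAt (fun x k => φ k x) (fun k => deriv (φ k) x) x :=
    hasDerivAt_pi.2 fun k => (((hφ.1 k).differentiable (by simp)) x).hasDerivAt
  exact L.hasFDerivAt.comp_hasDerivAt x h

lemma continuous_tm' {m N : ℕ} {φ : Fin N → ℝ → Vec m} (hφ : IsTrialFamily φ) :
    Continuous (tm fun k => deriv (φ k)) :=
  continuous_tm fun k => (hφ.1 k).continuous_deriv (by simp)

lemma tm_support {m N : ℕ} {φ : Fin N → ℝ → Vec m} (hφ : IsTrialFamily φ) :
    ∃ a b : ℝ, a ≤ b ∧ (∀ x, x ∉ Set.Ioo a b → tm φ x = 0) ∧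
      ∀ x, x ∉ Set.Ioo a b → tm (fun k => deriv (φ k)) x = 0 := by
  have hK : IsCompact (⋃ k, tsupport (φ k)) := isCompact_iUnion fun k => hφ.2.1 k
  obtain ⟨R, hR0, hR⟩ := hK.isBounded.subset_ball_lt 0 0
  have hx : ∀ x, x ∉ Set.Ioo (-R) R → ∀ k, x ∉ tsupport (φ k) := by
    intro x hx k hk
    have := hR (Set.mem_iUnion.2 ⟨k, hk⟩)
    rw [Real.ball_eq_Ioo] at this
    exact hx (by simpa using this)
  refine ⟨-R, R, by linarith, fun x h => ?_, fun x h => ?_⟩
  · ext k i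
    simp [tm_apply, image_eq_zero_of_notMem_tsupport (hx x h k)]
  · ext k i
    have : deriv (φ k) x = 0 := by
      by_contra hne
      exact hx x h k (support_deriv_subset hne)
    simp [tm_apply, this]

namespace MasterA

lemma continuous_tm₀ {m N : ℕ} {φ : Fin N → ℝ → Vec m} (hφ : IsTrialFamily φ) :
    Continuous (tm φ) := continuous_tm fun k => (hφ.1 k).continuous

lemma integrable_gram {m N : ℕ} {Φ : ℝ → Matrix (Fin N) (Fin m) ℂ} (hc : Continuous Φ) {a b : ℝ}
    (h : ∀ x, x ∉ Set.Ioo a b → Φ x = 0) (k l : Fin N) :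
    Integrable fun x => (Φ x * (Φ x)ᴴ) k l :=
  integrable_of (a := a) (b := b) ((hc.matrix_mul hc.matrix_conjTranspose).matrix_elem k l)
    fun x hx => by simp [h x hx]

lemma integrable_sand {m N : ℕ} {β : ℝ} (h0 : 0 < β) {W : ℝ → Matrix (Fin m) (Fin m) ℂ}
    (hW : Pot β W) {Φ : ℝ → Matrix (Fin N) (Fin m) ℂ} (hc : Continuous Φ) {a b : ℝ}
    (h : ∀ x, x ∉ Set.Ioo a b → Φ x = 0) (k l : Fin N) :
    Integrable fun x => (Φ x * W x * (Φ x)ᴴ) k l := by
  have e : (fun x => (Φ x * W x * (Φ x)ᴴ) k l) =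
      fun x => ∑ j, ∑ i, W x i j * (Φ x k i * star (Φ x l j)) := by
    funext x
    simp only [mul_apply, conjTranspose_apply, Finset.sum_mul]
    refine Finset.sum_congr rfl fun j _ => Finset.sum_congr rfl fun i _ => ?_
    ring
  rw [e]
  refine integrable_finsetSum _ fun j _ => integrable_finsetSum _ fun i _ => ?_
  exact hW.integrable_entry h0 ((hc.matrix_elem k i).mul (hc.matrix_elem l j).star)
    (hcs (a := a) (b := b) fun x hx => by simp [h x hx]) i j

end MasterA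

lemma trial_gram {m N : ℕ} {φ : Fin N → ℝ → Vec m} (hφ : IsTrialFamily φ) {ι : Type} [Fintype ι]
    [DecidableEq ι] (C : Matrix ι (Fin N) ℂ) (X : Matrix ι ι ℂ) :
    ∫ x, rt ((C * tm φ x)ᴴ * X * (C * tm φ x)) = rt (X * C * Cᴴ) := by
  obtain ⟨a, b, -, h1, -⟩ := tm_support hφ
  have e : ∀ x, rt ((C * tm φ x)ᴴ * X * (C * tm φ x)) =
      rt ((Cᴴ * X * C) * (tm φ x * (tm φ x)ᴴ)) := fun x => by
    rw [conjTranspose_mul, Matrix.mul_assoc, Matrix.mul_assoc, rt_mul_comm]
    simp only [Matrix.mul_assoc]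
  simp only [e]
  rw [integral_rt_mul _ (integrable_gram (continuous_tm₀ hφ) h1) (G₀ := 1), Matrix.mul_one,
    Matrix.mul_assoc, rt_mul_comm]
  intro k l
  simp only [gram_apply, hφ.2.2, one_apply]

lemma trial_energy {m N : ℕ} {β : ℝ} (h0 : 0 < β) {W : ℝ → Matrix (Fin m) (Fin m) ℂ}
    (hW : Pot β W) {φ : Fin N → ℝ → Vec m} (hφ : IsTrialFamily φ) {ι : Type} [Fintype ι]
    [DecidableEq ι] (C : Matrix ι (Fin N) ℂ) :
    (∫ x, ‖C * tm (fun k => deriv (φ k)) x‖ ^ 2) -
        ∫ x, rt (W x * ((C * tm φ x)ᴴ * (C * tm φ x))) = rt (C * energyMatrix W φ * Cᴴ) := by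
  obtain ⟨a, b, -, h1, h2⟩ := tm_support hφ
  have e1 : ∀ x, ‖C * tm (fun k => deriv (φ k)) x‖ ^ 2 =
      rt ((Cᴴ * C) * (tm (fun k => deriv (φ k)) x * (tm (fun k => deriv (φ k)) x)ᴴ)) := fun x => by
    rw [norm_sq_eq_rt, conjTranspose_mul, Matrix.mul_assoc, rt_mul_comm]
    simp only [Matrix.mul_assoc]
  have e2 : ∀ x, rt (W x * ((C * tm φ x)ᴴ * (C * tm φ x))) =
      rt ((Cᴴ * C) * (tm φ x * W x * (tm φ x)ᴴ)) := fun x => by
    rw [conjTranspose_mul, Matrix.mul_assoc (tm φ x)ᴴ, ← Matrix.mul_assoc (W x), rt_mul_comm]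
    simp only [Matrix.mul_assoc]
  have i1 := integrable_gram (continuous_tm' hφ) h2
  have i2 := integrable_sand h0 hW (continuous_tm₀ hφ) h1
  simp only [e1, e2]
  rw [← integral_sub (integrable_rt_mul _ i1) (integrable_rt_mul _ i2)]
  simp only [← rt_sub, ← Matrix.mul_sub]
  have i3 : ∀ k l, Integrable fun x =>
      (tm (fun k => deriv (φ k)) x * (tm (fun k => deriv (φ k)) x)ᴴ -
        tm φ x * W x * (tm φ x)ᴴ) k l := fun k l => (i1 k l).sub (i2 k l)
  rw [integral_rt_mul _ i3 (energy_apply W φ), Matrix.mul_assoc, rt_mul_comm]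

lemma Approx.square_identity {m : ℕ} {β : ℝ} (h0 : 0 < β) (h1 : β < 1) (A : Approx m β) :
    A.Dsq = (∫ x, ‖A.ψ' x‖ ^ 2) + (∫ x, rt ((A.ψ x)ᴴ * A.K2 * A.ψ x)) - A.J := by
  have hc := A.continuous_ψ
  have i1 : Integrable fun x => ‖A.ψ' x‖ ^ 2 :=
    integrable_of (a := A.a) (b := A.b) (A.hψ'.norm.pow 2) fun x hx => by simp [A.hs' x hx]
  have i2 : Integrable fun x => rt ((A.ψ x)ᴴ * A.K2 * A.ψ x) :=
    integrable_of (a := A.a) (b := A.b) (continuous_rt.comp
      ((hc.matrix_conjTranspose.matrix_mul continuous_const).matrix_mul hc))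
      fun x hx => by simp [A.hs x hx]
  have i3 : Integrable fun x => tp (A.rho x) (1 + 1 / β) := A.integrable_tp (by positivity)
  have i4 := A.integrable_sq
  have i5 : Integrable fun x => rt ((A.ψ x)ᴴ * A.M x * A.ψ x) :=
    integrable_of (a := A.a) (b := A.b) (continuous_rt.comp
      ((hc.matrix_conjTranspose.matrix_mul A.continuous_M).matrix_mul hc))
      fun x hx => by simp [A.hs x hx]
  have hd : ∀ x, HasDerivAt (fun x => rt ((A.ψ x)ᴴ * A.M x * A.ψ x))
      (‖A.ψ' x‖ ^ 2 + rt ((A.ψ x)ᴴ * A.K2 * A.ψ x) - tp (A.rho x) (1 + 1 / β) - A.sq x ^ 2) x := by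
    intro x
    refine (HasDerivAt.rt (HasDerivAt.mmul (HasDerivAt.mmul (HasDerivAt.conjT (A.hψ x)) (A.hM x))
      (A.hψ x))).congr_deriv ?_
    have hM : (A.M x)ᴴ = A.M x := herm_of_up (A.up x)
    have e1 : rt ((A.ψ x)ᴴ * A.M x * A.ψ' x) = rt ((A.ψ' x)ᴴ * (A.M x * A.ψ x)) := by
      rw [← rt_conjT]
      simp only [conjTranspose_mul, conjTranspose_conjTranspose, hM]
    have e2 : ‖A.M x * A.ψ x‖ ^ 2 = rt ((A.ψ x)ᴴ * (A.M x * A.M x) * A.ψ x) := by
      rw [norm_sq_eq_rt, conjTranspose_mul, hM]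
      simp only [Matrix.mul_assoc]
    rw [Approx.sq, norm_sub_sq_rt, e2, Approx.rho, ← rt_conj_pot h0 h1, Approx.K2]
    simp only [Matrix.add_mul, Matrix.mul_sub, Matrix.sub_mul, rt_add, rt_sub, e1,
      Matrix.mul_assoc (A.ψ' x)ᴴ]
    ring
  have i12 : Integrable fun x => ‖A.ψ' x‖ ^ 2 + rt ((A.ψ x)ᴴ * A.K2 * A.ψ x) := i1.add i2
  have i123 : Integrable fun x => ‖A.ψ' x‖ ^ 2 + rt ((A.ψ x)ᴴ * A.K2 * A.ψ x) -
    tp (A.rho x) (1 + 1 / β) := i12.sub i3
  have := integral_eq_zero_of_hasDerivAt_of_integrable hd (i123.sub i4) i5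
  rw [integral_sub i123 i4, integral_sub i12 i3, integral_add i1 i2] at this
  rw [Approx.Dsq, Approx.J]
  linarith

namespace MasterA

lemma integrable_rt_rho {m : ℕ} {β : ℝ} (h0 : 0 < β) (A : Approx m β)
    {W : ℝ → Matrix (Fin m) (Fin m) ℂ} (hW : Pot β W) :
    Integrable fun x => rt (W x * A.rho x) :=
  hW.integrable_rt h0 A.continuous_rho
    (hcs (a := A.a) (b := A.b) fun x hx => by simp [Approx.rho, A.hs x hx])

end MasterA

lemma Approx.integrable_dY {m : ℕ} {β : ℝ} (h0 : 0 < β) (A : Approx m β)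
    {W : ℝ → Matrix (Fin m) (Fin m) ℂ} (hW : Pot β W) :
    Integrable fun x => dY β (W x) (A.rho x) :=
  ((hW.int.div_const _).add ((A.integrable_tp (by positivity)).div_const _)).sub
    (integrable_rt_rho h0 A hW)

lemma Approx.DY_eq {m : ℕ} {β : ℝ} (h0 : 0 < β) (A : Approx m β)
    {W : ℝ → Matrix (Fin m) (Fin m) ℂ} (hW : Pot β W) :
    A.DY W = (∫ x, tp (W x) (1 + β)) / (1 + β) + A.J / (1 + 1 / β) -
      ∫ x, rt (W x * A.rho x) := by
  have i1 := hW.int.div_const (1 + β)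
  have i2 := (A.integrable_tp (s := 1 + 1 / β) (by positivity)).div_const (1 + 1 / β)
  have i12 : Integrable fun x => tp (W x) (1 + β) / (1 + β) +
    tp (A.rho x) (1 + 1 / β) / (1 + 1 / β) := i1.add i2
  simp only [Approx.DY, dY, Approx.J]
  rw [integral_sub i12 (integrable_rt_rho h0 A hW), integral_add i1 i2, integral_div,
    integral_div]

lemma Approx.Dsq_nonneg {m : ℕ} {β : ℝ} (A : Approx m β) : 0 ≤ A.Dsq :=
  integral_nonneg fun _ => sq_nonneg _

lemma Approx.DY_nonneg {m : ℕ} {β : ℝ} (h0 : 0 < β) (A : Approx m β)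
    {W : ℝ → Matrix (Fin m) (Fin m) ℂ} (hW : Pot β W) : 0 ≤ A.DY W :=
  integral_nonneg fun x => dY_nonneg h0 (hW.psd x) (A.rho_psd x)

namespace MasterA

/-- the negative spectral subspace of a Hermitian matrix -/
lemma exists_neg_part {N : ℕ} {E : Matrix (Fin N) (Fin N) ℂ} (hE : E.IsHermitian) {γ : ℝ}
    (hγ : 0 < γ) : ∃ (ι : Type) (_ : Fintype ι) (_ : DecidableEq ι) (a : ι → ℝ)
      (C₀ : Matrix ι (Fin N) ℂ), (∀ i, 0 < a i) ∧ C₀ * C₀ᴴ = 1 ∧ C₀ * E * C₀ᴴ = -dg a ∧
      negMoment E γ = ∑ i, a i ^ γ := by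
  obtain ⟨Q, d, h⟩ := exists_diag hE
  refine ⟨{k // d k < 0}, inferInstance, inferInstance, fun i => -d i.1,
    (Q.submatrix id Subtype.val)ᴴ, fun i => neg_pos.2 i.2, ?_, ?_, ?_⟩
  · ext i j
    have := congrFun (congrFun h.uu i.1) j.1
    simp only [mul_apply, conjTranspose_apply, submatrix_apply, id, star_star, one_apply,
      Subtype.ext_iff] at this ⊢
    exact this
  · ext i j
    have := congrFun (congrFun h.conj i.1) j.1
    simp only [mul_apply, conjTranspose_apply, submatrix_apply, id, star_star, dg_neg, dg_apply,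
      Subtype.ext_iff, neg_neg] at this ⊢
    exact this
  · have e : negMoment E γ = ∑ k, (max (-d k) 0) ^ γ := (h.cfc fun t => (max (-t) 0) ^ γ).rt
    rw [e, ← Finset.sum_subtype (Finset.univ.filter fun k => d k < 0) (by simp)
      (fun k => (-d k) ^ γ), Finset.sum_filter]
    refine Finset.sum_congr rfl fun k _ => ?_
    split_ifs with hk
    · rw [max_eq_left (by linarith)]
    · rw [max_eq_right (by linarith), Real.zero_rpow hγ.ne']

lemma pot_bound {β : ℝ} (h0 : 0 < β) (h1 : β < 1) (n k : Type*) [Fintype n] [DecidableEq n]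
    [Fintype k] [DecidableEq k] (R : ℝ) :
    ∃ C : ℝ, ∀ ψ : Matrix n k ℂ, ‖ψ‖ ≤ R → rt (pot β ψ) ≤ C := by
  haveI : ProperSpace (Matrix n k ℂ) := FiniteDimensional.proper_rclike ℝ _
  obtain ⟨C, hC⟩ := (isCompact_closedBall (0 : Matrix n k ℂ) R).bddAbove_image
    (continuous_rt.comp (continuous_pot h0 h1)).continuousOn
  exact ⟨C, fun ψ hψ => hC ⟨ψ, mem_closedBall_zero_iff.2 hψ, rfl⟩⟩

lemma hasDerivAt_const_mul {n k l : Type*} [Fintype n] [DecidableEq n] [Fintype k]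
    [DecidableEq k] [Fintype l] [DecidableEq l] (D : Matrix n k ℂ) {Y : ℝ → Matrix k l ℂ}
    {Y' : Matrix k l ℂ} {t : ℝ} (h : HasDerivAt Y Y' t) :
    HasDerivAt (fun s => D * Y s) (D * Y') t :=
  (HasDerivAt.mmul (hasDerivAt_const t D) h).congr_deriv (by simp)

lemma hasDerivAt_mul_const {n k l : Type*} [Fintype n] [DecidableEq n] [Fintype k]
    [DecidableEq k] [Fintype l] [DecidableEq l] (D : Matrix k l ℂ) {Y : ℝ → Matrix n k ℂ}
    {Y' : Matrix n k ℂ} {t : ℝ} (h : HasDerivAt Y Y' t) :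
    HasDerivAt (fun s => Y s * D) (Y' * D) t :=
  (HasDerivAt.mmul h (hasDerivAt_const t D)).congr_deriv (by simp)

end MasterA

theorem master {β : ℝ} (h0 : 0 < β) (h1 : β < 1) {m : ℕ} {W : ℝ → Matrix (Fin m) (Fin m) ℂ}
    (hW : Pot β W) {N : ℕ} {φ : Fin N → ℝ → Vec m} (hφ : IsTrialFamily φ) {η : ℝ} (hη : 0 < η) :
    ∃ A : Approx m β, negMoment (energyMatrix W φ) (β + 1 / 2) - η + A.DB +
      Lc β * (1 + β) * (A.Dsq + A.DY W) ≤ Lc β * ∫ x, tp (W x) (1 + β) := by
  obtain ⟨ι, _, _, α, C₀, hα, hC1, hC2, hneg⟩ :=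
    exists_neg_part (energyMatrix_herm hW φ) (γ := β + 1 / 2) (by positivity)
  obtain ⟨B, CB, hBc, hBh, hBb, hB⟩ :=
    klein_select (γ := β + 1 / 2) (by linarith) (by linarith) α hα hη
  obtain ⟨a, b, hab, hs, hs'⟩ := tm_support hφ
  have hL := Lc_pos h0
  have hc₀ : 0 < Lc β * (1 + β) := by positivity
  set s : ℝ := Real.sqrt (Lc β * (1 + β))⁻¹ with hsdef
  have hs0 : 0 ≤ s := Real.sqrt_nonneg _
  have hss : s * s = (Lc β * (1 + β))⁻¹ := Real.mul_self_sqrt (by positivity)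
  have hct := continuous_tm₀ hφ
  obtain ⟨R, hR⟩ := hct.bounded_above_of_compact_support (hcs hs)
  obtain ⟨C, hC⟩ := pot_bound h0 h1 ι (Fin m) (s * (CB * ‖C₀‖) * R)
  obtain ⟨K, M, hK, hM, hup, hlo, hMa, hMb⟩ := riccati_exists (C := C) hab
    (fun K x => pot β ((s • (B K * C₀)) * tm φ x)) (by
      refine (continuous_pot h0 h1).comp_continuousOn ?_
      have e1 : ContinuousOn (fun z : Matrix ι ι ℂ × ℝ => B z.1)
          ({K | K.IsHermitian} ×ˢ Set.univ) := hBc.comp continuousOn_fst fun z hz => hz.1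
      rw [continuousOn_iff_continuous_restrict] at e1 ⊢
      exact ((e1.matrix_mul continuous_const).const_smul s).matrix_mul
        (hct.comp (continuous_snd.comp continuous_subtype_val)))
    (fun K x => pot_psd _ _) (fun K x hx => by simp [hs x hx, pot_zero]) (fun K x => by
      refine hC _ ((norm_mul_le' _ _).trans ?_)
      have hCB : 0 ≤ CB := (norm_nonneg _).trans (hBb K)
      rw [norm_smul, Real.norm_of_nonneg hs0]
      gcongr
      · exact (norm_mul_le' _ _).trans (by gcongr; exact hBb K)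
      · exact hR x)
  obtain ⟨U, κ, hd⟩ := exists_diag hK.1
  set D : Matrix ι (Fin N) ℂ := Uᴴ * (s • (B K * C₀)) with hD
  have hKK : Uᴴ * (K * K) * U = dg κ * dg κ := by rw [(hd.mul hd).conj, dg_mul_dg]
  let A : Approx m β :=
    { ι := ι, κ := κ, κ0 := hd.nonneg hK, a := a, b := b, hab := hab
      ψ := fun x => D * tm φ x
      ψ' := fun x => D * tm (fun k => deriv (φ k)) x
      hψ := fun x => hasDerivAt_const_mul D (hasDerivAt_tm hφ x)
      hψ' := continuous_const.matrix_mul (continuous_tm' hφ)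
      hs := fun x hx => by simp [hs x hx]
      hs' := fun x hx => by simp [hs' x hx]
      M := fun x => Uᴴ * M x * U
      hM := fun x => by
        refine (hasDerivAt_mul_const U (hasDerivAt_const_mul Uᴴ (hM x))).congr_deriv ?_
        have e : Uᴴ * M x * U * (Uᴴ * M x * U) = Uᴴ * (M x * M x) * U := by
          calc Uᴴ * M x * U * (Uᴴ * M x * U) = Uᴴ * M x * (U * Uᴴ) * M x * U := by
                simp only [Matrix.mul_assoc]
            _ = _ := by rw [hd.uu']; simp only [Matrix.mul_one, Matrix.mul_assoc]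
        rw [hD, Matrix.mul_assoc Uᴴ _ (tm φ x), pot_unitary β hd.uu, ← hKK, e]
        simp only [Matrix.mul_sub, Matrix.sub_mul]
      up := fun x => by
        have := (hup x).conjTranspose_mul_mul_same U
        rwa [Matrix.mul_sub, Matrix.sub_mul, hd.conj] at this
      lo := fun x => by
        have := (hlo x).conjTranspose_mul_mul_same U
        rwa [Matrix.mul_add, Matrix.add_mul, hd.conj] at this
      Ma := fun x hx => by rw [hMa x hx, hd.conj]
      Mb := fun x hx => by rw [hMb x hx, Matrix.mul_neg, Matrix.neg_mul, hd.conj] }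
  refine ⟨A, ?_⟩
  have hsand : ∀ X : Matrix (Fin N) (Fin N) ℂ,
      D * X * Dᴴ = (s * s) • (Uᴴ * (B K * (C₀ * X * C₀ᴴ) * B K) * U) := fun X => by
    simp only [hD, conjTranspose_mul, conjTranspose_smul, conjTranspose_conjTranspose,
      (hBh K).eq, star_trivial, Matrix.mul_smul, Matrix.smul_mul, smul_smul, Matrix.mul_assoc]
  have hcyc : ∀ X : Matrix ι ι ℂ, rt (Uᴴ * X * U) = rt X := fun X => by
    rw [rt_mul_comm, ← Matrix.mul_assoc, hd.uu', Matrix.one_mul]
  have g1 : ∫ x, rt ((A.ψ x)ᴴ * A.K2 * A.ψ x) = (s * s) * rt (B K * B K * (K * K)) := by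
    have := hsand 1
    rw [Matrix.mul_one, Matrix.mul_one, hC1, Matrix.mul_one] at this
    refine (trial_gram hφ D (dg κ * dg κ)).trans ?_
    rw [Matrix.mul_assoc, this, Matrix.mul_smul, rt_smul, ← hKK, rt_mul_comm (B K * B K),
      ← hcyc (K * K * (B K * B K))]
    congr 2
    calc Uᴴ * (K * K) * U * (Uᴴ * (B K * B K) * U)
        = Uᴴ * (K * K) * (U * Uᴴ) * (B K * B K) * U := by simp only [Matrix.mul_assoc]
      _ = _ := by rw [hd.uu']; simp only [Matrix.mul_one, Matrix.mul_assoc]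
  have g2 : (∫ x, ‖A.ψ' x‖ ^ 2) - ∫ x, rt (W x * A.rho x) =
      -((s * s) * rt (B K * B K * dg α)) := by
    refine (trial_energy h0 hW hφ D).trans ?_
    rw [hsand, hC2, rt_smul, hcyc, rt_mul_comm, ← Matrix.mul_assoc, Matrix.mul_neg, rt_neg]
    ring
  have g3 := hB K U κ hd (hd.nonneg hK)
  rw [Matrix.mul_sub, rt_sub, show 2 * (β + 1 / 2) = 1 + 2 * β by ring] at g3
  have g4 := A.square_identity h0 h1
  have g5 := A.DY_eq h0 hW
  have g6 : A.DB = Lc β * A.J - ∑ i, κ i ^ (1 + 2 * β) := rfl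
  have g7 : Lc β * (1 + β) * (A.Dsq + A.DY W) =
      (rt (B K * B K * (K * K)) - rt (B K * B K * dg α)) +
        Lc β * (∫ x, tp (W x) (1 + β)) - Lc β * A.J := by
    have e : A.Dsq + A.DY W = (Lc β * (1 + β))⁻¹ *
        (rt (B K * B K * (K * K)) - rt (B K * B K * dg α)) +
        (∫ x, tp (W x) (1 + β)) / (1 + β) + A.J / (1 + 1 / β) - A.J := by
      rw [g4, g5, g1, ← hss]; linarith
    rw [e]
    field_simp
    ring
  rw [hneg, g6, g7]
  linarith

end Crest.Agent.R332
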