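import Crest.Agent.R332.Det

/-! Row 332, task PW: the three pointwise matrix inequalities and the deficit bound.
`D = dg d`, `R t = res d M t = (D - tM)⁻¹`, `dR/dt = R M R`, `H = D - M D⁻¹ M = (D-M) D⁻¹ (D+M)`,
`H⁻¹ = (R 1 + R (-1))/2`.

* (i)  `Z = M R`, `D R = 1 + t Z`, so `rt(R R (D² - M²)) = ‖1 + tZ‖² - ‖Z‖² =
  N + 2t rt Z + (t²-1)‖Z‖²`, `‖Z‖² = rt (Z Z) + ½‖Z - Zᴴ‖²`, `d/dt[(t²-1) rt Z] = 2t rt Z +
  (t²-1) rt(Z Z)` (as `Z' = Z Z`) integrates to `0`; `Z - Zᴴ = R (D M - M D) R` and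
  `‖DM - MD‖ ≤ (2 db)² ‖Z - Zᴴ‖` since `-2db ≤ D - tM ≤ 2db`; `½∫(1-t²)/2 = 1/3`.
* (iii) `rt (R R) ≤ rt (D⁻¹ R D R)` (entrywise: `Σ|R_ij|² d_j/d_i`, symmetrise, `x + 1/x ≥ 2`) and
  `d/dt (t R) = R D R`.
* (ii) `congr_diag`: `H = Q Qᴴ`, `B = Q b Qᴴ`, `b_j > 0`.  `rt (R R B) = Σ_ij |(RQ)_ij|² b_j
  = Σ y_ij (b_j/d_i)`, `y_ij = d_i |(RQ)_ij|²`, and `x ≥ 1 + log x`.  Averages:
  `½∫ Σ_j y_ij = d_i (½∫ R H R)_ii = 1` because `d/dt [R (tD - M) D⁻¹] = R H R` (boundary values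
  `± D⁻¹`), `½∫ Σ_i y_ij = (Qᴴ H⁻¹ Q)_jj = 1`.  (Apply the FTC to the scalar functions
  `t ↦ rt (X * …)` for fixed `X`.)  `Σ log b_j = ld B - ld H`, `ld H = ld(D-M) + ld(D+M) - ld D`.
* deficit: `δ(B) := trT B - N - ld B + ld(D-M) + ld(D+M) ≥ 0` by (ii).  With `B₀ = D² - M²`,
  `Σ = (B+B₀)/2`, `Δ = (B-B₀)/2`: `δ(B) + δ(B₀) - 2δ(Σ) = 2 ld Σ - ld B - ld B₀ ≥
  rt(Σ⁻¹ΔΣ⁻¹Δ) ≥ ‖Δ‖²/σ²` (`ld_mul_le` for `Σ⁻¹` and `Σ - ΔΣ⁻¹Δ = B₀Σ⁻¹B = 2(B⁻¹+B₀⁻¹)⁻¹`), and
  `δ(B₀) ≤ ld(D-M)+ld(D+M) - ld B₀ ≤ ‖Γ‖²/(2b₀²)`, `Γ = DM - MD` anti-Hermitian,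
  `(D-M)(D+M) = B₀ + Γ`, `(D+M)(D-M) = B₀ - Γ`, `(B₀-Γ)B₀⁻¹(B₀+Γ) = B₀ + ΓᴴB₀⁻¹Γ`
  (`ld_mul_le` with `B₀⁻¹`), using (i) for the first inequality. -/

set_option autoImplicit false
set_option linter.unusedSectionVars false

open Matrix Filter Topology MeasureTheory
open scoped ComplexOrder Matrix.Norms.Frobenius

namespace Crest.Agent.R332

variable {n k : Type*} [Fintype n] [DecidableEq n] [Fintype k] [DecidableEq k]

lemma res_posDef {d : n → ℝ} {M : Matrix n n ℂ} (h1 : (dg d - M).PosDef) (h2 : (dg d + M).PosDef)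
    {t : ℝ} (ht : t ∈ Set.Icc (-1 : ℝ) 1) : (dg d - t • M).PosDef := by
  have e : dg d - t • M = ((1 + t) / 2) • (dg d - M) + ((1 - t) / 2) • (dg d + M) := by module
  rw [e]
  rcases eq_or_lt_of_le ht.1 with h | h
  · refine PosDef.posSemidef_add (h1.posSemidef.smul (by linarith [ht.1])) (h2.smul ?_)
    linarith
  · exact (h1.smul (by linarith)).add_posSemidef (h2.posSemidef.smul (by linarith [ht.2]))

namespace PWA

lemma unit_det {A : Matrix n n ℂ} (h : A.PosDef) : IsUnit A.det :=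
  isUnit_iff_ne_zero.mpr h.det_pos.ne'

variable {d : n → ℝ} {M : Matrix n n ℂ}

lemma res_herm (h1 : (dg d - M).PosDef) (h2 : (dg d + M).PosDef) {t : ℝ}
    (ht : t ∈ Set.Icc (-1 : ℝ) 1) : (res d M t)ᴴ = res d M t :=
  (res_posDef h1 h2 ht).inv.1

lemma mul_res (h1 : (dg d - M).PosDef) (h2 : (dg d + M).PosDef) {t : ℝ}
    (ht : t ∈ Set.Icc (-1 : ℝ) 1) : (dg d - t • M) * res d M t = 1 :=
  mul_nonsing_inv _ (unit_det (res_posDef h1 h2 ht))

lemma res_mul (h1 : (dg d - M).PosDef) (h2 : (dg d + M).PosDef) {t : ℝ}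
    (ht : t ∈ Set.Icc (-1 : ℝ) 1) : res d M t * (dg d - t • M) = 1 :=
  nonsing_inv_mul _ (unit_det (res_posDef h1 h2 ht))

lemma hasDerivAt_res (h1 : (dg d - M).PosDef) (h2 : (dg d + M).PosDef) {t : ℝ}
    (ht : t ∈ Set.Icc (-1 : ℝ) 1) : HasDerivAt (res d M) (res d M t * M * res d M t) t := by
  have h : HasDerivAt (fun s : ℝ => dg d - s • M) (-M) t :=
    (((hasDerivAt_id t).smul_const M).const_sub (dg d)).congr_deriv (by simp)
  exact (hasDerivAt_inv h (unit_det (res_posDef h1 h2 ht))).congr_deriv (by simp [res])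

lemma res_one : res d M 1 = (dg d - M)⁻¹ := by simp [res]
lemma res_neg_one : res d M (-1) = (dg d + M)⁻¹ := by simp [res]

end PWA
open PWA

lemma continuousOn_res {d : n → ℝ} {M : Matrix n n ℂ} (h1 : (dg d - M).PosDef)
    (h2 : (dg d + M).PosDef) : ContinuousOn (res d M) (Set.Icc (-1 : ℝ) 1) :=
  fun _ ht => (hasDerivAt_res h1 h2 ht).continuousAt.continuousWithinAt

namespace PWA
variable {d : n → ℝ} {M : Matrix n n ℂ}

lemma ii_of_cont {f : ℝ → ℝ} (h : ContinuousOn f (Set.Icc (-1 : ℝ) 1)) :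
    IntervalIntegrable f volume (-1) 1 :=
  ContinuousOn.intervalIntegrable (by rwa [Set.uIcc_of_le (by norm_num)])

lemma cont_sand (h1 : (dg d - M).PosDef) (h2 : (dg d + M).PosDef) (X Y Z : Matrix n n ℂ) :
    ContinuousOn (fun t => rt (X * (res d M t * Y * res d M t) * Z)) (Set.Icc (-1 : ℝ) 1) := by
  have := continuousOn_res h1 h2
  exact continuous_rt.comp_continuousOn
    ((continuousOn_const.mul ((this.mul continuousOn_const).mul this)).mul continuousOn_const)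

lemma ii_RR (h1 : (dg d - M).PosDef) (h2 : (dg d + M).PosDef) (X : Matrix n n ℂ) :
    IntervalIntegrable (fun t => rt (res d M t * res d M t * X)) volume (-1) 1 := by
  have := cont_sand h1 h2 1 1 X
  simp only [Matrix.one_mul, Matrix.mul_one] at this
  exact ii_of_cont this

lemma ii_sand (h1 : (dg d - M).PosDef) (h2 : (dg d + M).PosDef) (X Y : Matrix n n ℂ) :
    IntervalIntegrable (fun t => rt (X * (res d M t * Y * res d M t))) volume (-1) 1 := by
  have := cont_sand h1 h2 X Y 1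
  simp only [Matrix.mul_one] at this
  exact ii_of_cont this

lemma ftc {F F' : ℝ → ℝ} (h : ∀ t ∈ Set.Icc (-1 : ℝ) 1, HasDerivAt F (F' t) t)
    (hi : IntervalIntegrable F' volume (-1) 1) : ∫ t in (-1 : ℝ)..1, F' t = F 1 - F (-1) :=
  intervalIntegral.integral_eq_sub_of_hasDerivAt
    (fun t ht => h t (by rwa [Set.uIcc_of_le (by norm_num)] at ht)) hi

lemma int_RDR (h1 : (dg d - M).PosDef) (h2 : (dg d + M).PosDef) (X : Matrix n n ℂ) :
    ∫ t in (-1 : ℝ)..1, rt (X * (res d M t * dg d * res d M t)) =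
      rt (X * ((dg d - M)⁻¹ + (dg d + M)⁻¹)) := by
  rw [ftc (F := fun t => t * rt (X * res d M t)) ?_ (ii_sand h1 h2 X _)]
  · rw [res_one, res_neg_one, Matrix.mul_add, rt_add]; ring
  · intro t ht
    have hd := (hasDerivAt_id t).mul
      (HasDerivAt.rt (HasDerivAt.mmul (hasDerivAt_const t X) (hasDerivAt_res h1 h2 ht)))
    refine hd.congr_deriv ?_
    have e : res d M t * dg d * res d M t = res d M t + t • (res d M t * M * res d M t) := by
      calc res d M t * dg d * res d M t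
          = res d M t * (dg d - t • M) * res d M t + t • (res d M t * M * res d M t) := by
            simp only [Matrix.mul_sub, Matrix.sub_mul, Matrix.mul_smul, Matrix.smul_mul]; abel
        _ = _ := by rw [res_mul h1 h2 ht, Matrix.one_mul]
    rw [e]; simp [Matrix.mul_add, Matrix.mul_smul]

lemma dg_mul_inv (hd : ∀ i, 0 < d i) : dg d * dg (fun i => (d i)⁻¹) = 1 := by
  rw [dg_mul_dg, ← dg_one]; congr 1; ext i; exact mul_inv_cancel₀ (hd i).ne'

lemma inv_mul_dg (hd : ∀ i, 0 < d i) : dg (fun i => (d i)⁻¹) * dg d = 1 := by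
  rw [dg_mul_dg, ← dg_one]; congr 1; ext i; exact inv_mul_cancel₀ (hd i).ne'

lemma int_RHR (hd : ∀ i, 0 < d i) (h1 : (dg d - M).PosDef) (h2 : (dg d + M).PosDef)
    (X : Matrix n n ℂ) :
    ∫ t in (-1 : ℝ)..1, rt (X * (res d M t * (dg d - M * (dg d)⁻¹ * M) * res d M t)) =
      2 * rt (X * (dg d)⁻¹) := by
  have hu := unit_det (dg_posDef hd)
  have hDi : dg d * (dg d)⁻¹ = 1 := mul_nonsing_inv _ hu
  have hiD : (dg d)⁻¹ * dg d = 1 := nonsing_inv_mul _ hu
  rw [ftc (F := fun t => rt (X * (res d M t * ((t • dg d - M) * (dg d)⁻¹)))) ?_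
    (ii_sand h1 h2 X _)]
  · have e1 : res d M 1 * (((1 : ℝ) • dg d - M) * (dg d)⁻¹) = (dg d)⁻¹ := by
      have := res_mul h1 h2 (t := 1) ⟨by norm_num, le_rfl⟩
      rw [one_smul] at this ⊢
      rw [← Matrix.mul_assoc, this, Matrix.one_mul]
    have e2 : res d M (-1) * (((-1 : ℝ) • dg d - M) * (dg d)⁻¹) = -(dg d)⁻¹ := by
      have := res_mul h1 h2 (t := -1) ⟨le_rfl, by norm_num⟩
      have e : (-1 : ℝ) • dg d - M = -(dg d - (-1 : ℝ) • M) := by module
      rw [e, Matrix.neg_mul, Matrix.mul_neg, ← Matrix.mul_assoc, this, Matrix.one_mul]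
    simp only [e1, e2, Matrix.mul_neg, rt_neg]; ring
  · intro t ht
    have h0 : HasDerivAt (fun s : ℝ => s • dg d - M) (dg d) t :=
      (((hasDerivAt_id t).smul_const (dg d)).sub_const M).congr_deriv (by simp)
    have hd' := HasDerivAt.rt (HasDerivAt.mmul (hasDerivAt_const t X)
      (HasDerivAt.mmul (hasDerivAt_res h1 h2 ht)
        (HasDerivAt.mmul h0 (hasDerivAt_const t (dg d)⁻¹))))
    refine hd'.congr_deriv (congrArg rt (Eq.symm ?_))
    set R := res d M t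
    set P := dg d - t • M with hP
    have hPR : P * R = 1 := mul_res h1 h2 ht
    have hRP : R * P = 1 := res_mul h1 h2 ht
    have c1 : P * ((dg d)⁻¹ * (t • dg d - M)) = (t • dg d - M) * (dg d)⁻¹ * P := by
      simp only [hP, Matrix.mul_sub, Matrix.sub_mul, Matrix.mul_smul, Matrix.smul_mul,
        Matrix.mul_assoc, hiD, Matrix.mul_one, ← Matrix.mul_assoc (dg d) (dg d)⁻¹, hDi,
        Matrix.one_mul]
      module
    have c2 : (dg d)⁻¹ * (t • dg d - M) * R = R * ((t • dg d - M) * (dg d)⁻¹) := by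
      calc (dg d)⁻¹ * (t • dg d - M) * R = R * (P * ((dg d)⁻¹ * (t • dg d - M))) * R := by
            rw [← Matrix.mul_assoc R P, hRP, Matrix.one_mul]
        _ = R * ((t • dg d - M) * (dg d)⁻¹) * (P * R) := by rw [c1]; simp only [Matrix.mul_assoc]
        _ = _ := by rw [hPR, Matrix.mul_one]
    have c3 : dg d - M * (dg d)⁻¹ * M = M * ((dg d)⁻¹ * (t • dg d - M)) + P := by
      simp only [hP, Matrix.mul_sub, Matrix.mul_smul, Matrix.mul_assoc, hiD, Matrix.mul_one]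
      abel
    rw [c3, Matrix.zero_mul, zero_add, Matrix.mul_zero, add_zero, hDi, Matrix.mul_one,
      Matrix.mul_add R, Matrix.add_mul, hRP, Matrix.one_mul, Matrix.mul_assoc R,
      Matrix.mul_assoc M, c2]
    simp only [Matrix.mul_assoc]

lemma q_ineq {a : n → ℝ} (ha : ∀ i, 0 < a i) {Y : Matrix n n ℂ} (hY : Yᴴ = Y) :
    rt (Y * Y) ≤ rt (dg a * Y * dg (fun i => (a i)⁻¹) * Y) := by
  have e1 := rt_dg_mul_dg a (fun i => (a i)⁻¹) Y
  have e2 := norm_sq_eq_sum Y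
  rw [norm_sq_eq_rt, hY] at e2
  rw [hY] at e1
  have hs : ∀ i j, Complex.normSq (Y j i) = Complex.normSq (Y i j) := fun i j => by
    rw [← hY, conjTranspose_apply, hY]; simp
  have e3 : ∑ i, ∑ j, Complex.normSq (Y i j) * (a i * (a j)⁻¹) =
      ∑ i, ∑ j, Complex.normSq (Y i j) * (a j * (a i)⁻¹) := by
    rw [Finset.sum_comm]; simp only [hs]
  have : 2 * ∑ i, ∑ j, Complex.normSq (Y i j) ≤ ∑ i, ∑ j, Complex.normSq (Y i j) * (a i * (a j)⁻¹)
      + ∑ i, ∑ j, Complex.normSq (Y i j) * (a j * (a i)⁻¹) := by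
    rw [Finset.mul_sum, ← Finset.sum_add_distrib]
    refine Finset.sum_le_sum fun i _ => ?_
    rw [Finset.mul_sum, ← Finset.sum_add_distrib]
    refine Finset.sum_le_sum fun j _ => ?_
    have h2 : 2 ≤ a i * (a j)⁻¹ + a j * (a i)⁻¹ := by
      have := ha i; have := ha j
      have : a i * (a j)⁻¹ + a j * (a i)⁻¹ - 2 = (a i - a j) ^ 2 / (a i * a j) := by
        field_simp; ring
      have h3 : 0 ≤ (a i - a j) ^ 2 / (a i * a j) := by positivity
      linarith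
    nlinarith [Complex.normSq_nonneg (Y i j)]
  rw [e1, e2]; linarith

lemma harm_eq {S M : Matrix n n ℂ} (hS : S.PosDef) :
    S - M * S⁻¹ * M = (S - M) * S⁻¹ * (S + M) := by
  have hu := unit_det hS
  simp only [Matrix.mul_add, Matrix.sub_mul, Matrix.mul_assoc, nonsing_inv_mul _ hu,
    mul_nonsing_inv _ hu, Matrix.mul_one, Matrix.one_mul]
  abel

lemma harm_eq' {S M : Matrix n n ℂ} (hS : S.PosDef) :
    S - M * S⁻¹ * M = (S + M) * S⁻¹ * (S - M) := by
  have := harm_eq (M := -M) hS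
  simpa [sub_neg_eq_add, ← sub_eq_add_neg] using this

lemma harm_mul {S M : Matrix n n ℂ} (hS : S.PosDef) (h1 : (S - M).PosDef) (h2 : (S + M).PosDef) :
    (S - M * S⁻¹ * M) * ((1 / 2 : ℝ) • ((S - M)⁻¹ + (S + M)⁻¹)) = 1 := by
  have hu := unit_det hS
  rw [Matrix.mul_smul, Matrix.mul_add]
  nth_rewrite 1 [harm_eq' hS]
  rw [harm_eq hS, Matrix.mul_assoc _ (S - M), Matrix.mul_assoc _ (S + M) (S + M)⁻¹,
    mul_nonsing_inv _ (unit_det h1), mul_nonsing_inv _ (unit_det h2), Matrix.mul_one,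
    Matrix.mul_one, ← Matrix.add_mul]
  have : S + M + (S - M) = (2 : ℝ) • S := by module
  rw [this, Matrix.smul_mul, mul_nonsing_inv _ hu, smul_smul]; norm_num

lemma harm_posDef {S M : Matrix n n ℂ} (hS : S.PosDef) (h1 : (S - M).PosDef)
    (h2 : (S + M).PosDef) : (S - M * S⁻¹ * M).PosDef := by
  have h := ((h1.inv.add h2.inv).smul (show (0 : ℝ) < 1 / 2 by norm_num)).inv
  rwa [inv_eq_left_inv (harm_mul hS h1 h2)] at h

lemma ld_of_det {A : Matrix n n ℂ} {x : ℝ} (h : A.det = (x : ℂ)) : ld A = Real.log x := by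
  simp [ld, h]

lemma ld_triple {P S Q : Matrix n n ℂ} {x y : ℝ} (hx : 0 < x) (hy : 0 < y) (hP : P.det = x)
    (hQ : Q.det = y) (hS : S.PosDef) :
    ld (P * S⁻¹ * Q) = Real.log x + Real.log y - ld S := by
  have h1 := det_re_pos hS.inv
  rw [ld_of_det (x := x * S⁻¹.det.re * y), Real.log_mul (by positivity) hy.ne',
    Real.log_mul hx.ne' h1.ne']
  · have := ld_inv hS
    simp only [ld] at this ⊢
    linarith
  · rw [det_mul, det_mul, hP, hQ]; push_cast; rw [← det_eq_re hS.inv.1]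

lemma ld_harm {S M : Matrix n n ℂ} (hS : S.PosDef) (h1 : (S - M).PosDef) (h2 : (S + M).PosDef) :
    ld (S - M * S⁻¹ * M) = ld (S - M) + ld (S + M) - ld S := by
  rw [harm_eq hS, ld_triple (det_re_pos h1) (det_re_pos h2) (det_eq_re h1.1) (det_eq_re h2.1) hS]
  rfl

end PWA

lemma trT_add {d : n → ℝ} {M : Matrix n n ℂ} (h1 : (dg d - M).PosDef) (h2 : (dg d + M).PosDef)
    (X Y : Matrix n n ℂ) : trT d M (X + Y) = trT d M X + trT d M Y := by
  simp only [trT, Matrix.mul_add, rt_add]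
  rw [intervalIntegral.integral_add (ii_RR h1 h2 X) (ii_RR h1 h2 Y)]; ring

lemma trT_smul (d : n → ℝ) (M : Matrix n n ℂ) (c : ℝ) (X : Matrix n n ℂ) :
    trT d M (c • X) = c * trT d M X := by
  simp only [trT, Matrix.mul_smul, rt_smul, intervalIntegral.integral_const_mul]; ring

lemma trT_sub {d : n → ℝ} {M : Matrix n n ℂ} (h1 : (dg d - M).PosDef) (h2 : (dg d + M).PosDef)
    (X Y : Matrix n n ℂ) : trT d M (X - Y) = trT d M X - trT d M Y := by
  simp only [trT, Matrix.mul_sub, rt_sub]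
  rw [intervalIntegral.integral_sub (ii_RR h1 h2 X) (ii_RR h1 h2 Y)]; ring

theorem pw_i {d : n → ℝ} {db : ℝ} (hd : ∀ i, 0 < d i) (hdb : ∀ i, d i ≤ db) (hdb0 : 0 < db)
    {M : Matrix n n ℂ} (h1 : (dg d - M).PosDef) (h2 : (dg d + M).PosDef) :
    trT d M (dg d * dg d - M * M) + ‖dg d * M - M * dg d‖ ^ 2 / (3 * (2 * db) ^ 4) ≤
      Fintype.card n := by
  have hM : Mᴴ = M := herm_of_up h1.posSemidef
  set g := ‖dg d * M - M * dg d‖ ^ 2 / (2 * db) ^ 4 with hg
  set F' : ℝ → ℝ := fun t => 2 * t * rt (M * res d M t) +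
    (t ^ 2 - 1) * rt (M * (res d M t * M * res d M t)) with hF'
  have hc := continuousOn_res h1 h2
  have hFi : IntervalIntegrable F' volume (-1) 1 := by
    refine ii_of_cont (ContinuousOn.add ?_ ?_)
    · exact (continuousOn_const.mul continuousOn_id).mul
        (continuous_rt.comp_continuousOn (continuousOn_const.mul hc))
    · exact ((continuousOn_id.pow 2).sub continuousOn_const).mul
        (continuous_rt.comp_continuousOn
          (continuousOn_const.mul ((hc.mul continuousOn_const).mul hc)))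
  have hF : ∫ t in (-1 : ℝ)..1, F' t = 0 := by
    rw [ftc (F := fun t => (t ^ 2 - 1) * rt (M * res d M t)) ?_ hFi]
    · ring
    · intro t ht
      have hd := (((hasDerivAt_id t).pow 2).sub_const 1).mul
        (HasDerivAt.rt (HasDerivAt.mmul (hasDerivAt_const t M) (hasDerivAt_res h1 h2 ht)))
      refine hd.congr_deriv ?_
      simp [hF']
  have hpt : ∀ t ∈ Set.Icc (-1 : ℝ) 1, rt (res d M t * res d M t * (dg d * dg d - M * M)) ≤
      Fintype.card n + F' t - (1 - t ^ 2) / 2 * g := by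
    intro t ht
    set R := res d M t with hR
    have hRh : Rᴴ = R := res_herm h1 h2 ht
    have hPR : (dg d - t • M) * R = 1 := mul_res h1 h2 ht
    have hRP : R * (dg d - t • M) = 1 := res_mul h1 h2 ht
    have e0 : dg d * R = 1 + t • (M * R) := by
      rw [← hPR, Matrix.sub_mul, Matrix.smul_mul]; abel
    have e1 : rt (R * R * (dg d * dg d - M * M)) = ‖dg d * R‖ ^ 2 - ‖M * R‖ ^ 2 := by
      rw [norm_sq_eq_rt, norm_sq_eq_rt, conjTranspose_mul, conjTranspose_mul, hRh, hM, dg_conjT,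
        Matrix.mul_sub, rt_sub, Matrix.mul_assoc R R, Matrix.mul_assoc R R, rt_mul_comm R,
        rt_mul_comm R (R * (M * M))]
      simp only [Matrix.mul_assoc]
    have e2 : ‖dg d * R‖ ^ 2 = Fintype.card n + 2 * t * rt (M * R) + t ^ 2 * ‖M * R‖ ^ 2 := by
      rw [e0, norm_add_sq_rt, norm_smul, mul_pow, Real.norm_eq_abs, sq_abs, norm_sq_eq_rt 1]
      simp; ring
    have e3 : ‖R * M - M * R‖ ^ 2 = 2 * ‖M * R‖ ^ 2 - 2 * rt (M * (R * M * R)) := by
      have : R * M = (M * R)ᴴ := by rw [conjTranspose_mul, hRh, hM]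
      have h3 := norm_sub_sq_rt (M * R)ᴴ (M * R)
      rw [conjTranspose_conjTranspose, frobenius_norm_conjTranspose, ← this] at h3
      rw [h3]; simp only [Matrix.mul_assoc]; ring
    have hneg : -t ∈ Set.Icc (-1 : ℝ) 1 := ⟨by linarith [ht.2], by linarith [ht.1]⟩
    have b1 : ((2 * db) • (1 : Matrix n n ℂ) - (dg d - t • M)).PosSemidef := by
      have e : (2 * db) • (1 : Matrix n n ℂ) - (dg d - t • M) =
          (dg (fun _ => 2 * db) - dg fun i => 2 * d i) + (dg d - (-t) • M) := by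
        rw [dg_const, ← dg_smul]; module
      rw [e, dg_sub]
      exact (dg_psd fun i => by linarith [hdb i]).add (res_posDef h1 h2 hneg).posSemidef
    have b2 : ((2 * db) • (1 : Matrix n n ℂ) + (dg d - t • M)).PosSemidef :=
      (PosSemidef.one.smul (by linarith)).add (res_posDef h1 h2 ht).posSemidef
    have e4 : dg d * M - M * dg d = -((dg d - t • M) * (R * M - M * R) * (dg d - t • M)) := by
      rw [Matrix.mul_sub _ (R * M), ← Matrix.mul_assoc _ R M, hPR, Matrix.sub_mul,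
        Matrix.mul_assoc _ (M * R), Matrix.mul_assoc M R, hRP]
      simp only [Matrix.mul_sub, Matrix.sub_mul, Matrix.mul_smul, Matrix.smul_mul, Matrix.one_mul,
        Matrix.mul_one]
      abel
    have e5 : ‖dg d * M - M * dg d‖ ≤ (2 * db) * ((2 * db) * ‖R * M - M * R‖) := by
      rw [e4, norm_neg]
      refine (norm_mul_le_of_bound' b1 b2 (by linarith) _).trans ?_
      gcongr
      exact norm_mul_le_of_bound b1 b2 (by linarith) _
    have e6 : g ≤ ‖R * M - M * R‖ ^ 2 := by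
      rw [hg, div_le_iff₀ (by positivity)]
      calc ‖dg d * M - M * dg d‖ ^ 2 ≤ ((2 * db) * ((2 * db) * ‖R * M - M * R‖)) ^ 2 := by gcongr
        _ = _ := by ring
    have ht2 : 0 ≤ 1 - t ^ 2 := by nlinarith [ht.1, ht.2]
    have e7 := mul_le_mul_of_nonneg_left e6 ht2
    rw [e1, e2]
    simp only [hF', ← hR]
    nlinarith
  have hint : ∫ t in (-1 : ℝ)..1, rt (res d M t * res d M t * (dg d * dg d - M * M)) ≤
      ∫ t in (-1 : ℝ)..1, (Fintype.card n + F' t - (1 - t ^ 2) / 2 * g) := by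
    refine intervalIntegral.integral_mono_on (by norm_num) (ii_RR h1 h2 _) ?_ hpt
    exact (intervalIntegrable_const.add hFi).sub (Continuous.intervalIntegrable (by fun_prop) _ _)
  rw [intervalIntegral.integral_sub (intervalIntegrable_const.add hFi)
    (Continuous.intervalIntegrable (by fun_prop) _ _),
    intervalIntegral.integral_add intervalIntegrable_const hFi, hF,
    intervalIntegral.integral_mul_const, intervalIntegral.integral_div,
    intervalIntegral.integral_sub intervalIntegrable_const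
      (Continuous.intervalIntegrable (by fun_prop) _ _), integral_pow] at hint
  have e : ‖dg d * M - M * dg d‖ ^ 2 / (3 * (2 * db) ^ 4) = g / 3 := by rw [hg]; field_simp
  rw [e, trT]
  norm_num at hint ⊢
  linarith

theorem pw_ii {d : n → ℝ} (hd : ∀ i, 0 < d i) {M : Matrix n n ℂ} (h1 : (dg d - M).PosDef)
    (h2 : (dg d + M).PosDef) {B : Matrix n n ℂ} (hB : B.PosDef) :
    Fintype.card n + ld B - ld (dg d - M) - ld (dg d + M) ≤ trT d M B := by
  have hD := dg_posDef hd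
  have hH := harm_posDef hD h1 h2
  obtain ⟨Q, b, hQ, hHQ, hBQ⟩ := congr_diag hH hB.1
  have hQi : Q⁻¹ * Q = 1 := nonsing_inv_mul _ hQ
  have hb : ∀ j, 0 < b j := by
    intro j
    have hinj : Function.Injective (Q⁻¹)ᴴ.mulVec := by
      refine mulVec_injective_of_isUnit ((isUnit_iff_isUnit_det _).mpr ?_)
      rw [det_conjTranspose]; exact (isUnit_nonsing_inv_det _ hQ).star
    have := (hB.conjTranspose_mul_mul_same hinj).diag_pos (i := j)
    have e : (Q⁻¹)ᴴᴴ * B * (Q⁻¹)ᴴ = dg b := by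
      rw [conjTranspose_conjTranspose, hBQ]
      calc Q⁻¹ * (Q * dg b * Qᴴ) * (Q⁻¹)ᴴ = (Q⁻¹ * Q) * dg b * (Q⁻¹ * Q)ᴴ := by
            simp only [conjTranspose_mul, Matrix.mul_assoc]
        _ = dg b := by rw [hQi]; simp
    rw [e, dg_apply, if_pos rfl] at this
    exact_mod_cast this
  set X₁ := dg fun i => d i * (1 - Real.log (d i))
  set X₂ := Q * dg (fun j => Real.log (b j)) * Qᴴ
  have hpt : ∀ t ∈ Set.Icc (-1 : ℝ) 1,
      rt (X₁ * (res d M t * (dg d - M * (dg d)⁻¹ * M) * res d M t)) +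
        rt (X₂ * (res d M t * dg d * res d M t)) ≤ rt (res d M t * res d M t * B) := by
    intro t ht
    set R := res d M t
    have hRh : Rᴴ = R := res_herm h1 h2 ht
    have e1 := rt_dg_mul_dg (fun i => d i * (1 - Real.log (d i))) (fun _ => 1) (R * Q)
    have e2 := rt_dg_mul_dg d (fun j => Real.log (b j)) (R * Q)
    have e3 := rt_dg_mul_dg (fun _ => 1) b (R * Q)
    rw [conjTranspose_mul, hRh] at e1 e2 e3
    have f1 : rt (X₁ * (R * (dg d - M * (dg d)⁻¹ * M) * R)) =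
        rt (X₁ * (R * Q) * dg (fun _ => 1) * (Qᴴ * R)) := by
      rw [hHQ, dg_one]; simp only [Matrix.mul_assoc, Matrix.one_mul]
    have f2 : rt (X₂ * (R * dg d * R)) =
        rt (dg d * (R * Q) * dg (fun j => Real.log (b j)) * (Qᴴ * R)) := by
      calc rt (X₂ * (R * dg d * R)) = rt ((X₂ * R) * (dg d * R)) := by simp only [Matrix.mul_assoc]
        _ = _ := by rw [rt_mul_comm]; simp only [X₂, Matrix.mul_assoc]
    have f3 : rt (R * R * B) = rt (dg (fun _ => 1) * (R * Q) * dg b * (Qᴴ * R)) := by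
      rw [hBQ, dg_one, Matrix.mul_assoc R R, rt_mul_comm R]
      simp only [Matrix.mul_assoc, Matrix.one_mul]
    rw [f1, f2, f3, e1, e2, e3, ← Finset.sum_add_distrib]
    refine Finset.sum_le_sum fun i _ => ?_
    rw [← Finset.sum_add_distrib]
    refine Finset.sum_le_sum fun j _ => ?_
    rw [← mul_add]
    refine mul_le_mul_of_nonneg_left ?_ (Complex.normSq_nonneg _)
    have h3 := Real.log_le_sub_one_of_pos (div_pos (hb j) (hd i))
    rw [Real.log_div (hb j).ne' (hd i).ne'] at h3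
    have h4 := mul_le_mul_of_nonneg_left h3 (hd i).le
    rw [mul_sub (d i) (b j / d i), mul_div_cancel₀ _ (hd i).ne'] at h4
    linarith
  have hint := intervalIntegral.integral_mono_on (by norm_num)
    ((ii_sand h1 h2 _ _).add (ii_sand h1 h2 _ _)) (ii_RR h1 h2 B) hpt
  rw [intervalIntegral.integral_add (ii_sand h1 h2 _ _) (ii_sand h1 h2 _ _), int_RHR hd h1 h2,
    int_RDR h1 h2] at hint
  have g1 : rt (X₁ * (dg d)⁻¹) = Fintype.card n - ld (dg d) := by
    rw [dg_inv fun i => (hd i).ne', dg_mul_dg, rt_dg, Diag.ld (diag_dg d) hd, Fintype.card,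
      Finset.card_eq_sum_ones, Nat.cast_sum, ← Finset.sum_sub_distrib]
    refine Finset.sum_congr rfl fun i _ => ?_
    have := hd i
    field_simp; simp
  have g2 : rt (X₂ * ((dg d - M)⁻¹ + (dg d + M)⁻¹)) = 2 * ∑ j, Real.log (b j) := by
    have h3 := harm_mul hD h1 h2
    rw [hHQ, Matrix.mul_assoc, mul_eq_one_comm, Matrix.mul_smul, Matrix.smul_mul] at h3
    have h4 : Qᴴ * ((dg d - M)⁻¹ + (dg d + M)⁻¹) * Q = (2 : ℝ) • 1 := by
      rw [← h3, smul_smul]; norm_num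
    calc rt (X₂ * ((dg d - M)⁻¹ + (dg d + M)⁻¹))
        = rt (Q * (dg (fun j => Real.log (b j)) * (Qᴴ * ((dg d - M)⁻¹ + (dg d + M)⁻¹)))) := by
          simp only [X₂, Matrix.mul_assoc]
      _ = _ := by
          rw [rt_mul_comm, Matrix.mul_assoc, h4, Matrix.mul_smul, Matrix.mul_one, rt_smul, rt_dg]
  have g3 : ld B = ld (dg d - M * (dg d)⁻¹ * M) + ∑ j, Real.log (b j) := by
    have h3 := det_re_pos hH
    rw [ld_of_det (A := B) (x := (dg d - M * (dg d)⁻¹ * M).det.re * ∏ j, b j),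
      Real.log_mul h3.ne' (Finset.prod_pos fun j _ => hb j).ne',
      Real.log_prod fun j _ => (hb j).ne']
    · rfl
    · push_cast
      rw [← det_eq_re hH.1, hHQ, hBQ, det_mul, det_mul, det_mul, det_dg]; push_cast; ring
  rw [ld_harm hD h1 h2] at g3
  rw [g1, g2] at hint
  rw [trT]; linarith

theorem pw_iii {d : n → ℝ} (hd : ∀ i, 0 < d i) {M : Matrix n n ℂ} (h1 : (dg d - M).PosDef)
    (h2 : (dg d + M).PosDef) :
    trT d M 1 ≤ rt (((dg d - M)⁻¹ + (dg d + M)⁻¹) * dg fun i => (2 * d i)⁻¹) := by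
  have hpt : ∀ t ∈ Set.Icc (-1 : ℝ) 1, rt (res d M t * res d M t * 1) ≤
      rt (dg (fun i => (d i)⁻¹) * (res d M t * dg d * res d M t)) := by
    intro t ht
    have := q_ineq (a := fun i => (d i)⁻¹) (fun i => inv_pos.mpr (hd i)) (res_herm h1 h2 ht)
    simpa only [inv_inv, Matrix.mul_assoc, Matrix.mul_one] using this
  have hint := intervalIntegral.integral_mono_on (by norm_num) (ii_RR h1 h2 1)
    (ii_sand h1 h2 _ _) hpt
  rw [int_RDR h1 h2] at hint
  have e : (dg fun i => (2 * d i)⁻¹) = (1 / 2 : ℝ) • dg fun i => (d i)⁻¹ := by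
    rw [dg_smul]; congr 1; ext i; rw [mul_inv]; norm_num
  rw [e, Matrix.mul_smul, rt_smul, rt_mul_comm, trT]
  linarith

/-- `ld (D - M) + ld (D + M) ≤ N log c + tr(D² - M²)/c - N` (`ld_mul_le` for `c⁻¹ D` and `H`,
and `rt (M M) ≤ rt (D M D⁻¹ M)`) -/
theorem pw_iv {d : n → ℝ} (hd : ∀ i, 0 < d i) {M : Matrix n n ℂ} (h1 : (dg d - M).PosDef)
    (h2 : (dg d + M).PosDef) {c : ℝ} (hc : 0 < c) :
    ld (dg d - M) + ld (dg d + M) ≤
      Fintype.card n * Real.log c + rt (dg d * dg d - M * M) / c - Fintype.card n := by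
  have hD := dg_posDef hd
  have h := ld_mul_le (hD.smul (inv_pos.mpr hc)) (harm_posDef hD h1 h2)
  rw [ld_smul hD (inv_pos.mpr hc), ld_harm hD h1 h2, Real.log_inv, Matrix.smul_mul, rt_smul,
    Matrix.mul_sub, rt_sub, dg_inv fun i => (hd i).ne'] at h
  have hq := q_ineq hd (herm_of_up h1.posSemidef)
  simp only [Matrix.mul_assoc] at h hq
  have h3 := mul_le_mul_of_nonneg_left hq (inv_pos.mpr hc).le
  rw [rt_sub, div_eq_inv_mul]
  linarith

namespace PWA

lemma sand_lower {S Δ : Matrix n n ℂ} (hS : S.PosDef) (hΔ : Δᴴ = Δ) {σ : ℝ} (hσ : 0 < σ)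
    (h : (σ • (1 : Matrix n n ℂ) - S).PosSemidef) :
    ‖Δ‖ ^ 2 / σ ^ 2 ≤ rt (S⁻¹ * (Δ * S⁻¹ * Δ)) := by
  have hi := inv_ge_of_le hS hσ h
  have p1 : (Δ * S⁻¹ * Δ).PosSemidef := by
    have := hS.inv.posSemidef.conjTranspose_mul_mul_same Δ
    rwa [hΔ] at this
  have p2 : (Δ * Δ).PosSemidef := by
    have := posSemidef_conjTranspose_mul_self Δ
    rwa [hΔ] at this
  have a1 := rt_mul_mono p1 hi
  have a2 := rt_mul_mono p2 hi
  rw [Matrix.mul_smul, Matrix.mul_one, rt_smul] at a1 a2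
  rw [rt_mul_comm S⁻¹, norm_sq_eq_rt, hΔ]
  have a3 : rt (Δ * S⁻¹ * Δ) = rt (Δ * Δ * S⁻¹) := by
    rw [rt_mul_comm, Matrix.mul_assoc]
  have a4 := mul_le_mul_of_nonneg_left a2 (inv_pos.mpr hσ).le
  calc rt (Δ * Δ) / σ ^ 2 = σ⁻¹ * (σ⁻¹ * rt (Δ * Δ)) := by field_simp
    _ ≤ _ := by rw [a3] at a1; linarith

lemma sand_upper {S Γ : Matrix n n ℂ} {b : ℝ} (hb : 0 < b)
    (h : (S - b • (1 : Matrix n n ℂ)).PosSemidef) :
    rt (S⁻¹ * (Γᴴ * S⁻¹ * Γ)) ≤ ‖Γ‖ ^ 2 / b ^ 2 := by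
  obtain ⟨hS, hi⟩ := inv_le_of_ge hb h
  have p1 : (Γᴴ * S⁻¹ * Γ).PosSemidef := hS.inv.posSemidef.conjTranspose_mul_mul_same Γ
  have p2 : (Γ * Γᴴ).PosSemidef := posSemidef_self_mul_conjTranspose Γ
  have a1 := rt_mul_mono p1 hi
  have a2 := rt_mul_mono p2 hi
  rw [Matrix.mul_smul, Matrix.mul_one, rt_smul] at a1 a2
  rw [rt_mul_comm S⁻¹, norm_sq_eq_rt']
  have a3 : rt (Γᴴ * S⁻¹ * Γ) = rt (Γ * Γᴴ * S⁻¹) := by
    rw [rt_mul_comm, Matrix.mul_assoc]
  have a4 := mul_le_mul_of_nonneg_left a2 (inv_pos.mpr hb).le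
  calc _ ≤ b⁻¹ * (b⁻¹ * rt (Γ * Γᴴ)) := by rw [a3] at a1; linarith
    _ = _ := by field_simp

end PWA

theorem pw_def {d : n → ℝ} (hd : ∀ i, 0 < d i) {M : Matrix n n ℂ} (h1 : (dg d - M).PosDef)
    (h2 : (dg d + M).PosDef) {B : Matrix n n ℂ} (hB : B.PosDef) {b₀ σ : ℝ} (hb₀ : 0 < b₀)
    (hσ : 0 < σ) (hlo : (dg d * dg d - M * M - b₀ • (1 : Matrix n n ℂ)).PosSemidef)
    (hup : (σ • (1 : Matrix n n ℂ) - (dg d * dg d - M * M)).PosSemidef)
    (hBup : (σ • (1 : Matrix n n ℂ) - B).PosSemidef) :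
    ‖B - (dg d * dg d - M * M)‖ ^ 2 / (4 * σ ^ 2) ≤
      (trT d M B - Fintype.card n - ld B + ld (dg d - M) + ld (dg d + M)) +
        ‖dg d * M - M * dg d‖ ^ 2 / (2 * b₀ ^ 2) := by
  have hM : Mᴴ = M := herm_of_up h1.posSemidef
  set B₀ := dg d * dg d - M * M with hB₀
  set Γ := dg d * M - M * dg d with hΓ
  have hB0 : B₀.PosDef := (inv_le_of_ge hb₀ hlo).1
  set S := (1 / 2 : ℝ) • (B + B₀) with hSd
  set Δ := (1 / 2 : ℝ) • (B - B₀) with hΔd
  have hS : S.PosDef := (hB.add hB0).smul (by norm_num)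
  have e1 : S - Δ = B₀ := by rw [hSd, hΔd]; module
  have e2 : S + Δ = B := by rw [hSd, hΔd]; module
  have hΔ : Δᴴ = Δ := by
    rw [hΔd, conjTranspose_smul, conjTranspose_sub, hB.1.eq, hB0.1.eq]; simp
  have hSσ : (σ • (1 : Matrix n n ℂ) - S).PosSemidef := by
    have : σ • (1 : Matrix n n ℂ) - S =
        (1 / 2 : ℝ) • ((σ • (1 : Matrix n n ℂ) - B₀) + (σ • (1 : Matrix n n ℂ) - B)) := by
      rw [hSd]; module
    rw [this]; exact (hup.add hBup).smul (by norm_num)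
  -- strong concavity of `ld`
  have a1 := ld_mul_le hS.inv (harm_posDef hS (e1 ▸ hB0) (e2 ▸ hB))
  rw [ld_harm hS (e1 ▸ hB0) (e2 ▸ hB), e1, e2, ld_inv hS, Matrix.mul_sub,
    nonsing_inv_mul _ (unit_det hS), rt_sub, rt_one] at a1
  have a2 := sand_lower hS hΔ hσ hSσ
  have a3 := pw_ii hd h1 h2 hS
  have a4 : trT d M S = (trT d M B + trT d M B₀) / 2 := by
    rw [hSd, trT_smul, trT_add h1 h2]; ring
  -- the commutator term
  have a5 : trT d M B₀ ≤ Fintype.card n := by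
    have hs : ∀ i, d i ≤ ∑ j, d j + 1 := fun i => by
      have := Finset.single_le_sum (f := d) (fun j _ => (hd j).le) (Finset.mem_univ i)
      linarith
    have h0 : 0 < ∑ j, d j + 1 := by
      have := Finset.sum_nonneg (s := Finset.univ) fun j _ => (hd j).le
      linarith
    have := pw_i hd hs h0 h1 h2
    have h3 : 0 ≤ ‖dg d * M - M * dg d‖ ^ 2 / (3 * (2 * (∑ j, d j + 1)) ^ 4) := by positivity
    linarith
  have hΓh : Γᴴ = -Γ := by
    rw [hΓ, conjTranspose_sub, conjTranspose_mul, conjTranspose_mul, hM, dg_conjT]; abel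
  have f1 : B₀ + Γ = (dg d - M) * (dg d + M) := by
    simp only [hB₀, hΓ, Matrix.mul_add, Matrix.sub_mul]; abel
  have f2 : B₀ - Γ = (dg d + M) * (dg d - M) := by
    simp only [hB₀, hΓ, Matrix.mul_sub, Matrix.add_mul]; abel
  have f3 : B₀ - Γ * B₀⁻¹ * Γ = B₀ + Γᴴ * B₀⁻¹ * Γ := by
    rw [hΓh, Matrix.neg_mul, Matrix.neg_mul, sub_eq_add_neg]
  have f4 : (B₀ + Γᴴ * B₀⁻¹ * Γ).PosDef :=
    hB0.add_posSemidef (hB0.inv.posSemidef.conjTranspose_mul_mul_same Γ)
  have x1 := det_re_pos h1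
  have x2 := det_re_pos h2
  have f5 : ld (B₀ + Γᴴ * B₀⁻¹ * Γ) = 2 * (ld (dg d - M) + ld (dg d + M)) - ld B₀ := by
    rw [← f3, harm_eq hB0, ld_triple (x := (dg d - M).det.re * (dg d + M).det.re)
      (y := (dg d - M).det.re * (dg d + M).det.re) (mul_pos x1 x2) (mul_pos x1 x2) ?_ ?_ hB0,
      Real.log_mul x1.ne' x2.ne']
    · simp only [ld]; ring
    · rw [f2, det_mul]; push_cast; rw [← det_eq_re h1.1, ← det_eq_re h2.1, mul_comm]
    · rw [f1, det_mul]; push_cast; rw [← det_eq_re h1.1, ← det_eq_re h2.1]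
  have a6 := ld_mul_le hB0.inv f4
  rw [f5, ld_inv hB0, Matrix.mul_add, nonsing_inv_mul _ (unit_det hB0), rt_add, rt_one] at a6
  have a7 := sand_upper (Γ := Γ) hb₀ hlo
  have a8 : ‖B - B₀‖ ^ 2 / (4 * σ ^ 2) = ‖Δ‖ ^ 2 / σ ^ 2 := by
    rw [hΔd, norm_smul, mul_pow]; norm_num; field_simp
  have a9 : ‖Γ‖ ^ 2 / (2 * b₀ ^ 2) = ‖Γ‖ ^ 2 / b₀ ^ 2 / 2 := by field_simp
  rw [a8, a9]
  linarith

end Crest.Agent.R332
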